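import Vale.Agent.P171.Press

open MeasureTheory Filter Topology
open scoped ENNReal

namespace Vale.Agent.P171

theorem bridge_measurableSet_pi_cube (L : ℝ) (N : ℕ) :
    MeasurableSet (Set.pi Set.univ fun _ : Fin N => cube L) :=
  MeasurableSet.univ_pi fun _ => measurableSet_cube L

theorem bridge_cube_subset {L L' : ℝ} (h : L ≤ L') : cube L ⊆ cube L' :=
  fun _ hp i => ⟨(hp i).1, (hp i).2.trans h⟩

theorem bridge_volume_cube_lt_top (L : ℝ) : volume (cube L) < ⊤ := by
  refine (measure_mono (bridge_cube_subset (le_abs_self L))).trans_lt ?_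
  rw [volume_cube (abs_nonneg L)]
  exact ENNReal.ofReal_lt_top

theorem bridge_ob_act (μ : ℝ) (S : Set E3) (N : ℕ) (x : Fin N → E3) :
    ob (act μ S) N x =
      (Set.pi Set.univ fun _ : Fin N => S).indicator
        (fun _ => ENNReal.ofReal (Real.exp μ) ^ N) x := by
  unfold ob act
  by_cases h : x ∈ Set.pi Set.univ fun _ : Fin N => S
  · rw [Set.indicator_of_mem h]
    have h' : ∀ i, x i ∈ S := fun i => h i (Set.mem_univ i)
    simp [h']
  · rw [Set.indicator_of_notMem h]
    simp only [Set.mem_pi, Set.mem_univ, true_implies, not_forall] at h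
    obtain ⟨i, hi⟩ := h
    exact Finset.prod_eq_zero (Finset.mem_univ i) (Set.indicator_of_notMem hi _)

/-- D4a: integrability of the Boltzmann factor on the cube. -/
theorem integrableOn_boltzmann {φ : ℝ → ℝ} {B : ℝ} (h : Good φ B) (L : ℝ) (N : ℕ) :
    IntegrableOn (fun x : Fin N → E3 => Real.exp (-(1 * U φ N x)))
      (Set.pi Set.univ (fun _ : Fin N => cube L)) := by
  have hm : Measurable fun x : Fin N → E3 => Real.exp (-(1 * U φ N x)) :=
    Real.measurable_exp.comp ((measurable_const.mul (measurable_U h.meas N)).neg)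
  refine Measure.integrableOn_of_bounded (M := Real.exp (B * N)) ?_ hm.aestronglyMeasurable ?_
  · rw [volume_pi, Measure.pi_pi]
    exact (ENNReal.prod_lt_top fun i _ => bridge_volume_cube_lt_top L).ne
  · refine ae_restrict_of_ae ?_
    rw [volume_pi]
    filter_upwards [ae_injective N] with x hx
    rw [Real.norm_eq_abs, abs_of_pos (Real.exp_pos _)]
    refine Real.exp_le_exp.2 ?_
    have := h.stab N x hx
    linarith

/-- The `N`-th term of the grand partition functional is `z ^ N * Z_{L,N}`. -/
theorem bridge_term_toReal {φ : ℝ → ℝ} (hφ : Measurable φ) (L : ℝ) {z : ℝ} (hz : 0 < z) (N : ℕ) :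
    z ^ N * Zc φ 1 L N = (((N.factorial : ℝ≥0∞))⁻¹ *
      ∫⁻ x : Fin N → E3, bw φ N x * ob (act (Real.log z) (cube L)) N x
        ∂(Measure.pi fun _ => (volume : Measure E3))).toReal := by
  have hS := bridge_measurableSet_pi_cube L N
  have h1 : ∫⁻ x : Fin N → E3, bw φ N x * ob (act (Real.log z) (cube L)) N x
        ∂(Measure.pi fun _ => (volume : Measure E3))
      = ENNReal.ofReal z ^ N * ∫⁻ x in Set.pi Set.univ (fun _ : Fin N => cube L),
          ENNReal.ofReal (Real.exp (-(1 * U φ N x)))
            ∂(Measure.pi fun _ => (volume : Measure E3)) := by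
    rw [← lintegral_const_mul' _ _ (by simp), ← lintegral_indicator hS]
    refine lintegral_congr fun x => ?_
    rw [bridge_ob_act, Real.exp_log hz, bw]
    simp only [one_mul]
    by_cases h : x ∈ Set.pi Set.univ fun _ : Fin N => cube L
    · rw [Set.indicator_of_mem h, Set.indicator_of_mem h, mul_comm]
    · rw [Set.indicator_of_notMem h, Set.indicator_of_notMem h, mul_zero]
  have h2 : ∫ x in Set.pi Set.univ (fun _ : Fin N => cube L), Real.exp (-(1 * U φ N x))
      = (∫⁻ x in Set.pi Set.univ (fun _ : Fin N => cube L),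
          ENNReal.ofReal (Real.exp (-(1 * U φ N x)))
            ∂(Measure.pi fun _ => (volume : Measure E3))).toReal := by
    have hm : Measurable fun x : Fin N → E3 => Real.exp (-(1 * U φ N x)) :=
      Real.measurable_exp.comp ((measurable_const.mul (measurable_U hφ N)).neg)
    rw [integral_eq_lintegral_of_nonneg_ae
      (Filter.Eventually.of_forall fun x => (Real.exp_pos _).le) hm.aestronglyMeasurable]
    rfl
  rw [h1, Zc, h2, ENNReal.toReal_mul, ENNReal.toReal_mul, ENNReal.toReal_inv, ENNReal.toReal_pow,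
    ENNReal.toReal_ofReal hz.le, ENNReal.toReal_natCast]
  ring

theorem bridge_XiS_cube_ne_top {φ : ℝ → ℝ} {B : ℝ} (h : Good φ B) (μ L : ℝ) :
    XiS φ μ (cube L) ≠ ⊤ := by
  have hV : volume (cube L) ≤ ENNReal.ofReal (|L| ^ 3) := by
    rw [← volume_cube (abs_nonneg L)]
    exact measure_mono (bridge_cube_subset (le_abs_self L))
  exact ne_top_of_le_ne_top ENNReal.ofReal_ne_top
    (XiS_le_exp h μ (measurableSet_cube L) (by positivity) hV)

/-- D4b: summability of the grand canonical series. -/
theorem summable_Xi {φ : ℝ → ℝ} {B : ℝ} (h : Good φ B) (L : ℝ) {z : ℝ} (hz : 0 < z) :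
    Summable (fun N : ℕ => z ^ N * Zc φ 1 L N) := by
  simp_rw [bridge_term_toReal h.meas L hz]
  exact ENNReal.summable_toReal (bridge_XiS_cube_ne_top h (Real.log z) L)

/-- D4c: the real grand partition function of the problem is the one used in the proof. -/
theorem Xi_eq_toReal {φ : ℝ → ℝ} {B : ℝ} (h : Good φ B) (L : ℝ) {z : ℝ} (hz : 0 < z) :
    Xi φ 1 L z = (XiS φ (Real.log z) (cube L)).toReal := by
  unfold Xi
  simp_rw [bridge_term_toReal h.meas L hz]
  unfold XiS GP GS
  rw [ENNReal.tsum_toReal_eq]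
  intro N
  exact ne_top_of_le_ne_top (bridge_XiS_cube_ne_top h (Real.log z) L) (term_le_GS volume _ N)

/-- D4d: the pressure of the problem. -/
theorem isPressure {φ : ℝ → ℝ} {B : ℝ} (h : Good φ B) :
    IsPressure φ 1 (fun z => press φ (Real.log z)) := by
  intro z hz
  refine (tendsto_press h (Real.log z)).congr fun L => ?_
  rw [Xi_eq_toReal h L hz, lX, div_eq_inv_mul]

/-- D4e: a kink in `μ` is a kink in `z`. -/
theorem not_differentiableAt_z {P : ℝ → ℝ} {μ : ℝ} (h : ¬ DifferentiableAt ℝ P μ) :
    ¬ DifferentiableAt ℝ (fun z => P (Real.log z)) (Real.exp μ) := by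
  intro hd
  apply h
  have h2 : DifferentiableAt ℝ ((fun z => P (Real.log z)) ∘ Real.exp) μ :=
    DifferentiableAt.comp μ hd Real.differentiableAt_exp
  have h3 : ((fun z => P (Real.log z)) ∘ Real.exp) = P := by
    funext x
    simp [Real.log_exp]
  rwa [h3] at h2

end Vale.Agent.P171
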