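import Vale.Agent.P171.Press

open MeasureTheory Filter Topology
open scoped ENNReal

namespace Vale.Agent.P171

namespace PressConv

/-- comparison of the logarithms -/
theorem lX_le_lX {φ φ' : ℝ → ℝ} {B B' : ℝ} (h : Good φ B) (h' : Good φ' B') {μ μ' : ℝ}
    {L : ℝ} (hL : 0 ≤ L) (hle : XiS φ μ (cube L) ≤ XiS φ' μ' (cube L)) :
    lX φ μ L ≤ lX φ' μ' L := by
  unfold lX
  refine Real.log_le_log ?_ (ENNReal.toReal_mono (XiS_cube_ne_top h' μ' hL) hle)
  have := one_le_toReal_XiS h μ hL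
  linarith

/-- passage to the limit in an inequality between the finite volume quantities -/
theorem press_le_of_lX_le {φ φ' : ℝ → ℝ} {B B' : ℝ} (h : Good φ B) (h' : Good φ' B') {μ μ' : ℝ}
    (hle : ∀ L : ℝ, 0 < L → lX φ μ L ≤ lX φ' μ' L) : press φ μ ≤ press φ' μ' := by
  refine le_of_tendsto_of_tendsto (tendsto_press h μ) (tendsto_press h' μ') ?_
  filter_upwards [eventually_gt_atTop (0 : ℝ)] with L hL
  exact div_le_div_of_nonneg_right (hle L hL) (by positivity)

theorem log_holder {X X0 X1 : ℝ≥0∞} (hX : 1 ≤ X) (h0 : 1 ≤ X0) (h1 : 1 ≤ X1) (h0t : X0 ≠ ⊤)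
    (h1t : X1 ≠ ⊤) {s : ℝ} (hle : X ≤ X0 ^ (1 - s) * X1 ^ s) :
    Real.log X.toReal ≤ (1 - s) * Real.log X0.toReal + s * Real.log X1.toReal := by
  have p0 : 1 ≤ X0.toReal := by simpa using ENNReal.toReal_mono h0t h0
  have p1 : 1 ≤ X1.toReal := by simpa using ENNReal.toReal_mono h1t h1
  have hne0 : X0 ≠ 0 := fun h => by simp [h] at h0
  have hne1 : X1 ≠ 0 := fun h => by simp [h] at h1
  have ht : X0 ^ (1 - s) * X1 ^ s ≠ ⊤ :=
    ENNReal.mul_ne_top (ENNReal.rpow_ne_top_of_ne_zero hne0 h0t) (ENNReal.rpow_ne_top_of_ne_zero hne1 h1t)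
  have hXt : X ≠ ⊤ := ne_top_of_le_ne_top ht hle
  have pX : 1 ≤ X.toReal := by simpa using ENNReal.toReal_mono hXt hX
  have h2 := ENNReal.toReal_mono ht hle
  rw [ENNReal.toReal_mul, ← ENNReal.toReal_rpow, ← ENNReal.toReal_rpow] at h2
  have h3 := Real.log_le_log (by linarith) h2
  rw [Real.log_mul (by positivity) (by positivity), Real.log_rpow (by linarith),
    Real.log_rpow (by linarith)] at h3
  exact h3

/-- passage to the limit in a convexity inequality -/
theorem press_le_of_lX_le_comb {φ φ0 φ1 : ℝ → ℝ} {B B0 B1 : ℝ} (h : Good φ B) (h0 : Good φ0 B0)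
    (h1 : Good φ1 B1) {μ μ0 μ1 s : ℝ}
    (hle : ∀ L : ℝ, 0 < L → lX φ μ L ≤ (1 - s) * lX φ0 μ0 L + s * lX φ1 μ1 L) :
    press φ μ ≤ (1 - s) * press φ0 μ0 + s * press φ1 μ1 := by
  have hlim : Tendsto (fun L : ℝ => (1 - s) * (lX φ0 μ0 L / L ^ 3) + s * (lX φ1 μ1 L / L ^ 3))
      atTop (𝓝 ((1 - s) * press φ0 μ0 + s * press φ1 μ1)) :=
    ((tendsto_press h0 μ0).const_mul _).add ((tendsto_press h1 μ1).const_mul _)
  refine le_of_tendsto_of_tendsto (tendsto_press h μ) hlim ?_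
  filter_upwards [eventually_gt_atTop (0 : ℝ)] with L hL
  have hL3 : (0 : ℝ) < L ^ 3 := by positivity
  have := div_le_div_of_nonneg_right (hle L hL) hL3.le
  calc lX φ μ L / L ^ 3 ≤ ((1 - s) * lX φ0 μ0 L + s * lX φ1 μ1 L) / L ^ 3 := this
    _ = (1 - s) * (lX φ0 μ0 L / L ^ 3) + s * (lX φ1 μ1 L / L ^ 3) := by ring

theorem act_mono {μ μ' : ℝ} (h : μ ≤ μ') (S : Set E3) (x : E3) : act μ S x ≤ act μ' S x := by
  unfold act
  refine Set.indicator_le_indicator ?_
  exact ENNReal.ofReal_le_ofReal (Real.exp_le_exp.2 h)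

end PressConv

open PressConv

theorem press_mono {φ : ℝ → ℝ} {B : ℝ} (h : Good φ B) : Monotone (press φ) := by
  intro μ μ' hμ
  refine press_le_of_lX_le h h fun L hL => lX_le_lX h h hL.le ?_
  exact GP_mono volume (fun N => Filter.Eventually.of_forall fun x _ => le_rfl)
    (act_mono hμ (cube L))

namespace PressConv

theorem measurable_bw {φ : ℝ → ℝ} (hφ : Measurable φ) (N : ℕ) : Measurable (bw φ N) :=
  ENNReal.measurable_ofReal.comp (Real.measurable_exp.comp (measurable_U hφ N).neg)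

theorem ofReal_exp_rpow (a s : ℝ) :
    ENNReal.ofReal (Real.exp a) ^ s = ENNReal.ofReal (Real.exp (s * a)) := by
  rw [ENNReal.ofReal_rpow_of_pos (Real.exp_pos a), ← Real.exp_mul, mul_comm]

theorem act_holder (μ0 μ1 : ℝ) {s : ℝ} (hs0 : 0 < s) (S : Set E3) (x : E3) :
    act ((1 - s) * μ0 + s * μ1) S x = act μ0 S x ^ (1 - s) * act μ1 S x ^ s := by
  unfold act
  by_cases hx : x ∈ S
  · simp only [Set.indicator_of_mem hx]
    rw [ofReal_exp_rpow, ofReal_exp_rpow, ← ENNReal.ofReal_mul (Real.exp_pos _).le,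
      ← Real.exp_add]
  · simp only [Set.indicator_of_notMem hx]
    rw [ENNReal.zero_rpow_of_pos hs0]
    simp

theorem ob_holder {f f0 f1 : E3 → ℝ≥0∞} {s : ℝ} (hs0 : 0 ≤ s) (hs1 : s ≤ 1)
    (hf : ∀ x, f x = f0 x ^ (1 - s) * f1 x ^ s) (N : ℕ) (x : Fin N → E3) :
    ob f N x = ob f0 N x ^ (1 - s) * ob f1 N x ^ s := by
  unfold ob
  rw [← ENNReal.prod_rpow_of_nonneg (by linarith), ← ENNReal.prod_rpow_of_nonneg hs0,
    ← Finset.prod_mul_distrib]
  exact Finset.prod_congr rfl fun i _ => hf (x i)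

theorem self_holder (a : ℝ≥0∞) {s : ℝ} (hs0 : 0 ≤ s) (hs1 : s ≤ 1) :
    a = a ^ (1 - s) * a ^ s := by
  rw [← ENNReal.rpow_add_of_nonneg _ _ (by linarith) hs0]
  simp

end PressConv

open PressConv

theorem press_convex {φ : ℝ → ℝ} {B : ℝ} (h : Good φ B) : ConvexOn ℝ Set.univ (press φ) := by
  refine ⟨convex_univ, ?_⟩
  intro μ0 _ μ1 _ a s ha hs has
  obtain rfl : a = 1 - s := by linarith
  simp only [smul_eq_mul]
  rcases hs.eq_or_lt with rfl | hs0
  · simp
  have hs1' : s ≤ 1 := by linarith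
  rcases hs1'.eq_or_lt with rfl | hs1
  · simp
  refine press_le_of_lX_le_comb h h h fun L hL => ?_
  unfold lX
  refine log_holder (one_le_XiS _ _ _) (one_le_XiS _ _ _) (one_le_XiS _ _ _)
    (XiS_cube_ne_top h μ0 hL.le) (XiS_cube_ne_top h μ1 hL.le) ?_
  have hH := GS_holder (volume : Measure E3)
    (u0 := fun N x => bw φ N x * ob (act μ0 (cube L)) N x)
    (u1 := fun N x => bw φ N x * ob (act μ1 (cube L)) N x)
    (fun N => (measurable_bw h.meas N).mul
      (measurable_ob (measurable_act μ0 (measurableSet_cube L)) N))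
    (fun N => (measurable_bw h.meas N).mul
      (measurable_ob (measurable_act μ1 (measurableSet_cube L)) N)) hs0 hs1
  refine le_trans (le_of_eq ?_) hH
  unfold XiS GP
  congr 1
  funext N x
  rw [ENNReal.mul_rpow_of_nonneg _ _ (by linarith : (0 : ℝ) ≤ 1 - s),
    ENNReal.mul_rpow_of_nonneg _ _ hs0.le,
    ob_holder hs0.le hs1.le (act_holder μ0 μ1 hs0 (cube L)) N x]
  conv_lhs => rw [self_holder (bw φ N x) hs0.le hs1.le]
  ring

namespace PressConv

theorem U_le_U {φ φ' : ℝ → ℝ} (hle : ∀ r, 0 < r → φ' r ≤ φ r) {N : ℕ} {x : Fin N → E3}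
    (hx : Function.Injective x) : U φ' N x ≤ U φ N x := by
  unfold U
  refine Finset.sum_le_sum fun i _ => Finset.sum_le_sum fun j _ => ?_
  by_cases hij : i < j
  · simp only [hij, if_true]
    exact hle _ (dist_pos.2 fun he => hij.ne (hx he))
  · simp [hij]

end PressConv

open PressConv

/-- D6: the pressure decreases with the potential. -/
theorem press_anti {φ φ' : ℝ → ℝ} {B B' : ℝ} (h : Good φ B) (h' : Good φ' B')
    (hle : ∀ r, 0 < r → φ' r ≤ φ r) (μ : ℝ) : press φ μ ≤ press φ' μ := by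
  refine press_le_of_lX_le h h' fun L hL => lX_le_lX h h' hL.le ?_
  refine GP_mono volume (fun N => ?_) fun x => le_rfl
  filter_upwards [ae_injective N] with x hx _
  unfold bw
  refine ENNReal.ofReal_le_ofReal (Real.exp_le_exp.2 ?_)
  have := U_le_U hle hx
  linarith

namespace PressConv

theorem U_comb (φ0 φ1 : ℝ → ℝ) (s : ℝ) (N : ℕ) (x : Fin N → E3) :
    U (fun r => (1 - s) * φ0 r + s * φ1 r) N x = (1 - s) * U φ0 N x + s * U φ1 N x := by
  unfold U
  rw [Finset.mul_sum, Finset.mul_sum, ← Finset.sum_add_distrib]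
  refine Finset.sum_congr rfl fun i _ => ?_
  rw [Finset.mul_sum, Finset.mul_sum, ← Finset.sum_add_distrib]
  refine Finset.sum_congr rfl fun j _ => ?_
  by_cases hij : i < j
  · simp [hij]
  · simp [hij]

theorem good_comb {φ0 φ1 : ℝ → ℝ} {B0 B1 : ℝ} (h0 : Good φ0 B0) (h1 : Good φ1 B1)
    {s : ℝ} (hs0 : 0 ≤ s) (hs1 : s ≤ 1) :
    Good (fun r => (1 - s) * φ0 r + s * φ1 r) ((1 - s) * B0 + s * B1) where
  meas := (h0.meas.const_mul _).add (h1.meas.const_mul _)
  neg := by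
    intro r hr
    have a0 := h0.neg r hr
    have a1 := h1.neg r hr
    have : 0 ≤ 1 - s := by linarith
    nlinarith [mul_nonneg this (neg_nonneg.2 a0), mul_nonneg hs0 (neg_nonneg.2 a1)]
  stab := by
    intro N x hx
    rw [U_comb]
    have a0 := h0.stab N x hx
    have a1 := h1.stab N x hx
    have : 0 ≤ 1 - s := by linarith
    nlinarith [mul_le_mul_of_nonneg_left a0 this, mul_le_mul_of_nonneg_left a1 hs0]

theorem bw_holder (φ0 φ1 : ℝ → ℝ) (s : ℝ) (N : ℕ) (x : Fin N → E3) :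
    bw (fun r => (1 - s) * φ0 r + s * φ1 r) N x = bw φ0 N x ^ (1 - s) * bw φ1 N x ^ s := by
  unfold bw
  rw [ofReal_exp_rpow, ofReal_exp_rpow, ← ENNReal.ofReal_mul (Real.exp_pos _).le,
    ← Real.exp_add, U_comb]
  congr 2
  ring

end PressConv

open PressConv

/-- D8: convexity of the pressure in the potential. -/
theorem press_holder {φ0 φ1 : ℝ → ℝ} {B0 B1 : ℝ} (h0 : Good φ0 B0) (h1 : Good φ1 B1)
    {s : ℝ} (hs0 : 0 < s) (hs1 : s < 1) (μ : ℝ) :
    press (fun r => (1 - s) * φ0 r + s * φ1 r) μ ≤ (1 - s) * press φ0 μ + s * press φ1 μ := by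
  refine press_le_of_lX_le_comb (good_comb h0 h1 hs0.le hs1.le) h0 h1 fun L hL => ?_
  unfold lX
  refine log_holder (one_le_XiS _ _ _) (one_le_XiS _ _ _) (one_le_XiS _ _ _)
    (XiS_cube_ne_top h0 μ hL.le) (XiS_cube_ne_top h1 μ hL.le) ?_
  have hH := GS_holder (volume : Measure E3)
    (u0 := fun N x => bw φ0 N x * ob (act μ (cube L)) N x)
    (u1 := fun N x => bw φ1 N x * ob (act μ (cube L)) N x)
    (fun N => (measurable_bw h0.meas N).mul
      (measurable_ob (measurable_act μ (measurableSet_cube L)) N))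
    (fun N => (measurable_bw h1.meas N).mul
      (measurable_ob (measurable_act μ (measurableSet_cube L)) N)) hs0 hs1
  refine le_trans (le_of_eq ?_) hH
  unfold XiS GP
  congr 1
  funext N x
  rw [ENNReal.mul_rpow_of_nonneg _ _ (by linarith : (0 : ℝ) ≤ 1 - s),
    ENNReal.mul_rpow_of_nonneg _ _ hs0.le, bw_holder]
  conv_lhs => rw [self_holder (ob (act μ (cube L)) N x) hs0.le hs1.le]
  ring

end Vale.Agent.P171
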