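import Vale.Agent.P171.Stab
import Vale.Agent.P171.PressConv

open MeasureTheory Filter Topology

namespace Vale.Agent.P171

namespace Cont

theorem att_comb {a b R : ℕ → ℝ} (ha : Adm a R) (hb : Adm b R) (c d r : ℝ) :
    att (fun k => c * a k + d * b k) R r = c * att a R r + d * att b R r := by
  unfold att
  rw [← tsum_mul_left, ← tsum_mul_left,
    ← ((summable_att ha r).mul_left c).tsum_add ((summable_att hb r).mul_left d)]
  refine tsum_congr fun k => ?_
  ring

theorem pot_comb {a b R : ℕ → ℝ} (ha : Adm a R) (hb : Adm b R) (s r : ℝ) :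
    pot (fun k => (1 - s) * a k + s * b k) R r = (1 - s) * pot a R r + s * pot b R r := by
  unfold pot
  rw [att_comb ha hb]
  ring

theorem adm_comb {a b R : ℕ → ℝ} (ha : Adm a R) (hb : Adm b R) {c d : ℝ} (hc : 0 ≤ c)
    (hd : 0 ≤ d) : Adm (fun k => c * a k + d * b k) R where
  nonneg := fun k => add_nonneg (mul_nonneg hc (ha.nonneg k)) (mul_nonneg hd (hb.nonneg k))
  summ := (ha.summ.mul_left c).add (hb.summ.mul_left d)
  Rge := ha.Rge

theorem tsum_comb {a b R : ℕ → ℝ} (ha : Adm a R) (hb : Adm b R) (c d : ℝ) :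
    ∑' k, (c * a k + d * b k) = c * ∑' k, a k + d * ∑' k, b k := by
  rw [(ha.summ.mul_left c).tsum_add (hb.summ.mul_left d), tsum_mul_left, tsum_mul_left]

/-- the interpolation inequality used for G1 and G2 -/
theorem press_interp {a b R : ℕ → ℝ} {B : ℝ} (ha : Adm a R) (hb : Adm b R)
    (ga : Good (pot a R) B) (gb : Good (pot b R) B)
    (gc : ∀ s : ℝ, 0 ≤ s → s ≤ 1 → Good (pot (fun k => (1 - s) * a k + s * b k) R) B)
    {s : ℝ} (hs0 : 0 < s) (hs1 : s ≤ 1) (ν : ℝ) :
    press (pot (fun k => (1 - s) * a k + s * b k) R) ν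
      ≤ press (pot a R) ν + s * Real.exp (ν + B) := by
  have hna := press_nonneg ga ν
  rcases hs1.eq_or_lt with rfl | hs1
  · have := press_le_exp (gc 1 zero_le_one le_rfl) ν
    linarith
  · have e : pot (fun k => (1 - s) * a k + s * b k) R
        = fun r => (1 - s) * pot a R r + s * pot b R r := by
      funext r
      exact pot_comb ha hb s r
    rw [e]
    have h1 := press_holder ga gb hs0 hs1 ν
    have h2 := press_le_exp gb ν
    have h3 := mul_le_mul_of_nonneg_left h2 hs0.le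
    nlinarith

end Cont

open Cont

/-- G1: continuity in the coupling. -/
theorem press_scale_le (A : ℝ) :
    ∃ B : ℝ, ∀ a R : ℕ → ℝ, Adm a R → ∑' k, a k ≤ A → ∀ η, 0 < η → η ≤ 1 → ∀ ν,
      press (pot (fun k => (1 + η) * a k) R) ν ≤ press (pot a R) ν + η * Real.exp (ν + B) := by
  obtain ⟨B, _, hB⟩ := exists_good (2 * A)
  refine ⟨B, ?_⟩
  intro a R h hA η hη0 hη1 ν
  have hs0 : 0 ≤ ∑' k, a k := tsum_nonneg h.nonneg
  have h2 : Adm (fun k => 0 * a k + 2 * a k) R := adm_comb h h le_rfl (by norm_num)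
  have t2 : ∑' k, (0 * a k + 2 * a k) = 2 * ∑' k, a k := by
    rw [tsum_comb h h]
    ring
  have key := press_interp (B := B) h h2 (hB a R h (by linarith)) (hB _ R h2 (by rw [t2]; linarith))
    (by
      intro s hs0' hs1'
      refine hB _ R (adm_comb h h2 (by linarith) hs0') ?_
      rw [tsum_comb h h2, t2]
      nlinarith) hη0 hη1 ν
  have e : (fun k => (1 - η) * a k + η * (0 * a k + 2 * a k)) = fun k => (1 + η) * a k := by
    funext k
    ring
  rw [e] at key
  exact key

/-- G2: the tail of the attraction changes the pressure little.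
`a'` is `a` with some entries set to zero, the removed mass being at most `τ`. -/
theorem press_tail_le (A : ℝ) (hA : 0 < A) :
    ∃ B : ℝ, ∀ a a' R : ℕ → ℝ, Adm a R → Adm a' R → ∑' k, a k ≤ A → (∀ k, a' k = a k ∨ a' k = 0) →
      ∀ τ, 0 < τ → ∑' k, (a k - a' k) ≤ τ → τ ≤ A → ∀ ν,
      press (pot a R) ν ≤ press (pot a' R) ν + τ / A * Real.exp (ν + B) := by
  obtain ⟨B, _, hB⟩ := exists_good (2 * A)
  refine ⟨B, ?_⟩
  intro a a' R h h' hsum hor τ hτ0 hτ hτA ν
  set s : ℝ := τ / A with hs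
  have hs0 : 0 < s := div_pos hτ0 hA
  have hs1 : s ≤ 1 := (div_le_one hA).2 hτA
  have hle : ∀ k, a' k ≤ a k := by
    intro k
    rcases hor k with hk | hk
    · exact hk.le
    · rw [hk]; exact h.nonneg k
  have hsum' : ∑' k, a' k ≤ A := (h'.summ.tsum_le_tsum hle h.summ).trans hsum
  have hdiff : ∑' k, (a k - a' k) = ∑' k, a k - ∑' k, a' k := h.summ.tsum_sub h'.summ
  -- the auxiliary coupling
  have hb : Adm (fun k => (1 - s⁻¹) * a' k + s⁻¹ * a k) R :=
    { nonneg := by
        intro k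
        have h1 : (1 - s⁻¹) * a' k + s⁻¹ * a k = a' k + s⁻¹ * (a k - a' k) := by ring
        rw [h1]
        have h2 : 0 ≤ a k - a' k := sub_nonneg.2 (hle k)
        have h3 := h'.nonneg k
        positivity
      summ := (h'.summ.mul_left _).add (h.summ.mul_left _)
      Rge := h.Rge }
  have tb : ∑' k, ((1 - s⁻¹) * a' k + s⁻¹ * a k) ≤ 2 * A := by
    rw [tsum_comb h' h]
    have h1 : (1 - s⁻¹) * ∑' k, a' k + s⁻¹ * ∑' k, a k
        = ∑' k, a' k + s⁻¹ * (∑' k, a k - ∑' k, a' k) := by ring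
    rw [h1, ← hdiff]
    have h2 : s⁻¹ * ∑' k, (a k - a' k) ≤ s⁻¹ * τ :=
      mul_le_mul_of_nonneg_left hτ (inv_nonneg.2 hs0.le)
    have h3 : s⁻¹ * τ = A := by
      rw [hs]
      field_simp
    linarith
  have key := press_interp (B := B) h' hb (hB a' R h' (by linarith)) (hB _ R hb tb)
    (by
      intro u hu0 hu1
      refine hB _ R (adm_comb h' hb (by linarith) hu0) ?_
      rw [tsum_comb h' hb]
      nlinarith) hs0 hs1 ν
  have e : (fun k => (1 - s) * a' k + s * ((1 - s⁻¹) * a' k + s⁻¹ * a k)) = a := by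
    funext k
    field_simp
    ring
  rw [e] at key
  exact key

/-- monotonicity in the attraction -/
theorem press_att_mono {a a' R : ℕ → ℝ} (h : Adm a R) (h' : Adm a' R) (hle : ∀ k, a' k ≤ a k)
    (ν : ℝ) : press (pot a' R) ν ≤ press (pot a R) ν := by
  obtain ⟨B, _, hB⟩ := exists_good (∑' k, a k)
  have hsum' : ∑' k, a' k ≤ ∑' k, a k := h'.summ.tsum_le_tsum hle h.summ
  refine press_anti (hB a' R h' hsum') (hB a R h le_rfl) ?_ ν
  intro r _
  unfold pot att
  have : ∑' k, a' k * Kf (R k) r ≤ ∑' k, a k * Kf (R k) r :=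
    (summable_att h' r).tsum_le_tsum
      (fun k => mul_le_mul_of_nonneg_right (hle k) (Kf_nonneg _ _)) (summable_att h r)
  linarith

end Vale.Agent.P171
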