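import Vale.Agent.P171.ConvexT

open Filter Topology

namespace Vale.Agent.P171

theorem Nice.half {g : ℝ → ℝ} {a b0 : ℝ} (ha : 0 < a) (hg : Nice g (2 * a) b0) : Nice g a b0 where
  conv := hg.conv
  mono := hg.mono
  nonneg := hg.nonneg
  growth := fun ν => by
    refine (hg.growth ν).trans ?_
    have h1 : ν ^ 2 / (8 * (2 * a)) ≤ ν ^ 2 / (8 * a) := by
      apply div_le_div_of_nonneg_left (by positivity) (by positivity) (by linarith)
    linarith

/-- H3 (upper semicontinuity of `Tr` in all its arguments).  `gη η` is a family of perturbations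
of `g`, all with the same quadratic growth bound. -/
theorem Tr_usc {g : ℝ → ℝ} {gη : ℝ → ℝ → ℝ} {C : ℝ → ℝ} {a b0 μ : ℝ} (ha : 0 < a)
    (hg : Nice g (2 * a) b0)
    (hgrow : ∀ η, 0 < η → η ≤ 1 → ∀ ν, gη η ν ≤ b0 + ν ^ 2 / (16 * a))
    (hC : Monotone C) (hpert : ∀ η, 0 < η → η ≤ 1 → ∀ ν, gη η ν ≤ g ν + η * C ν)
    {e : ℝ} (he : 0 < e) :
    ∃ δ : ℝ, 0 < δ ∧ δ ≤ 1 ∧ ∀ η a' μ', 0 < η → η ≤ δ → a ≤ a' → a' ≤ a + δ * a → μ ≤ μ' →
      μ' ≤ μ + δ → ∀ t : ℝ, gη η (μ' + t) - t ^ 2 / (2 * a') ≤ Tr a g μ + e := by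
  have hg' : Nice g a b0 := hg.half ha
  -- cut-off
  obtain ⟨T, hT0, hT⟩ : ∃ T : ℝ, 0 ≤ T ∧ 8 * a * b0 + (|μ| + 1) ^ 2 ≤ T ^ 2 := by
    refine ⟨|8 * a * b0 + (|μ| + 1) ^ 2| + 1, by positivity, ?_⟩
    have := le_abs_self (8 * a * b0 + (|μ| + 1) ^ 2)
    have h2 := abs_nonneg (8 * a * b0 + (|μ| + 1) ^ 2)
    nlinarith
  set Cm : ℝ := max (C (μ + 1 + T)) 0 with hCm
  have hCm0 : 0 ≤ Cm := le_max_right _ _
  set M : ℝ := ((2 * T + 1) + T ^ 2) / (2 * a) + Cm with hM
  have hM0 : 0 ≤ M := by positivity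
  refine ⟨min 1 (e / (M + 1)), lt_min one_pos (by positivity), min_le_left _ _, ?_⟩
  intro η a' μ' hη0 hηδ haa' ha'δ hμμ' hμ'δ t
  set δ : ℝ := min 1 (e / (M + 1)) with hδ
  have hδ0 : 0 < δ := lt_min one_pos (by positivity)
  have hδ1 : δ ≤ 1 := min_le_left _ _
  have hδM : δ * M ≤ e := by
    have h1 : δ ≤ e / (M + 1) := min_le_right _ _
    have h2 : δ * (M + 1) ≤ e := by rwa [le_div_iff₀ (by positivity)] at h1
    nlinarith
  have ha'0 : 0 < a' := lt_of_lt_of_le ha haa'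
  have ha'2 : a' ≤ 2 * a := by nlinarith
  have hη1 : η ≤ 1 := hηδ.trans hδ1
  have hTr0 : 0 ≤ Tr a g μ := by
    have := le_Tr ha hg' μ 0
    have h0 := hg.nonneg (μ + 0)
    simp only [ne_eq, OfNat.ofNat_ne_zero, not_false_eq_true, zero_pow, zero_div, sub_zero] at this
    linarith
  have hμ'abs : μ' ^ 2 ≤ (|μ| + 1) ^ 2 := by
    have h1 : |μ'| ≤ |μ| + 1 := by
      rw [abs_le]
      constructor
      · have := neg_abs_le μ; linarith
      · have := le_abs_self μ; linarith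
    calc μ' ^ 2 = |μ'| ^ 2 := (sq_abs _).symm
      _ ≤ (|μ| + 1) ^ 2 := by
        apply pow_le_pow_left₀ (abs_nonneg _) h1
  by_cases htT : T ^ 2 ≤ t ^ 2
  · -- far region
    have h1 := hgrow η hη0 hη1 (μ' + t)
    have h2 : t ^ 2 / (4 * a) ≤ t ^ 2 / (2 * a') := by
      apply div_le_div_of_nonneg_left (by positivity) (by positivity) (by linarith)
    have h3 : (μ' + t) ^ 2 ≤ 2 * μ' ^ 2 + 2 * t ^ 2 := by nlinarith [sq_nonneg (μ' - t)]
    have h4 : (μ' + t) ^ 2 / (16 * a) ≤ (2 * μ' ^ 2 + 2 * t ^ 2) / (16 * a) := by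
      apply div_le_div_of_nonneg_right h3 (by positivity)
    have h5 : b0 + (2 * μ' ^ 2 + 2 * t ^ 2) / (16 * a) - t ^ 2 / (4 * a) ≤ 0 := by
      have : b0 + (2 * μ' ^ 2 + 2 * t ^ 2) / (16 * a) - t ^ 2 / (4 * a)
          = (8 * a * b0 + μ' ^ 2 - t ^ 2) / (8 * a) := by
        field_simp
        ring
      rw [this]
      apply div_nonpos_of_nonpos_of_nonneg _ (by positivity)
      linarith
    linarith
  · -- near region
    push Not at htT
    have htabs : |t| < T := by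
      have := abs_lt_of_sq_lt_sq htT hT0
      exact this
    have ht1 : t < T := (abs_lt.mp htabs).2
    have ht2 : -T < t := (abs_lt.mp htabs).1
    have h1 := hpert η hη0 hη1 (μ' + t)
    have h2 : C (μ' + t) ≤ Cm := (hC (by linarith)).trans (le_max_left _ _)
    have h3 : η * C (μ' + t) ≤ δ * Cm := by
      calc η * C (μ' + t) ≤ η * Cm := by apply mul_le_mul_of_nonneg_left h2 hη0.le
        _ ≤ δ * Cm := by apply mul_le_mul_of_nonneg_right hηδ hCm0
    have h4 := le_Tr ha hg' μ (t + (μ' - μ))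
    have h5 : μ + (t + (μ' - μ)) = μ' + t := by ring
    rw [h5] at h4
    -- error term
    have h6 : (t + (μ' - μ)) ^ 2 / (2 * a) - t ^ 2 / (2 * a')
        ≤ δ * (((2 * T + 1) + T ^ 2) / (2 * a)) := by
      have e1 : (t + (μ' - μ)) ^ 2 ≤ t ^ 2 + δ * (2 * T + 1) := by
        have hd0 : 0 ≤ μ' - μ := by linarith
        have hd1 : μ' - μ ≤ δ := by linarith
        have : (t + (μ' - μ)) ^ 2 = t ^ 2 + (μ' - μ) * (2 * t + (μ' - μ)) := by ring
        rw [this]
        have : (μ' - μ) * (2 * t + (μ' - μ)) ≤ (μ' - μ) * (2 * T + 1) := by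
          apply mul_le_mul_of_nonneg_left _ hd0
          linarith
        have : (μ' - μ) * (2 * T + 1) ≤ δ * (2 * T + 1) := by
          apply mul_le_mul_of_nonneg_right hd1 (by positivity)
        linarith
      have e2 : t ^ 2 / (2 * a) - t ^ 2 / (2 * a') ≤ δ * T ^ 2 / (2 * a) := by
        have : t ^ 2 / (2 * a) - t ^ 2 / (2 * a') = t ^ 2 * (a' - a) / (2 * a * a') := by
          field_simp
        rw [this, div_le_div_iff₀ (by positivity) (by positivity)]
        have k1 : a' - a ≤ δ * a := by linarith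
        have k2 : 0 ≤ a' - a := by linarith
        have k3 : t ^ 2 * (a' - a) ≤ T ^ 2 * (δ * a) := by
          apply mul_le_mul htT.le k1 k2 (by positivity)
        have k4 : T ^ 2 * (δ * a) * (2 * a) ≤ δ * T ^ 2 * (2 * a * a') := by
          have : 0 ≤ δ * T ^ 2 * (2 * a) := by positivity
          nlinarith
        calc t ^ 2 * (a' - a) * (2 * a) ≤ T ^ 2 * (δ * a) * (2 * a) := by
              apply mul_le_mul_of_nonneg_right k3 (by positivity)
          _ ≤ _ := k4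
      have e3 : (t + (μ' - μ)) ^ 2 / (2 * a) ≤ (t ^ 2 + δ * (2 * T + 1)) / (2 * a) := by
        apply div_le_div_of_nonneg_right e1 (by positivity)
      have e4 : δ * (((2 * T + 1) + T ^ 2) / (2 * a))
          = (t ^ 2 + δ * (2 * T + 1)) / (2 * a) - t ^ 2 / (2 * a) + δ * T ^ 2 / (2 * a) := by
        field_simp
        ring
      rw [e4]
      linarith
    have h7 : δ * M = δ * (((2 * T + 1) + T ^ 2) / (2 * a)) + δ * Cm := by
      rw [hM]; ring
    linarith

/-- H5: local Lipschitz bound for monotone convex functions: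
`g (x) - g (x - s) ≤ s * (g (x + 1) - g x)` for `0 ≤ s`. -/
theorem convex_shift_le {g : ℝ → ℝ} (hg : ConvexOn ℝ Set.univ g) (x : ℝ) {s : ℝ} (hs : 0 ≤ s) :
    g x - g (x - s) ≤ s * (g (x + 1) - g x) := by
  rcases hs.eq_or_lt with rfl | hs
  · simp
  have h := hg.slope_mono_adjacent (Set.mem_univ (x - s)) (Set.mem_univ (x + 1))
    (show x - s < x by linarith) (show x < x + 1 by linarith)
  have e1 : x - (x - s) = s := by ring
  have e2 : x + 1 - x = 1 := by ring
  rw [e1, e2, div_one, div_le_iff₀ hs] at h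
  linarith

/-- H4 (a limit of approximate kinks is a kink). -/
theorem not_differentiable_of_approx_kinks {P : ℝ → ℝ} (hP : ConvexOn ℝ Set.univ P)
    {c lo hi : ℝ} (hc : 0 < c) (μs : ℕ → ℝ) (εs : ℕ → ℝ)
    (hμ : ∀ K, μs K ∈ Set.Icc lo hi) (hε : Tendsto εs atTop (𝓝 0))
    (hk : ∀ K, ∀ h ∈ Set.Icc (0 : ℝ) 1, c * h - εs K ≤ D2 P (μs K) h) :
    ∃ μ ∈ Set.Icc lo hi, ¬ DifferentiableAt ℝ P μ := by
  have hcont : Continuous P := by
    have := hP.continuousOn isOpen_univ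
    rwa [← continuousOn_univ]
  obtain ⟨μ, hμmem, φ, hφ, hlim⟩ := isCompact_Icc.tendsto_subseq hμ
  refine ⟨μ, hμmem, ?_⟩
  have hD : ∀ h ∈ Set.Icc (0 : ℝ) 1, c * h ≤ D2 P μ h := by
    intro h hh
    have h1 : Tendsto (fun K => c * h - εs (φ K)) atTop (𝓝 (c * h - 0)) :=
      tendsto_const_nhds.sub (hε.comp hφ.tendsto_atTop)
    have h2 : Tendsto (fun K => D2 P (μs (φ K)) h) atTop (𝓝 (D2 P μ h)) := by
      have hc2 : Continuous (fun x => D2 P x h) := by
        unfold D2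
        fun_prop
      exact (hc2.tendsto μ).comp hlim
    rw [sub_zero] at h1
    exact le_of_tendsto_of_tendsto' h1 h2 (fun K => hk (φ K) h hh)
  intro hdiff
  obtain ⟨p, hp⟩ : ∃ p, HasDerivAt P p μ := ⟨_, hdiff.hasDerivAt⟩
  rw [hasDerivAt_iff_isLittleO_nhds_zero] at hp
  have hp' := hp.def (show (0 : ℝ) < c / 4 by positivity)
  rw [Metric.eventually_nhds_iff] at hp'
  obtain ⟨r, hr, hball⟩ := hp'
  set h : ℝ := min 1 (r / 2) with hh
  have hh0 : 0 < h := lt_min one_pos (by positivity)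
  have hh1 : h ≤ 1 := min_le_left _ _
  have hhr : h < r := lt_of_le_of_lt (min_le_right _ _) (by linarith)
  have b1 := @hball h (by rw [dist_zero_right, Real.norm_eq_abs, abs_of_pos hh0]; exact hhr)
  have b2 := @hball (-h) (by rw [dist_zero_right, norm_neg, Real.norm_eq_abs, abs_of_pos hh0]; exact hhr)
  have b3 := hD h ⟨hh0.le, hh1⟩
  simp only [Real.norm_eq_abs, smul_eq_mul, abs_neg, abs_of_pos hh0] at b1 b2
  have c1 := le_abs_self (P (μ + h) - P μ - h * p)
  have c2 := le_abs_self (P (μ + -h) - P μ - -h * p)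
  unfold D2 at b3
  have e : μ + -h = μ - h := by ring
  rw [e] at c2 b2
  nlinarith

end Vale.Agent.P171
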