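import Mathlib

namespace Vale.Agent.P171

/-- The mean-field (Lebowitz-Penrose / Hopf-Lax) transform `T_a g (μ) = sup_t g (μ+t) - t^2/(2a)`. -/
noncomputable def Tr (a : ℝ) (g : ℝ → ℝ) (μ : ℝ) : ℝ := ⨆ t : ℝ, (g (μ + t) - t ^ 2 / (2 * a))

/-- symmetric second difference -/
def D2 (g : ℝ → ℝ) (μ h : ℝ) : ℝ := g (μ + h) + g (μ - h) - 2 * g μ

/-- The class of functions to which `Tr a` is applied. -/
structure Nice (g : ℝ → ℝ) (a b0 : ℝ) : Prop where
  conv : ConvexOn ℝ Set.univ g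
  mono : Monotone g
  nonneg : ∀ ν, 0 ≤ g ν
  growth : ∀ ν, g ν ≤ b0 + ν ^ 2 / (8 * a)

/-- quantitative upper bound for the objective -/
theorem obj_le {g : ℝ → ℝ} {a b0 : ℝ} (ha : 0 < a) (hg : Nice g a b0) (μ t : ℝ) :
    g (μ + t) - t ^ 2 / (2 * a) ≤ b0 + μ ^ 2 / (4 * a) - t ^ 2 / (4 * a) := by
  have h1 := hg.growth (μ + t)
  have h2 : (μ + t) ^ 2 / (8 * a) ≤ μ ^ 2 / (4 * a) + t ^ 2 / (4 * a) := by
    rw [← add_div, div_le_div_iff₀ (by positivity) (by positivity)]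
    nlinarith [sq_nonneg (μ - t), mul_nonneg ha.le (sq_nonneg (μ - t))]
  have h3 : t ^ 2 / (2 * a) = t ^ 2 / (4 * a) + t ^ 2 / (4 * a) := by
    field_simp; ring
  linarith

/-- H1a -/
theorem Tr_bddAbove {g : ℝ → ℝ} {a b0 : ℝ} (ha : 0 < a) (hg : Nice g a b0) (μ : ℝ) :
    BddAbove (Set.range fun t : ℝ => g (μ + t) - t ^ 2 / (2 * a)) := by
  refine ⟨b0 + μ ^ 2 / (4 * a), ?_⟩
  rintro _ ⟨t, rfl⟩
  have h1 := obj_le ha hg μ t
  have h2 : 0 ≤ t ^ 2 / (4 * a) := by positivity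
  simp only
  linarith

/-- H1b -/
theorem le_Tr {g : ℝ → ℝ} {a b0 : ℝ} (ha : 0 < a) (hg : Nice g a b0) (μ t : ℝ) :
    g (μ + t) - t ^ 2 / (2 * a) ≤ Tr a g μ :=
  le_ciSup (Tr_bddAbove ha hg μ) t

/-- H1c -/
theorem Tr_le {g : ℝ → ℝ} {a : ℝ} {μ c : ℝ} (h : ∀ t, g (μ + t) - t ^ 2 / (2 * a) ≤ c) :
    Tr a g μ ≤ c :=
  ciSup_le h

/-- H1d: `Tr a g` is convex. -/
theorem Tr_convex {g : ℝ → ℝ} {a b0 : ℝ} (ha : 0 < a) (hg : Nice g a b0) :
    ConvexOn ℝ Set.univ (Tr a g) := by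
  refine ⟨convex_univ, ?_⟩
  intro x _ y _ α β hα hβ hαβ
  apply Tr_le
  intro t
  have h1 := hg.conv.2 (Set.mem_univ (x + t)) (Set.mem_univ (y + t)) hα hβ hαβ
  have h2 : α • x + β • y + t = α • (x + t) + β • (y + t) := by
    simp only [smul_eq_mul]
    have : t = (α + β) * t := by rw [hαβ, one_mul]
    linarith
  rw [h2]
  have h3 := le_Tr ha hg x t
  have h4 := le_Tr ha hg y t
  simp only [smul_eq_mul] at h1 ⊢
  have h5 : t ^ 2 / (2 * a) = α * (t ^ 2 / (2 * a)) + β * (t ^ 2 / (2 * a)) := by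
    rw [← add_mul, hαβ, one_mul]
  have h6 := mul_le_mul_of_nonneg_left h3 hα
  have h7 := mul_le_mul_of_nonneg_left h4 hβ
  linarith

/-- H1e: `Tr a g` is monotone. -/
theorem Tr_mono {g : ℝ → ℝ} {a b0 : ℝ} (ha : 0 < a) (hg : Nice g a b0) : Monotone (Tr a g) := by
  intro x y hxy
  apply Tr_le
  intro t
  have h1 := le_Tr ha hg y t
  have h2 := hg.mono (show x + t ≤ y + t by linarith)
  linarith

/-- removing a small parameter -/
theorem le_of_forall_small {A B C : ℝ} (h : ∀ t : ℝ, 0 < t → t ≤ 1 → A ≤ B + t * C) : A ≤ B := by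
  by_contra hAB
  rw [not_le] at hAB
  rcases le_or_gt C 0 with hC | hC
  · have := h 1 one_pos le_rfl
    linarith
  · have hpos : 0 < (A - B) / (2 * C) := by
      apply div_pos <;> linarith
    have h1 := h (min 1 ((A - B) / (2 * C))) (lt_min one_pos hpos) (min_le_left _ _)
    have h2 : min 1 ((A - B) / (2 * C)) * C ≤ (A - B) / (2 * C) * C :=
      mul_le_mul_of_nonneg_right (min_le_right _ _) hC.le
    have h3 : (A - B) / (2 * C) * C = (A - B) / 2 := by
      field_simp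
    linarith

/-- a convex function touched from above by a parabola has the slope of the parabola as a
subgradient -/
theorem subgradient_of_parabola {g : ℝ → ℝ} (hg : ConvexOn ℝ Set.univ g) {ν ρ c : ℝ}
    (h : ∀ s, g (ν + s) ≤ g ν + ρ * s + c * s ^ 2) (s : ℝ) : g ν + ρ * s ≤ g (ν + s) := by
  apply le_of_forall_small (C := c * s ^ 2)
  intro t ht ht1
  have h1 := hg.2 (Set.mem_univ (ν + s)) (Set.mem_univ (ν - t * s))
    (show 0 ≤ t / (1 + t) by positivity) (show 0 ≤ 1 / (1 + t) by positivity)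
    (by field_simp; ring)
  have h2 : (t / (1 + t)) • (ν + s) + (1 / (1 + t)) • (ν - t * s) = ν := by
    simp only [smul_eq_mul]
    field_simp
    ring
  rw [h2] at h1
  simp only [smul_eq_mul] at h1
  have h3 := h (-(t * s))
  have h4 : ν + -(t * s) = ν - t * s := by ring
  rw [h4] at h3
  have h5 : (1 + t) * g ν ≤ t * g (ν + s) + g (ν - t * s) := by
    have h6 : (1 + t) * (t / (1 + t) * g (ν + s) + 1 / (1 + t) * g (ν - t * s))
        = t * g (ν + s) + g (ν - t * s) := by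
      field_simp
    rw [← h6]
    exact mul_le_mul_of_nonneg_left h1 (by positivity)
  have h7 : t * (g ν + ρ * s) ≤ t * (g (ν + s) + t * (c * s ^ 2)) := by
    nlinarith
  exact le_of_mul_le_mul_left h7 ht

/-- scaling of second differences of convex functions -/
theorem D2_scale {G : ℝ → ℝ} (hG : ConvexOn ℝ Set.univ G) (μ h : ℝ) {t : ℝ} (ht : 0 ≤ t)
    (ht1 : t ≤ 1) : D2 G μ (t * h) ≤ t * D2 G μ h := by
  have h1 := hG.2 (Set.mem_univ μ) (Set.mem_univ (μ + h)) (show 0 ≤ 1 - t by linarith) ht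
    (by ring)
  have h2 := hG.2 (Set.mem_univ μ) (Set.mem_univ (μ - h)) (show 0 ≤ 1 - t by linarith) ht
    (by ring)
  simp only [smul_eq_mul] at h1 h2
  have e1 : (1 - t) * μ + t * (μ + h) = μ + t * h := by ring
  have e2 : (1 - t) * μ + t * (μ - h) = μ - t * h := by ring
  rw [e1] at h1
  rw [e2] at h2
  unfold D2
  linarith

/-- existence of maximisers -/
theorem exists_maximiser {g : ℝ → ℝ} {a b0 : ℝ} (ha : 0 < a) (hg : Nice g a b0) (μ : ℝ) :
    ∃ t : ℝ, Tr a g μ = g (μ + t) - t ^ 2 / (2 * a) := by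
  have hcont : Continuous g := by
    have := hg.conv.continuousOn isOpen_univ
    exact continuousOn_univ.mp this
  have hc : Continuous fun t : ℝ => g (μ + t) - t ^ 2 / (2 * a) := by
    fun_prop
  have hb0 : 0 ≤ b0 := by
    have h1 := hg.growth 0
    have h2 := hg.nonneg 0
    simp at h1
    linarith
  set R : ℝ := 4 * a * b0 + μ ^ 2 + 1 with hR
  have hR1 : 1 ≤ R := by
    have : 0 ≤ 4 * a * b0 := by positivity
    have : 0 ≤ μ ^ 2 := by positivity
    linarith
  have key : ∀ t : ℝ, R ≤ |t| → g (μ + t) - t ^ 2 / (2 * a) ≤ g (μ + 0) - (0 : ℝ) ^ 2 / (2 * a) := by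
    intro t ht
    have h1 := obj_le ha hg μ t
    have h2 := hg.nonneg (μ + 0)
    have h3 : R ≤ t ^ 2 := by
      rw [← sq_abs]
      nlinarith
    have h4 : b0 + μ ^ 2 / (4 * a) - t ^ 2 / (4 * a) ≤ 0 := by
      have : b0 + μ ^ 2 / (4 * a) - t ^ 2 / (4 * a) = (4 * a * b0 + μ ^ 2 - t ^ 2) / (4 * a) := by
        field_simp
      rw [this]
      apply div_nonpos_of_nonpos_of_nonneg
      · linarith
      · positivity
    simp only [ne_eq, OfNat.ofNat_ne_zero, not_false_eq_true, zero_pow, zero_div, sub_zero]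
    linarith
  obtain ⟨t0, ht0⟩ := hc.exists_forall_ge' 0 (by
    rw [cocompact_eq_atBot_atTop, Filter.eventually_sup]
    constructor
    · filter_upwards [Filter.eventually_le_atBot (-R)] with t ht
      apply key
      rw [abs_of_nonpos (by linarith)]
      linarith
    · filter_upwards [Filter.eventually_ge_atTop R] with t ht
      apply key
      exact le_trans ht (le_abs_self t))
  refine ⟨t0, le_antisymm (Tr_le ht0) (le_Tr ha hg μ t0)⟩

/-- maximisers lie to the right of the base point -/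
theorem maximiser_nonneg {g : ℝ → ℝ} {a b0 : ℝ} (ha : 0 < a) (hg : Nice g a b0) {μ t : ℝ}
    (ht : Tr a g μ = g (μ + t) - t ^ 2 / (2 * a)) : 0 ≤ t := by
  by_contra hneg
  rw [not_le] at hneg
  have h1 := le_Tr ha hg μ 0
  have h2 := hg.mono (show μ + t ≤ μ + 0 by linarith)
  have h3 : 0 < t ^ 2 / (2 * a) := by
    have : 0 < t ^ 2 := sq_pos_of_neg hneg
    positivity
  simp only [ne_eq, OfNat.ofNat_ne_zero, not_false_eq_true, zero_pow, zero_div, sub_zero] at h1
  linarith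

/-- every maximiser stays away from a point with a large second difference -/
theorem maximiser_gap {g : ℝ → ℝ} {a b0 : ℝ} (ha : 0 < a) (hg : Nice g a b0) (μ0 h : ℝ) {μ t : ℝ}
    (ht : Tr a g μ = g (μ + t) - t ^ 2 / (2 * a)) :
    a * D2 g μ0 h - h ^ 2 ≤ (μ + t - μ0) ^ 2 := by
  have hpar : ∀ s, g (μ + t + s) ≤ g (μ + t) + t / a * s + 1 / (2 * a) * s ^ 2 := by
    intro s
    have h1 := le_Tr ha hg μ (t + s)
    rw [ht] at h1
    have e : μ + (t + s) = μ + t + s := by ring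
    rw [e] at h1
    have e2 : (t + s) ^ 2 / (2 * a) - t ^ 2 / (2 * a) = t / a * s + 1 / (2 * a) * s ^ 2 := by
      field_simp
      ring
    linarith
  have hsub := subgradient_of_parabola hg.conv hpar
  have h0 := hsub (μ0 - (μ + t))
  have hp := hpar (μ0 + h - (μ + t))
  have hm := hpar (μ0 - h - (μ + t))
  have e0 : μ + t + (μ0 - (μ + t)) = μ0 := by ring
  have e1 : μ + t + (μ0 + h - (μ + t)) = μ0 + h := by ring
  have e2 : μ + t + (μ0 - h - (μ + t)) = μ0 - h := by ring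
  rw [e0] at h0
  rw [e1] at hp
  rw [e2] at hm
  have key : D2 g μ0 h ≤ (h ^ 2 + (μ + t - μ0) ^ 2) / a := by
    have e3 : (h ^ 2 + (μ + t - μ0) ^ 2) / a
        = (t / a * (μ0 + h - (μ + t)) + 1 / (2 * a) * (μ0 + h - (μ + t)) ^ 2)
          + (t / a * (μ0 - h - (μ + t)) + 1 / (2 * a) * (μ0 - h - (μ + t)) ^ 2)
          - 2 * (t / a * (μ0 - (μ + t))) := by
      field_simp
      ring
    rw [e3]
    unfold D2
    linarith
  rw [le_div_iff₀ ha] at key
  linarith

/-- H2 (sharpening lemma).  If the second difference of `g` at `μ0` at scale `h` exceeds `h^2/a`,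
then `Tr a g` has an exact kink of size at least `(2/a) sqrt (a D2 - h^2)` at some `μ1 ≤ μ0`. -/
theorem sharpen {g : ℝ → ℝ} {a b0 : ℝ} (ha : 0 < a) (hg : Nice g a b0) {μ0 h : ℝ} (hh : 0 < h)
    (hD : h ^ 2 / a < D2 g μ0 h) :
    ∃ μ1 ≤ μ0, ∀ h' : ℝ, 0 ≤ h' →
      2 / a * Real.sqrt (a * D2 g μ0 h - h ^ 2) * h' ≤ D2 (Tr a g) μ1 h' := by
  have hpos : 0 < a * D2 g μ0 h - h ^ 2 := by
    have := (div_lt_iff₀ ha).mp hD
    linarith
  set e0 := Real.sqrt (a * D2 g μ0 h - h ^ 2) with he0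
  have he0pos : 0 < e0 := Real.sqrt_pos.mpr hpos
  have hGconv := Tr_convex ha hg
  have hGcont : Continuous (Tr a g) := continuousOn_univ.mp (hGconv.continuousOn isOpen_univ)
  set F : ℝ → ℝ := fun μ => Tr a g μ + μ ^ 2 / (2 * a) - μ0 * μ / a with hF
  have hFcont : Continuous F := by
    rw [hF]
    fun_prop
  -- affine minorants
  have hF_ge : ∀ μ ν, g ν - ν ^ 2 / (2 * a) + (ν - μ0) * μ / a ≤ F μ := by
    intro μ ν
    have h1 := le_Tr ha hg μ (ν - μ)
    have e1 : μ + (ν - μ) = ν := by ring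
    rw [e1] at h1
    have e2 : g ν - ν ^ 2 / (2 * a) + (ν - μ0) * μ / a
        = g ν - (ν - μ) ^ 2 / (2 * a) + μ ^ 2 / (2 * a) - μ0 * μ / a := by
      field_simp
      ring
    rw [e2]
    simp only [hF]
    linarith
  have hF_eq : ∀ μ t, Tr a g μ = g (μ + t) - t ^ 2 / (2 * a) →
      F μ = g (μ + t) - (μ + t) ^ 2 / (2 * a) + (μ + t - μ0) * μ / a := by
    intro μ t ht
    simp only [hF]
    rw [ht]
    field_simp
    ring
  have hF_sub : ∀ μ t, Tr a g μ = g (μ + t) - t ^ 2 / (2 * a) →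
      ∀ μ', F μ + (μ + t - μ0) * (μ' - μ) / a ≤ F μ' := by
    intro μ t ht μ'
    have h1 := hF_ge μ' (μ + t)
    rw [hF_eq μ t ht]
    have e : g (μ + t) - (μ + t) ^ 2 / (2 * a) + (μ + t - μ0) * μ / a
        + (μ + t - μ0) * (μ' - μ) / a
        = g (μ + t) - (μ + t) ^ 2 / (2 * a) + (μ + t - μ0) * μ' / a := by
      field_simp
      ring
    rw [e]
    exact h1
  -- the minimiser of F
  obtain ⟨μ1, hμ1⟩ : ∃ μ1, ∀ μ, F μ1 ≤ F μ := by
    apply hFcont.exists_forall_le' 0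
    rw [cocompact_eq_atBot_atTop, Filter.eventually_sup]
    constructor
    · filter_upwards [Filter.eventually_le_atBot
        (-(a * (F 0 - (g (μ0 - 1) - (μ0 - 1) ^ 2 / (2 * a)))))] with μ hμ
      have h1 := hF_ge μ (μ0 - 1)
      have e : (μ0 - 1 - μ0) * μ / a = -μ / a := by ring
      rw [e] at h1
      have h2 : F 0 - (g (μ0 - 1) - (μ0 - 1) ^ 2 / (2 * a)) ≤ -μ / a := by
        rw [le_div_iff₀ ha]
        linarith
      linarith
    · filter_upwards [Filter.eventually_ge_atTop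
        (a * (F 0 - (g (μ0 + 1) - (μ0 + 1) ^ 2 / (2 * a))))] with μ hμ
      have h1 := hF_ge μ (μ0 + 1)
      have e : (μ0 + 1 - μ0) * μ / a = μ / a := by ring
      rw [e] at h1
      have h2 : F 0 - (g (μ0 + 1) - (μ0 + 1) ^ 2 / (2 * a)) ≤ μ / a := by
        rw [le_div_iff₀ ha]
        linarith
      linarith
  -- maximisers to the right of the minimiser
  have hright : ∀ μ, μ1 < μ → ∀ μ', μ ≤ μ' → F μ1 + e0 * (μ' - μ) / a ≤ F μ' := by
    intro μ hμ μ' hμ'
    obtain ⟨t, ht⟩ := exists_maximiser ha hg μ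
    have h1 := hF_sub μ t ht μ1
    have h2 := hμ1 μ
    have h3 : (μ + t - μ0) * (μ1 - μ) / a ≤ 0 := by linarith
    have h4 : 0 ≤ μ + t - μ0 := by
      by_contra hneg
      rw [not_le] at hneg
      have : 0 < (μ + t - μ0) * (μ1 - μ) / a :=
        div_pos (mul_pos_of_neg_of_neg hneg (by linarith)) ha
      linarith
    have h5 : e0 ≤ μ + t - μ0 := Real.sqrt_le_iff.mpr ⟨h4, maximiser_gap ha hg μ0 h ht⟩
    have h6 := hF_sub μ t ht μ'
    have h7 : e0 * (μ' - μ) / a ≤ (μ + t - μ0) * (μ' - μ) / a := by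
      apply div_le_div_of_nonneg_right _ ha.le
      exact mul_le_mul_of_nonneg_right h5 (by linarith)
    linarith
  have hleftloc : ∀ μ, μ < μ1 → ∀ t, Tr a g μ = g (μ + t) - t ^ 2 / (2 * a) →
      μ + t - μ0 ≤ 0 := by
    intro μ hμ t ht
    have h1 := hF_sub μ t ht μ1
    have h2 := hμ1 μ
    have h3 : (μ + t - μ0) * (μ1 - μ) / a ≤ 0 := by linarith
    by_contra hneg
    rw [not_le] at hneg
    have : 0 < (μ + t - μ0) * (μ1 - μ) / a :=
      div_pos (mul_pos hneg (by linarith)) ha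
    linarith
  have hleft : ∀ μ, μ < μ1 → ∀ μ', μ' ≤ μ → F μ1 + e0 * (μ - μ') / a ≤ F μ' := by
    intro μ hμ μ' hμ'
    obtain ⟨t, ht⟩ := exists_maximiser ha hg μ
    have h2 := hμ1 μ
    have h4 := hleftloc μ hμ t ht
    have h5 : e0 ≤ -(μ + t - μ0) := by
      apply Real.sqrt_le_iff.mpr ⟨by linarith, ?_⟩
      rw [neg_sq]
      exact maximiser_gap ha hg μ0 h ht
    have h6 := hF_sub μ t ht μ'
    have h7 : e0 * (μ - μ') / a ≤ (μ + t - μ0) * (μ' - μ) / a := by
      apply div_le_div_of_nonneg_right _ ha.le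
      have := mul_le_mul_of_nonneg_right h5 (show 0 ≤ μ - μ' by linarith)
      linarith
    linarith
  refine ⟨μ1, ?_, ?_⟩
  · by_contra hneg
    rw [not_le] at hneg
    obtain ⟨t, ht⟩ := exists_maximiser ha hg ((μ0 + μ1) / 2)
    have h1 := hleftloc ((μ0 + μ1) / 2) (by linarith) t ht
    have h2 := maximiser_nonneg ha hg ht
    linarith
  · intro h' hh'
    apply le_of_forall_small (C := 2 * e0 * h' / a + h' ^ 2 / a)
    intro t ht ht1
    rcases hh'.eq_or_lt with rfl | hh'pos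
    · simp [D2]
      ring_nf
      exact le_rfl
    have hs := D2_scale hGconv μ1 h' ht.le ht1
    have hδ : 0 < t * t * h' := by positivity
    have hδ2 : t * t * h' ≤ t * h' := by
      have : t * t ≤ t := by nlinarith
      exact mul_le_mul_of_nonneg_right this hh'
    have hr := hright (μ1 + t * t * h') (by linarith) (μ1 + t * h') (by linarith)
    have hl := hleft (μ1 - t * t * h') (by linarith) (μ1 - t * h') (by linarith)
    have hD2 : D2 (Tr a g) μ1 (t * h')
        = F (μ1 + t * h') + F (μ1 - t * h') - 2 * F μ1 - (t * h') ^ 2 / a := by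
      simp only [hF, D2]
      field_simp
      ring
    have e1 : e0 * (μ1 + t * h' - (μ1 + t * t * h')) / a = t * (e0 * h' * (1 - t) / a) := by
      ring
    have e2 : e0 * (μ1 - t * t * h' - (μ1 - t * h')) / a = t * (e0 * h' * (1 - t) / a) := by
      ring
    rw [e1] at hr
    rw [e2] at hl
    have h8 : t * (2 / a * e0 * h') ≤ t * (D2 (Tr a g) μ1 h' + t * (2 * e0 * h' / a + h' ^ 2 / a)) := by
      have e3 : t * (2 / a * e0 * h') = 2 * (t * (e0 * h' * (1 - t) / a)) - (t * h') ^ 2 / a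
          + t * (t * (2 * e0 * h' / a + h' ^ 2 / a)) := by
        ring
      rw [e3, mul_add]
      linarith
    exact le_of_mul_le_mul_left h8 ht

end Vale.Agent.P171
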