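import Mathlib

open MeasureTheory Filter Topology

namespace Vale.Agent.P171

/-- Euclidean three-space. -/
abbrev E3 := EuclideanSpace ℝ (Fin 3)

/-- The energy `U_N (x_1, ..., x_N) = ∑_{i<j} φ (|x_i - x_j|)`. -/
noncomputable def U (φ : ℝ → ℝ) (N : ℕ) (x : Fin N → E3) : ℝ :=
  ∑ i : Fin N, ∑ j : Fin N, if i < j then φ (dist (x i) (x j)) else 0

/-- The cube `[0, L]^3`. -/
def cube (L : ℝ) : Set E3 := {p | ∀ i, 0 ≤ p i ∧ p i ≤ L}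

/-- The canonical partition function `Z_{L,N}(β)`. -/
noncomputable def Zc (φ : ℝ → ℝ) (β L : ℝ) (N : ℕ) : ℝ :=
  ((N.factorial : ℝ))⁻¹ *
    ∫ x in Set.pi Set.univ (fun _ : Fin N => cube L), Real.exp (-(β * U φ N x))

/-- The grand canonical partition function `∑_N z^N Z_{L,N}(β)`. -/
noncomputable def Xi (φ : ℝ → ℝ) (β L z : ℝ) : ℝ := ∑' N : ℕ, z ^ N * Zc φ β L N

/-- Stability. -/
def Stable (φ : ℝ → ℝ) : Prop :=
  ∃ B : ℝ, ∀ (N : ℕ) (x : Fin N → E3), Function.Injective x → -(B * N) ≤ U φ N x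

/-- Temperedness. -/
def Tempered (φ : ℝ → ℝ) : Prop :=
  ∃ C ε R0 : ℝ, 0 < C ∧ 0 < ε ∧ 0 < R0 ∧ ∀ r, R0 ≤ r → φ r ≤ C * r ^ (-(3 + ε))

/-- Local boundedness on `(0, ∞)`. -/
def LocBdd (φ : ℝ → ℝ) : Prop :=
  ∀ a b : ℝ, 0 < a → ∃ M : ℝ, ∀ r ∈ Set.Icc a b, |φ r| ≤ M

/-- `P` is the function `z ↦ Π(β, z)`: the limit defining the pressure exists and equals `P z`. -/
def IsPressure (φ : ℝ → ℝ) (β : ℝ) (P : ℝ → ℝ) : Prop :=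
  ∀ z, 0 < z → Tendsto (fun L : ℝ => (L ^ 3)⁻¹ * Real.log (Xi φ β L z)) atTop (𝓝 (P z))

end Vale.Agent.P171
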