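import Mathlib

open MeasureTheory
open scoped ENNReal

namespace Vale.Agent.P171

section GP
variable {X : Type*} [MeasurableSpace X] (m : Measure X) [SigmaFinite m]

/-- `∑_N (1/N!) ∫ u_N`. -/
noncomputable def GS (u : (N : ℕ) → (Fin N → X) → ℝ≥0∞) : ℝ≥0∞ :=
  ∑' N : ℕ, ((N.factorial : ℝ≥0∞))⁻¹ * ∫⁻ x : Fin N → X, u N x ∂(Measure.pi fun _ => m)

/-- pair weight `∏_{i<j} F (x_i, x_j)`. -/
noncomputable def pw (F : X → X → ℝ≥0∞) (N : ℕ) (x : Fin N → X) : ℝ≥0∞ :=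
  ∏ i : Fin N, ∏ j : Fin N, if i < j then F (x i) (x j) else 1

/-- one-body weight `∏_i f (x_i)`. -/
noncomputable def ob (f : X → ℝ≥0∞) (N : ℕ) (x : Fin N → X) : ℝ≥0∞ := ∏ i, f (x i)

/-- grand partition functional with configuration weight `w` and one-body weight `f`. -/
noncomputable def GP (w : (N : ℕ) → (Fin N → X) → ℝ≥0∞) (f : X → ℝ≥0∞) : ℝ≥0∞ :=
  GS m (fun N x => w N x * ob f N x)

end GP

end Vale.Agent.P171
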