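import Vale.Agent.P171.GP

open MeasureTheory
open scoped ENNReal

set_option linter.unusedSectionVars false

namespace Vale.Agent.P171

section GP
variable {X : Type*} [MeasurableSpace X] (m : Measure X) [SigmaFinite m]

/-- A1 -/
theorem GS_mono {u u' : (N : ℕ) → (Fin N → X) → ℝ≥0∞}
    (h : ∀ N, ∀ᵐ x ∂(Measure.pi fun _ : Fin N => m), u N x ≤ u' N x) : GS m u ≤ GS m u' := by
  unfold GS
  exact ENNReal.tsum_le_tsum fun N => mul_le_mul_right (lintegral_mono_ae (h N)) _

theorem ob_mono {f f' : X → ℝ≥0∞} (hf : ∀ x, f x ≤ f' x) (N : ℕ) (x : Fin N → X) :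
    ob f N x ≤ ob f' N x :=
  Finset.prod_le_prod' fun i _ => hf (x i)

theorem ob_eq_zero {f : X → ℝ≥0∞} {N : ℕ} {x : Fin N → X} (h : ¬ ∀ i, f (x i) ≠ 0) :
    ob f N x = 0 := by
  push Not at h
  obtain ⟨i, hi⟩ := h
  exact Finset.prod_eq_zero (Finset.mem_univ i) hi

private theorem measurable_ob {f : X → ℝ≥0∞} (hf : Measurable f) (N : ℕ) : Measurable (ob f N) :=
  Finset.measurable_prod _ fun i _ => hf.comp (measurable_pi_apply i)

private theorem measurable_pw {F : X → X → ℝ≥0∞} (hF : Measurable (Function.uncurry F)) (N : ℕ) :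
    Measurable (pw F N) := by
  refine Finset.measurable_prod _ fun i _ => Finset.measurable_prod _ fun j _ => ?_
  by_cases h : i < j
  · simp only [h, if_true]
    have h2 : Measurable fun a : Fin N → X => (a i, a j) :=
      (measurable_pi_apply i).prodMk (measurable_pi_apply j)
    exact hF.comp h2
  · simp only [h, if_false]
    exact measurable_const

/-- A1' -/
theorem GP_mono {w w' : (N : ℕ) → (Fin N → X) → ℝ≥0∞} {f f' : X → ℝ≥0∞}
    (hw : ∀ N, ∀ᵐ x ∂(Measure.pi fun _ : Fin N => m), (∀ i, f (x i) ≠ 0) → w N x ≤ w' N x)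
    (hf : ∀ x, f x ≤ f' x) : GP m w f ≤ GP m w' f' := by
  unfold GP
  refine GS_mono m fun N => ?_
  filter_upwards [hw N] with x hx
  by_cases h : ∀ i, f (x i) ≠ 0
  · exact mul_le_mul' (hx h) (ob_mono hf N x)
  · rw [ob_eq_zero h]; simp

/-- A3: invariance under a measure preserving equivalence. -/
theorem GP_pw_map {F : X → X → ℝ≥0∞} (f : X → ℝ≥0∞) (τ : X ≃ᵐ X)
    (hτ : MeasurePreserving τ m m) (hFτ : ∀ x y, F (τ x) (τ y) = F x y) :
    GP m (pw F) (fun x => f (τ x)) = GP m (pw F) f := by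
  unfold GP GS
  congr 1
  funext N
  congr 1
  have hp : MeasurePreserving (fun (a : Fin N → X) i => τ (a i))
      (Measure.pi fun _ : Fin N => m) (Measure.pi fun _ : Fin N => m) :=
    measurePreserving_pi (fun _ : Fin N => m) (fun _ : Fin N => m) (fun _ => hτ)
  have he : MeasurableEmbedding (fun (a : Fin N → X) i => τ (a i)) :=
    (MeasurableEquiv.piCongrRight (fun _ : Fin N => τ)).measurableEmbedding
  symm
  rw [← hp.lintegral_comp_emb he]
  refine lintegral_congr fun x => ?_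
  simp only [pw, ob, hFτ]

/-- The integral of a one-body weight. -/
theorem lintegral_ob {f : X → ℝ≥0∞} (hf : Measurable f) (N : ℕ) :
    ∫⁻ x : Fin N → X, ob f N x ∂(Measure.pi fun _ => m) = (∫⁻ x, f x ∂m) ^ N := by
  induction N with
  | zero => simp [ob]
  | succ n ih =>
    have hp := (measurePreserving_piFinSuccAbove (fun _ : Fin (n + 1) => m) 0).symm
    rw [← hp.lintegral_comp_emb (MeasurableEquiv.measurableEmbedding _)]
    have hob : ∀ y : X × (Fin n → X),
        ob f (n + 1) ((MeasurableEquiv.piFinSuccAbove (fun _ : Fin (n + 1) => X) 0).symm y)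
          = f y.1 * ob f n y.2 := by
      intro y
      simp [ob, Fin.prod_univ_succ, MeasurableEquiv.piFinSuccAbove_symm_apply, Fin.insertNthEquiv]
    simp_rw [hob]
    rw [lintegral_prod_mul hf.aemeasurable (measurable_ob hf n).aemeasurable]
    rw [ih, pow_succ, mul_comm]

/-- The exponential series in extended nonnegative reals. -/
theorem tsum_ofReal_pow_div_factorial {c : ℝ} (hc : 0 ≤ c) :
    ∑' N : ℕ, ((N.factorial : ℝ≥0∞))⁻¹ * ENNReal.ofReal c ^ N = ENNReal.ofReal (Real.exp c) := by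
  have hs : Summable fun N : ℕ => c ^ N / (N.factorial : ℝ) := Real.summable_pow_div_factorial c
  have he : Real.exp c = ∑' N : ℕ, c ^ N / (N.factorial : ℝ) := by
    rw [Real.exp_eq_exp_ℝ, NormedSpace.exp_eq_tsum_div]
  rw [he, ENNReal.ofReal_tsum_of_nonneg (fun N => by positivity) hs]
  congr 1
  funext N
  rw [div_eq_mul_inv, ENNReal.ofReal_mul (by positivity), ENNReal.ofReal_pow hc,
    ENNReal.ofReal_inv_of_pos (by positivity), ENNReal.ofReal_natCast, mul_comm]

/-- A5: crude exponential bound. -/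
theorem GP_le_exp {w : (N : ℕ) → (Fin N → X) → ℝ≥0∞} {f : X → ℝ≥0∞} (hf : Measurable f)
    {C I : ℝ} (hC : 0 ≤ C) (hI0 : 0 ≤ I) (hI : ∫⁻ x, f x ∂m ≤ ENNReal.ofReal I)
    (hw : ∀ N, ∀ᵐ x ∂(Measure.pi fun _ : Fin N => m),
      (∀ i, f (x i) ≠ 0) → w N x ≤ ENNReal.ofReal (C ^ N)) :
    GP m w f ≤ ENNReal.ofReal (Real.exp (C * I)) := by
  have h1 : GP m w f ≤ GP m (fun N _ => ENNReal.ofReal (C ^ N)) f :=
    GP_mono m hw fun x => le_rfl
  refine h1.trans ?_
  have h2 : GP m (fun N _ => ENNReal.ofReal (C ^ N)) f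
      ≤ ∑' N : ℕ, ((N.factorial : ℝ≥0∞))⁻¹ * ENNReal.ofReal (C * I) ^ N := by
    unfold GP GS
    refine ENNReal.tsum_le_tsum fun N => mul_le_mul_right ?_ _
    show ∫⁻ x : Fin N → X, ENNReal.ofReal (C ^ N) * ob f N x ∂(Measure.pi fun _ => m) ≤ _
    rw [lintegral_const_mul _ (measurable_ob hf N), lintegral_ob m hf,
      ENNReal.ofReal_mul hC, mul_pow, ENNReal.ofReal_pow hC]
    exact mul_le_mul_right (pow_le_pow_left' hI N) _
  refine h2.trans ?_
  rw [tsum_ofReal_pow_div_factorial (mul_nonneg hC hI0)]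

/-- A7: a single term is below the sum. -/
theorem term_le_GS (u : (N : ℕ) → (Fin N → X) → ℝ≥0∞) (n : ℕ) :
    ((n.factorial : ℝ≥0∞))⁻¹ * ∫⁻ x : Fin n → X, u n x ∂(Measure.pi fun _ => m) ≤ GS m u :=
  ENNReal.le_tsum (f := fun N : ℕ =>
    ((N.factorial : ℝ≥0∞))⁻¹ * ∫⁻ x : Fin N → X, u N x ∂(Measure.pi fun _ => m)) n

/-- A6 -/
theorem one_le_GP {w : (N : ℕ) → (Fin N → X) → ℝ≥0∞} {f : X → ℝ≥0∞}
    (hw : ∀ x, w 0 x = 1) : 1 ≤ GP m w f := by
  refine le_trans ?_ (term_le_GS m (fun N x => w N x * ob f N x) 0)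
  simp [hw, ob]

end GP

end Vale.Agent.P171
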