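import Vale.Agent.P171.GP

open MeasureTheory
open scoped ENNReal

namespace Vale.Agent.P171

section GP
variable {X : Type*}

theorem pw_cons (F : X → X → ℝ≥0∞) (N : ℕ) (y : X) (x : Fin N → X) :
    pw F (N + 1) (Fin.cons y x) = (∏ j, F y (x j)) * pw F N x := by
  unfold pw
  rw [Fin.prod_univ_succ]
  congr 1
  · rw [Fin.prod_univ_succ]
    simp
  · refine Finset.prod_congr rfl fun i _ => ?_
    rw [Fin.prod_univ_succ]
    simp

theorem ob_cons (f : X → ℝ≥0∞) (N : ℕ) (y : X) (x : Fin N → X) :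
    ob f (N + 1) (Fin.cons y x) = f y * ob f N x := by
  unfold ob
  rw [Fin.prod_univ_succ]
  simp

variable [MeasurableSpace X] (m : Measure X) [SigmaFinite m]

theorem measurable_pw {F : X → X → ℝ≥0∞} (hF : Measurable (Function.uncurry F)) (N : ℕ) :
    Measurable (pw F N) := by
  unfold pw
  refine Finset.measurable_prod _ fun i _ => Finset.measurable_prod _ fun j _ => ?_
  by_cases h : i < j
  · simp only [h, if_true]
    exact hF.comp (f := fun a : Fin N → X => (a i, a j))
      ((measurable_pi_apply i).prodMk (measurable_pi_apply j))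
  · simp only [h, if_false]
    exact measurable_const

theorem measurable_ob {f : X → ℝ≥0∞} (hf : Measurable f) (N : ℕ) :
    Measurable (ob f N) := by
  unfold ob
  exact Finset.measurable_prod _ fun i _ => hf.comp (measurable_pi_apply i)

/-- peeling off the first variable -/
theorem lintegral_pi_succ (N : ℕ) {g : (Fin (N + 1) → X) → ℝ≥0∞} (hg : Measurable g) :
    ∫⁻ x, g x ∂(Measure.pi fun _ : Fin (N + 1) => m) =
      ∫⁻ y, ∫⁻ x, g (Fin.cons y x) ∂(Measure.pi fun _ : Fin N => m) ∂m := by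
  have h := (measurePreserving_piFinSuccAbove (fun _ : Fin (N + 1) => m) 0).symm
  rw [← h.lintegral_comp hg]
  rw [lintegral_prod (fun a => g ((MeasurableEquiv.piFinSuccAbove (fun _ => X) 0).symm a))
    (hg.comp h.measurable).aemeasurable]
  simp [MeasurableEquiv.piFinSuccAbove_symm_apply, Fin.insertNthEquiv]

/-- the `N`-th term of `GP m (pw F) f`. -/
noncomputable def jn (F : X → X → ℝ≥0∞) (f : X → ℝ≥0∞) (N : ℕ) : ℝ≥0∞ :=
  ((N.factorial : ℝ≥0∞))⁻¹ * ∫⁻ x : Fin N → X, pw F N x * ob f N x ∂(Measure.pi fun _ => m)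

omit [SigmaFinite m] in
theorem GP_eq_tsum_jn (F : X → X → ℝ≥0∞) (f : X → ℝ≥0∞) :
    GP m (pw F) f = ∑' N, jn m F f N := rfl

theorem measurable_jn_aux {F : X → X → ℝ≥0∞} (hF : Measurable (Function.uncurry F))
    {f : X → ℝ≥0∞} (hf : Measurable f) (N : ℕ) :
    Measurable fun p : X × (Fin N → X) => pw F N p.2 * ob (fun z => F p.1 z * f z) N p.2 := by
  refine ((measurable_pw hF N).comp measurable_snd).mul ?_
  unfold ob
  refine Finset.measurable_prod _ fun i _ => ?_
  refine Measurable.mul ?_ (hf.comp ((measurable_pi_apply i).comp measurable_snd))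
  exact hF.comp (f := fun p : X × (Fin N → X) => (p.1, p.2 i))
    (measurable_fst.prodMk ((measurable_pi_apply i).comp measurable_snd))

theorem measurable_jn {F : X → X → ℝ≥0∞} (hF : Measurable (Function.uncurry F))
    {f : X → ℝ≥0∞} (hf : Measurable f) (N : ℕ) :
    Measurable fun y => jn m F (fun z => F y z * f z) N := by
  unfold jn
  exact (measurable_jn_aux hF hf N).lintegral_prod_right'.const_mul _

theorem succ_mul_factorial_inv (N : ℕ) :
    ((N + 1 : ℕ) : ℝ≥0∞) * (((N + 1).factorial : ℝ≥0∞))⁻¹ = ((N.factorial : ℝ≥0∞))⁻¹ := by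
  rw [Nat.factorial_succ, Nat.cast_mul,
    ENNReal.mul_inv (Or.inr (ENNReal.natCast_ne_top _)) (Or.inl (ENNReal.natCast_ne_top _)),
    ← mul_assoc, ENNReal.mul_inv_cancel (by simp) (ENNReal.natCast_ne_top _), one_mul]

theorem jn_succ {F : X → X → ℝ≥0∞} (hF : Measurable (Function.uncurry F))
    {f : X → ℝ≥0∞} (hf : Measurable f) (N : ℕ) :
    ((N + 1 : ℕ) : ℝ≥0∞) * jn m F f (N + 1) =
      ∫⁻ y, f y * jn m F (fun z => F y z * f z) N ∂m := by
  unfold jn
  rw [← mul_assoc, succ_mul_factorial_inv,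
    lintegral_pi_succ m N (g := fun x => pw F (N + 1) x * ob f (N + 1) x)
      ((measurable_pw hF _).mul (measurable_ob hf _)),
    ← lintegral_const_mul' _ _ (by simp [Nat.factorial_ne_zero])]
  refine lintegral_congr fun y => ?_
  rw [mul_left_comm]
  congr 1
  have hm : Measurable fun x : Fin N → X => pw F N x * ob (fun z => F y z * f z) N x :=
    (measurable_jn_aux hF hf N).comp (f := fun x : Fin N → X => (y, x))
      (measurable_const.prodMk measurable_id)
  rw [← lintegral_const_mul _ hm]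
  refine lintegral_congr fun x => ?_
  rw [pw_cons, ob_cons]
  unfold ob
  rw [Finset.prod_mul_distrib]
  ring

omit [SigmaFinite m] in
theorem jn_zero (F : X → X → ℝ≥0∞) (f : X → ℝ≥0∞) : jn m F f 0 = 1 := by
  unfold jn pw ob
  simp

theorem antidiag_identity {R : Type*} [CommSemiring R] (a b : ℕ → R) (N : ℕ) :
    ((N + 1 : ℕ) : R) * ∑ p ∈ Finset.HasAntidiagonal.antidiagonal (N + 1), a p.1 * b p.2 =
      (∑ p ∈ Finset.HasAntidiagonal.antidiagonal N, (((p.1 + 1 : ℕ) : R) * a (p.1 + 1)) * b p.2) +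
        ∑ p ∈ Finset.HasAntidiagonal.antidiagonal N, a p.1 * (((p.2 + 1 : ℕ) : R) * b (p.2 + 1)) := by
  have h1 : ((N + 1 : ℕ) : R) * ∑ p ∈ Finset.HasAntidiagonal.antidiagonal (N + 1), a p.1 * b p.2 =
      (∑ p ∈ Finset.HasAntidiagonal.antidiagonal (N + 1), ((p.1 : ℕ) : R) * a p.1 * b p.2) +
        ∑ p ∈ Finset.HasAntidiagonal.antidiagonal (N + 1), a p.1 * (((p.2 : ℕ) : R) * b p.2) := by
    rw [Finset.mul_sum, ← Finset.sum_add_distrib]
    refine Finset.sum_congr rfl fun p hp => ?_
    rw [← Finset.HasAntidiagonal.mem_antidiagonal.1 hp, Nat.cast_add]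
    ring
  rw [h1, Finset.Nat.sum_antidiagonal_succ, Finset.Nat.sum_antidiagonal_succ']
  simp

theorem jn_add {F : X → X → ℝ≥0∞} (hF : Measurable (Function.uncurry F)) (N : ℕ) :
    ∀ {f1 f2 : X → ℝ≥0∞}, Measurable f1 → Measurable f2 →
    (∀ x y, f1 x ≠ 0 → f2 y ≠ 0 → F x y = 1 ∧ F y x = 1) →
    jn m F (fun x => f1 x + f2 x) N =
      ∑ p ∈ Finset.HasAntidiagonal.antidiagonal N, jn m F f1 p.1 * jn m F f2 p.2 := by
  induction N with
  | zero =>
    intro f1 f2 _ _ _
    simp [jn_zero]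
  | succ N ih =>
    intro f1 f2 h1 h2 hni
    have hne : ((N + 1 : ℕ) : ℝ≥0∞) ≠ 0 := by simp
    have hnt : ((N + 1 : ℕ) : ℝ≥0∞) ≠ ⊤ := ENNReal.natCast_ne_top _
    rw [← ENNReal.mul_right_inj hne hnt, jn_succ m hF (f := fun x => f1 x + f2 x) (h1.add h2),
      antidiag_identity]
    have hA : ∀ y, f1 y * jn m F (fun z => F y z * (f1 z + f2 z)) N =
        ∑ p ∈ Finset.HasAntidiagonal.antidiagonal N,
          (f1 y * jn m F (fun z => F y z * f1 z) p.1) * jn m F f2 p.2 := by
      intro y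
      by_cases hy : f1 y = 0
      · simp [hy]
      have e : (fun z => F y z * (f1 z + f2 z)) = fun z => F y z * f1 z + f2 z := by
        funext z
        rw [mul_add]
        by_cases hz : f2 z = 0
        · simp [hz]
        · simp only [(hni y z hy hz).1, one_mul]
      rw [e, ih (f1 := fun z => F y z * f1 z) (f2 := f2) (hF.of_uncurry_left.mul h1) h2 ?_,
        Finset.mul_sum]
      · exact Finset.sum_congr rfl fun p _ => (mul_assoc _ _ _).symm
      · intro x z hx hz
        exact hni x z (fun h => hx (by rw [h, mul_zero])) hz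
    have hB : ∀ y, f2 y * jn m F (fun z => F y z * (f1 z + f2 z)) N =
        ∑ p ∈ Finset.HasAntidiagonal.antidiagonal N,
          jn m F f1 p.1 * (f2 y * jn m F (fun z => F y z * f2 z) p.2) := by
      intro y
      by_cases hy : f2 y = 0
      · simp [hy]
      have e : (fun z => F y z * (f1 z + f2 z)) = fun z => f1 z + F y z * f2 z := by
        funext z
        rw [mul_add]
        by_cases hz : f1 z = 0
        · simp [hz]
        · simp only [(hni z y hz hy).2, one_mul]
      rw [e, ih (f1 := f1) (f2 := fun z => F y z * f2 z) h1 (hF.of_uncurry_left.mul h2) ?_,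
        Finset.mul_sum]
      · exact Finset.sum_congr rfl fun p _ => mul_left_comm _ _ _
      · intro x z hx hz
        exact hni x z hx (fun h => hz (by rw [h, mul_zero]))
    have hsplit : ∀ y, (f1 y + f2 y) * jn m F (fun z => F y z * (f1 z + f2 z)) N =
        (∑ p ∈ Finset.HasAntidiagonal.antidiagonal N,
          (f1 y * jn m F (fun z => F y z * f1 z) p.1) * jn m F f2 p.2) +
        ∑ p ∈ Finset.HasAntidiagonal.antidiagonal N,
          jn m F f1 p.1 * (f2 y * jn m F (fun z => F y z * f2 z) p.2) := by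
      intro y
      rw [add_mul, hA, hB]
    have hm1 : ∀ k : ℕ, Measurable fun y => f1 y * jn m F (fun z => F y z * f1 z) k :=
      fun k => h1.mul (measurable_jn m hF h1 k)
    have hm2 : ∀ k : ℕ, Measurable fun y => f2 y * jn m F (fun z => F y z * f2 z) k :=
      fun k => h2.mul (measurable_jn m hF h2 k)
    have hmA : ∀ p : ℕ × ℕ, Measurable fun y =>
        (f1 y * jn m F (fun z => F y z * f1 z) p.1) * jn m F f2 p.2 := fun p =>
      (hm1 p.1).mul_const _
    have hmB : ∀ p : ℕ × ℕ, Measurable fun y =>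
        jn m F f1 p.1 * (f2 y * jn m F (fun z => F y z * f2 z) p.2) := fun p =>
      (hm2 p.2).const_mul _
    rw [lintegral_congr hsplit,
      lintegral_add_left (Finset.measurable_sum _ fun p _ => hmA p),
      lintegral_finsetSum _ (fun p _ => hmA p), lintegral_finsetSum _ (fun p _ => hmB p)]
    congr 1
    · refine Finset.sum_congr rfl fun p _ => ?_
      rw [lintegral_mul_const _ (hm1 p.1), jn_succ m hF h1]
    · refine Finset.sum_congr rfl fun p _ => ?_
      rw [lintegral_const_mul _ (hm2 p.2), jn_succ m hF h2]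

theorem tsum_antidiagonal_mul (a b : ℕ → ℝ≥0∞) :
    ∑' N, ∑ p ∈ Finset.HasAntidiagonal.antidiagonal N, a p.1 * b p.2 =
      (∑' k, a k) * ∑' l, b l := by
  rw [← ENNReal.tsum_mul_right]
  simp_rw [← ENNReal.tsum_mul_left]
  rw [← ENNReal.tsum_prod (f := fun k l => a k * b l),
    ← Finset.HasAntidiagonal.sigmaAntidiagonalEquivProd.tsum_eq (fun p : ℕ × ℕ => a p.1 * b p.2),
    ENNReal.tsum_sigma']
  refine tsum_congr fun N => ?_
  rw [tsum_fintype, ← Finset.sum_finset_coe]
  rfl

/-- A2: factorisation for two non-interacting one-body weights. -/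
theorem GP_pw_add {F : X → X → ℝ≥0∞} (hF : Measurable (Function.uncurry F))
    {f1 f2 : X → ℝ≥0∞} (h1 : Measurable f1) (h2 : Measurable f2)
    (hni : ∀ x y, f1 x ≠ 0 → f2 y ≠ 0 → F x y = 1 ∧ F y x = 1) :
    GP m (pw F) (fun x => f1 x + f2 x) = GP m (pw F) f1 * GP m (pw F) f2 := by
  rw [GP_eq_tsum_jn, GP_eq_tsum_jn, GP_eq_tsum_jn, ← tsum_antidiagonal_mul]
  exact tsum_congr fun N => jn_add m hF N h1 h2 hni

omit [SigmaFinite m] in
theorem GP_pw_zero (F : X → X → ℝ≥0∞) : GP m (pw F) (fun _ => 0) = 1 := by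
  rw [GP_eq_tsum_jn, tsum_eq_single 0, jn_zero]
  intro N hN
  obtain ⟨k, rfl⟩ := Nat.exists_eq_succ_of_ne_zero hN
  unfold jn ob
  simp

/-- A2': factorisation for a finite family. -/
theorem GP_pw_sum {F : X → X → ℝ≥0∞} (hF : Measurable (Function.uncurry F))
    {J : Type*} (s : Finset J) (f : J → X → ℝ≥0∞) (hf : ∀ j ∈ s, Measurable (f j))
    (hni : ∀ j ∈ s, ∀ j' ∈ s, j ≠ j' → ∀ x y, f j x ≠ 0 → f j' y ≠ 0 → F x y = 1) :
    GP m (pw F) (fun x => ∑ j ∈ s, f j x) = ∏ j ∈ s, GP m (pw F) (f j) := by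
  classical
  induction s using Finset.induction_on with
  | empty => simpa using GP_pw_zero m F
  | insert j0 s hj0 ih =>
    simp only [Finset.sum_insert hj0, Finset.prod_insert hj0]
    have hms : Measurable fun x => ∑ j ∈ s, f j x :=
      Finset.measurable_sum _ fun j hj => hf j (Finset.mem_insert_of_mem hj)
    rw [GP_pw_add m hF (hf j0 (Finset.mem_insert_self _ _)) hms, ih]
    · exact fun j hj => hf j (Finset.mem_insert_of_mem hj)
    · exact fun j hj j' hj' => hni j (Finset.mem_insert_of_mem hj) j' (Finset.mem_insert_of_mem hj')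
    · intro x y hx hy
      obtain ⟨j, hj, hjy⟩ := Finset.exists_ne_zero_of_sum_ne_zero hy
      have hne : j0 ≠ j := fun h => hj0 (h ▸ hj)
      exact ⟨hni j0 (Finset.mem_insert_self _ _) j (Finset.mem_insert_of_mem hj) hne x y hx hjy,
        hni j (Finset.mem_insert_of_mem hj) j0 (Finset.mem_insert_self _ _) hne.symm y x hjy hx⟩

end GP

end Vale.Agent.P171
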