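import Vale.Agent.P171.GP

open MeasureTheory
open scoped ENNReal

set_option linter.unusedSectionVars false

namespace Vale.Agent.P171

section GP
variable {X : Type*} [MeasurableSpace X] (m : Measure X) [SigmaFinite m]

/-- A4: Hoelder. -/
theorem GS_holder {u0 u1 : (N : ℕ) → (Fin N → X) → ℝ≥0∞}
    (h0 : ∀ N, Measurable (u0 N)) (h1 : ∀ N, Measurable (u1 N))
    {s : ℝ} (hs0 : 0 < s) (hs1 : s < 1) :
    GS m (fun N x => u0 N x ^ (1 - s) * u1 N x ^ s) ≤ GS m u0 ^ (1 - s) * GS m u1 ^ s := by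
  have hs' : 0 ≤ 1 - s := by linarith
  have hsum : (1 - s) + s = 1 := by ring
  set A : ℕ → ℝ≥0∞ := fun N =>
    ((N.factorial : ℝ≥0∞))⁻¹ * ∫⁻ x : Fin N → X, u0 N x ∂(Measure.pi fun _ => m) with hA
  set B : ℕ → ℝ≥0∞ := fun N =>
    ((N.factorial : ℝ≥0∞))⁻¹ * ∫⁻ x : Fin N → X, u1 N x ∂(Measure.pi fun _ => m) with hB
  have step1 : ∀ N : ℕ, ((N.factorial : ℝ≥0∞))⁻¹ *
      ∫⁻ x : Fin N → X, u0 N x ^ (1 - s) * u1 N x ^ s ∂(Measure.pi fun _ => m)
      ≤ A N ^ (1 - s) * B N ^ s := by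
    intro N
    have hc0 : ((N.factorial : ℝ≥0∞))⁻¹ ≠ 0 :=
      ENNReal.inv_ne_zero.mpr (ENNReal.natCast_ne_top _)
    have hct : ((N.factorial : ℝ≥0∞))⁻¹ ≠ ⊤ :=
      ENNReal.inv_ne_top.mpr (by exact_mod_cast N.factorial_ne_zero)
    have hH := ENNReal.lintegral_mul_norm_pow_le (μ := Measure.pi fun _ : Fin N => m)
      (h0 N).aemeasurable (h1 N).aemeasurable hs' hs0.le hsum
    have hc : ((N.factorial : ℝ≥0∞))⁻¹
        = ((N.factorial : ℝ≥0∞))⁻¹ ^ (1 - s) * ((N.factorial : ℝ≥0∞))⁻¹ ^ s := by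
      rw [← ENNReal.rpow_add _ _ hc0 hct, hsum, ENNReal.rpow_one]
    calc ((N.factorial : ℝ≥0∞))⁻¹ *
          ∫⁻ x : Fin N → X, u0 N x ^ (1 - s) * u1 N x ^ s ∂(Measure.pi fun _ => m)
        ≤ ((N.factorial : ℝ≥0∞))⁻¹ *
          ((∫⁻ x : Fin N → X, u0 N x ∂(Measure.pi fun _ => m)) ^ (1 - s) *
            (∫⁻ x : Fin N → X, u1 N x ∂(Measure.pi fun _ => m)) ^ s) :=
          mul_le_mul_right hH _
      _ = A N ^ (1 - s) * B N ^ s := by
          rw [hA, hB]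
          simp only
          rw [ENNReal.mul_rpow_of_nonneg _ _ hs', ENNReal.mul_rpow_of_nonneg _ _ hs0.le]
          conv_lhs => rw [hc]
          ring
  have step2 : ∑' N : ℕ, A N ^ (1 - s) * B N ^ s ≤ (∑' N, A N) ^ (1 - s) * (∑' N, B N) ^ s := by
    have hH := ENNReal.lintegral_mul_norm_pow_le (μ := (Measure.count : Measure ℕ))
      (f := A) (g := B) (measurable_of_countable A).aemeasurable
      (measurable_of_countable B).aemeasurable hs' hs0.le hsum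
    simpa only [lintegral_count] using hH
  calc GS m (fun N x => u0 N x ^ (1 - s) * u1 N x ^ s)
      ≤ ∑' N : ℕ, A N ^ (1 - s) * B N ^ s := ENNReal.tsum_le_tsum step1
    _ ≤ (∑' N, A N) ^ (1 - s) * (∑' N, B N) ^ s := step2
    _ = GS m u0 ^ (1 - s) * GS m u1 ^ s := rfl

end GP

end Vale.Agent.P171
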