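import Vale.Agent.P171.Defs

open MeasureTheory

namespace Vale.Agent.P171

/-- volume of the ball of radius `ρ` in `E3` -/
noncomputable def vb (ρ : ℝ) : ℝ := (volume (Metric.ball (0 : E3) ρ)).toReal

/-- normalised indicator (in `u`) of the ball of radius `R/2` around `x` -/
noncomputable def gk (R : ℝ) (x u : E3) : ℝ := if dist x u < R / 2 then (vb (R / 2))⁻¹ else 0

/-- radial profile of the Kac kernel `K_R = g_R * g_R` -/
noncomputable def Kf (R r : ℝ) : ℝ := ∫ u : E3, gk R 0 u * gk R (EuclideanSpace.single 0 r) u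

theorem vb_pos {ρ : ℝ} (h : 0 < ρ) : 0 < vb ρ := by
  unfold vb
  apply ENNReal.toReal_pos
  · exact (Metric.measure_ball_pos volume _ h).ne'
  · exact measure_ball_lt_top.ne

theorem vb_nonneg (ρ : ℝ) : 0 ≤ vb ρ := ENNReal.toReal_nonneg

theorem vb_mul {c ρ : ℝ} (hc : 0 ≤ c) : vb (c * ρ) = c ^ 3 * vb ρ := by
  unfold vb
  rw [Measure.addHaar_ball_mul volume (0 : E3) hc ρ]
  simp [ENNReal.toReal_mul, ENNReal.toReal_ofReal (pow_nonneg hc 3)]

theorem vb_mono {ρ ρ' : ℝ} (h : ρ ≤ ρ') : vb ρ ≤ vb ρ' := by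
  unfold vb
  exact ENNReal.toReal_mono measure_ball_lt_top.ne (measure_mono (Metric.ball_subset_ball h))

theorem volume_ball_eq (x : E3) (ρ : ℝ) : volume (Metric.ball x ρ) = ENNReal.ofReal (vb ρ) := by
  unfold vb
  rw [ENNReal.ofReal_toReal measure_ball_lt_top.ne, Measure.addHaar_ball_center]

theorem gk_eq_indicator (R : ℝ) (x : E3) :
    gk R x = (Metric.ball x (R / 2)).indicator (fun _ => (vb (R / 2))⁻¹) := by
  ext u
  unfold gk
  by_cases hu : dist x u < R / 2
  · have : u ∈ Metric.ball x (R / 2) := by rw [Metric.mem_ball, dist_comm]; exact hu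
    rw [if_pos hu, Set.indicator_of_mem this]
  · have : u ∉ Metric.ball x (R / 2) := by rw [Metric.mem_ball, dist_comm]; exact hu
    rw [if_neg hu, Set.indicator_of_notMem this]

theorem gk_nonneg (R : ℝ) (x u : E3) : 0 ≤ gk R x u := by
  unfold gk
  split_ifs
  · exact inv_nonneg.2 (vb_nonneg _)
  · exact le_rfl

theorem gk_le (R : ℝ) (x u : E3) : gk R x u ≤ (vb (R / 2))⁻¹ := by
  unfold gk
  split_ifs
  · exact le_rfl
  · exact inv_nonneg.2 (vb_nonneg _)

theorem measurable_gk (R : ℝ) (x : E3) : Measurable (gk R x) := by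
  rw [gk_eq_indicator]
  exact measurable_const.indicator measurableSet_ball

theorem integral_gk {R : ℝ} (hR : 0 < R) (x : E3) : ∫ u, gk R x u = 1 := by
  rw [gk_eq_indicator, integral_indicator measurableSet_ball]
  simp only [integral_const, smul_eq_mul, measureReal_def,
    Measure.restrict_apply MeasurableSet.univ, Set.univ_inter]
  rw [volume_ball_eq, ENNReal.toReal_ofReal (vb_nonneg _)]
  exact mul_inv_cancel₀ (vb_pos (by positivity)).ne'

theorem integrable_gk (R : ℝ) (x : E3) : Integrable (gk R x) := by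
  rw [gk_eq_indicator, integrable_indicator_iff measurableSet_ball]
  exact integrableOn_const (measure_ball_lt_top.ne)

theorem integrable_gk_mul (R : ℝ) (x y : E3) : Integrable (fun u => gk R x u * gk R y u) := by
  apply (integrable_gk R x).mul_bdd (c := (vb (R / 2))⁻¹) (measurable_gk R y).aestronglyMeasurable
  filter_upwards with u
  rw [Real.norm_eq_abs, abs_of_nonneg (gk_nonneg R y u)]
  exact gk_le R y u

theorem gk_add (R : ℝ) (x u v : E3) : gk R (x + v) (u + v) = gk R x u := by
  unfold gk
  rw [dist_add_right]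

theorem gk_map (R : ℝ) (f : E3 ≃ₗᵢ[ℝ] E3) (x u : E3) : gk R (f x) (f u) = gk R x u := by
  unfold gk
  rw [f.dist_map]

theorem integral_gk_mul_add (R : ℝ) (x y v : E3) :
    ∫ u, gk R (x + v) u * gk R (y + v) u = ∫ u, gk R x u * gk R y u := by
  rw [← integral_add_right_eq_self (fun u => gk R (x + v) u * gk R (y + v) u) v]
  simp only [gk_add]

theorem integral_gk_mul_map (R : ℝ) (f : E3 ≃ₗᵢ[ℝ] E3) (x y : E3) :
    ∫ u, gk R (f x) u * gk R (f y) u = ∫ u, gk R x u * gk R y u := by
  rw [← (f.measurePreserving).integral_comp f.toHomeomorph.measurableEmbedding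
    (fun u => gk R (f x) u * gk R (f y) u)]
  simp only [gk_map]

theorem norm_single0 (r : ℝ) : ‖(EuclideanSpace.single 0 r : E3)‖ = |r| := by
  simp

/-- B0: the kernel is radial. -/
theorem Kf_dist {R : ℝ} (_hR : 0 < R) (x y : E3) :
    ∫ u, gk R x u * gk R y u = Kf R (dist x y) := by
  unfold Kf
  have h1 : ∫ u, gk R x u * gk R y u = ∫ u, gk R 0 u * gk R (y - x) u := by
    have := integral_gk_mul_add R 0 (y - x) x
    simpa using this
  rw [h1]
  have hn : ‖y - x‖ = ‖(EuclideanSpace.single 0 (dist x y) : E3)‖ := by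
    rw [norm_single0, abs_of_nonneg dist_nonneg, dist_comm, dist_eq_norm]
  have h2 := integral_gk_mul_map R
    (Submodule.reflection (ℝ ∙ ((y - x) - (EuclideanSpace.single 0 (dist x y) : E3)))ᗮ) 0 (y - x)
  rw [Submodule.reflection_sub hn, map_zero] at h2
  exact h2.symm

theorem Kf_nonneg (R r : ℝ) : 0 ≤ Kf R r :=
  integral_nonneg fun u => mul_nonneg (gk_nonneg R _ u) (gk_nonneg R _ u)

theorem Kf_le {R : ℝ} (hR : 0 < R) (r : ℝ) : Kf R r ≤ (vb (R / 2))⁻¹ := by
  unfold Kf
  calc ∫ u, gk R 0 u * gk R (EuclideanSpace.single 0 r) u ≤ ∫ u, gk R 0 u * (vb (R / 2))⁻¹ := by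
        apply integral_mono (integrable_gk_mul R _ _) ((integrable_gk R 0).mul_const _)
        intro u
        exact mul_le_mul_of_nonneg_left (gk_le R _ u) (gk_nonneg R 0 u)
    _ = (vb (R / 2))⁻¹ := by rw [integral_mul_const, integral_gk hR, one_mul]

theorem Kf_zero {R : ℝ} (hR : 0 < R) : Kf R 0 = (vb (R / 2))⁻¹ := by
  unfold Kf
  have : (fun u => gk R 0 u * gk R (EuclideanSpace.single 0 0 : E3) u)
      = fun u => gk R 0 u * (vb (R / 2))⁻¹ := by
    ext u
    have h0 : (EuclideanSpace.single 0 0 : E3) = 0 := by simp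
    rw [h0]
    unfold gk
    split_ifs <;> simp
  rw [this, integral_mul_const, integral_gk hR, one_mul]

/-- finite range -/
theorem Kf_eq_zero {R r : ℝ} (hR : 0 < R) (h : R ≤ r) : Kf R r = 0 := by
  unfold Kf
  have : (fun u => gk R 0 u * gk R (EuclideanSpace.single 0 r : E3) u) = fun _ => 0 := by
    ext u
    unfold gk
    by_cases hu : dist 0 u < R / 2
    · by_cases hv : dist (EuclideanSpace.single 0 r : E3) u < R / 2
      · exfalso
        have h3 := dist_triangle_right (0 : E3) (EuclideanSpace.single 0 r : E3) u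
        rw [dist_zero_left, norm_single0, abs_of_nonneg (hR.le.trans h)] at h3
        linarith
      · rw [if_neg hv, mul_zero]
    · rw [if_neg hu, zero_mul]
  rw [this]; simp

theorem measurable_Kf (R : ℝ) : Measurable (Kf R) := by
  unfold Kf
  apply StronglyMeasurable.measurable
  apply StronglyMeasurable.integral_prod_right
    (f := fun (r : ℝ) (u : E3) => gk R 0 u * gk R (EuclideanSpace.single 0 r) u)
  apply Measurable.stronglyMeasurable
  apply Measurable.mul
  · exact (measurable_gk R 0).comp measurable_snd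
  · unfold gk
    apply Measurable.ite _ measurable_const measurable_const
    apply IsOpen.measurableSet
    apply isOpen_lt
    · have : Continuous fun r : ℝ => (EuclideanSpace.single 0 r : E3) := by
        have : (fun r : ℝ => (EuclideanSpace.single 0 r : E3))
            = fun r : ℝ => r • (EuclideanSpace.single 0 1 : E3) := by
          ext r i
          simp
        rw [this]
        fun_prop
      fun_prop
    · fun_prop

end Vale.Agent.P171
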