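import Vale.Agent.P171.KernelQ

open MeasureTheory

namespace Vale.Agent.P171

/-- index of the cubic cell of side `ℓ` containing `p` -/
noncomputable def cellIdx (ℓ : ℝ) (p : E3) : Fin 3 → ℤ := fun i => ⌊p i / ℓ⌋

/-- mean-field constant of cells of side `ℓ` for the kernel of range `ρ` -/
noncomputable def kap (ℓ ρ : ℝ) : ℝ := (ℓ ^ 3)⁻¹ * (1 + 2 * Real.sqrt 3 * ℓ / ρ) ^ 3

/-- two points in the same cell are at distance at most `sqrt 3 * ℓ` -/
theorem dist_le_of_cellIdx_eq {ℓ : ℝ} (hℓ : 0 < ℓ) {p p' : E3}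
    (h : cellIdx ℓ p = cellIdx ℓ p') : dist p p' ≤ Real.sqrt 3 * ℓ := by
  have hi : ∀ i, dist (p i) (p' i) ^ 2 ≤ ℓ ^ 2 := by
    intro i
    have h1 : ⌊p i / ℓ⌋ = ⌊p' i / ℓ⌋ := congrFun h i
    have h2 := Int.abs_sub_lt_one_of_floor_eq_floor h1
    rw [← sub_div, abs_div, abs_of_pos hℓ, div_lt_one hℓ] at h2
    rw [Real.dist_eq]
    exact pow_le_pow_left₀ (abs_nonneg _) h2.le 2
  rw [EuclideanSpace.dist_eq]
  have h3 : ∑ i : Fin 3, dist (p i) (p' i) ^ 2 ≤ 3 * ℓ ^ 2 := by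
    have := Finset.sum_le_sum (fun i (_ : i ∈ Finset.univ) => hi i)
    simpa using this
  calc Real.sqrt (∑ i : Fin 3, dist (p i) (p' i) ^ 2) ≤ Real.sqrt (3 * ℓ ^ 2) :=
        Real.sqrt_le_sqrt h3
    _ = Real.sqrt 3 * ℓ := by
        rw [Real.sqrt_mul (by norm_num), Real.sqrt_sq hℓ.le]

theorem measurable_cellIdx (ℓ : ℝ) : Measurable (cellIdx ℓ) := by
  rw [measurable_pi_iff]
  intro i
  have hi : Measurable fun p : E3 => p i := by fun_prop
  exact (hi.div_const ℓ).floor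

/-- the cell with index `α` has volume `ℓ^3` -/
theorem volume_cell {ℓ : ℝ} (hℓ : 0 < ℓ) (α : Fin 3 → ℤ) :
    volume {p : E3 | cellIdx ℓ p = α} = ENNReal.ofReal (ℓ ^ 3) := by
  have h : {p : E3 | cellIdx ℓ p = α} = (@WithLp.ofLp 2 (Fin 3 → ℝ)) ⁻¹'
      (Set.pi Set.univ fun i : Fin 3 => Set.Ico ((α i : ℝ) * ℓ) (((α i : ℝ) + 1) * ℓ)) := by
    ext p
    simp only [Set.mem_ofPred_eq, Set.mem_preimage, Set.mem_pi, Set.mem_univ, true_imp_iff,
      Set.mem_Ico]
    constructor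
    · intro hp i
      have h1 : ⌊p i / ℓ⌋ = α i := congrFun hp i
      rw [Int.floor_eq_iff, le_div_iff₀ hℓ, div_lt_iff₀ hℓ] at h1
      exact h1
    · intro hp
      funext i
      show ⌊p i / ℓ⌋ = α i
      rw [Int.floor_eq_iff, le_div_iff₀ hℓ, div_lt_iff₀ hℓ]
      exact hp i
  rw [h, (PiLp.volume_preserving_ofLp (Fin 3)).measure_preimage
    (MeasurableSet.univ_pi fun _ => measurableSet_Ico).nullMeasurableSet, volume_pi_pi]
  have : ∀ i : Fin 3, volume (Set.Ico ((α i : ℝ) * ℓ) (((α i : ℝ) + 1) * ℓ)) = ENNReal.ofReal ℓ := by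
    intro i
    rw [Real.volume_Ico]
    congr 1
    ring
  simp [this, ENNReal.ofReal_pow hℓ.le]

/-- number of occupied cells meeting a ball -/
theorem card_cells_le {R ℓ : ℝ} (hℓ : 0 < ℓ) {N : ℕ} (x : Fin N → E3) (u : E3)
    (J : Finset (Fin N)) (hJ : ∀ i ∈ J, dist (x i) u < R / 2) :
    ((J.image (fun i => cellIdx ℓ (x i))).card : ℝ) * ℓ ^ 3 ≤ vb (R / 2 + Real.sqrt 3 * ℓ) := by
  set T := J.image (fun i => cellIdx ℓ (x i)) with hT
  have hmeas : ∀ A : Fin 3 → ℤ, MeasurableSet {p : E3 | cellIdx ℓ p = A} := fun A =>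
    measurable_cellIdx ℓ (measurableSet_singleton A)
  have hdisj : (T : Set (Fin 3 → ℤ)).PairwiseDisjoint (fun A => {p : E3 | cellIdx ℓ p = A}) := by
    intro A _ B _ hAB
    rw [Function.onFun, Set.disjoint_left]
    intro p hpA hpB
    exact hAB (hpA.symm.trans hpB)
  have h1 : volume (⋃ A ∈ T, {p : E3 | cellIdx ℓ p = A})
      = (T.card : ENNReal) * ENNReal.ofReal (ℓ ^ 3) := by
    rw [measure_biUnion_finset hdisj (fun A _ => hmeas A)]
    simp [volume_cell hℓ]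
  have h2 : (⋃ A ∈ T, {p : E3 | cellIdx ℓ p = A}) ⊆ Metric.ball u (R / 2 + Real.sqrt 3 * ℓ) := by
    intro p hp
    simp only [Set.mem_iUnion] at hp
    obtain ⟨A, hA, hpA⟩ := hp
    obtain ⟨i, hi, rfl⟩ := Finset.mem_image.mp hA
    have h3 := dist_le_of_cellIdx_eq hℓ hpA
    have h4 := hJ i hi
    rw [Metric.mem_ball]
    calc dist p u ≤ dist p (x i) + dist (x i) u := dist_triangle _ _ _
      _ < R / 2 + Real.sqrt 3 * ℓ := by linarith
  have h5 := measure_mono h2 (μ := volume)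
  rw [h1, volume_ball_eq] at h5
  rw [← ENNReal.ofReal_natCast, ← ENNReal.ofReal_mul (by positivity)] at h5
  exact (ENNReal.ofReal_le_ofReal_iff (vb_nonneg _)).mp h5

/-- Cauchy-Schwarz over the occupied cells -/
theorem sq_sum_le_cell (ℓ : ℝ) {N : ℕ} (c : Fin N → ℝ) (hc : ∀ i, 0 ≤ c i) (x : Fin N → E3)
    (J : Finset (Fin N)) :
    (∑ i ∈ J, c i) ^ 2 ≤ ((J.image (fun i => cellIdx ℓ (x i))).card : ℝ) *
      ∑ i ∈ J, c i * ∑ j, if cellIdx ℓ (x i) = cellIdx ℓ (x j) then c j else 0 := by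
  set f := fun i => cellIdx ℓ (x i) with hf
  set T := J.image f with hT
  have hmap : ∀ i ∈ J, f i ∈ T := fun i hi => Finset.mem_image_of_mem f hi
  rw [← Finset.sum_fiberwise_of_maps_to hmap c]
  refine (sq_sum_le_card_mul_sum_sq).trans ?_
  apply mul_le_mul_of_nonneg_left _ (Nat.cast_nonneg _)
  rw [← Finset.sum_fiberwise_of_maps_to hmap
    (fun i => c i * ∑ j, if cellIdx ℓ (x i) = cellIdx ℓ (x j) then c j else 0)]
  apply Finset.sum_le_sum
  intro A _
  rw [sq, Finset.sum_mul]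
  apply Finset.sum_le_sum
  intro i hi
  apply mul_le_mul_of_nonneg_left _ (hc i)
  have hiA : f i = A := (Finset.mem_filter.mp hi).2
  rw [← Finset.sum_filter]
  apply Finset.sum_le_sum_of_subset_of_nonneg
  · intro j hj
    rw [Finset.mem_filter]
    refine ⟨Finset.mem_univ _, ?_⟩
    exact hiA.trans (Finset.mem_filter.mp hj).2.symm
  · intro j _ _
    exact hc j

theorem kap_eq {R ℓ : ℝ} (hR : 0 < R) (hℓ : 0 < ℓ) :
    kap ℓ R = vb (R / 2 + Real.sqrt 3 * ℓ) / (vb (R / 2) * ℓ ^ 3) := by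
  have h1 : R / 2 + Real.sqrt 3 * ℓ = (1 + 2 * Real.sqrt 3 * ℓ / R) * (R / 2) := by
    field_simp
  have hv := vb_pos (show 0 < R / 2 by positivity)
  rw [h1, vb_mul (by positivity)]
  unfold kap
  field_simp

/-- B2: the quadratic form is bounded by the sum of squares of the cell occupation numbers
(written as a double sum over pairs in the same cell). -/
theorem Qf_le_cell {R ℓ : ℝ} (hR : 0 < R) (hℓ : 0 < ℓ) {N : ℕ} (c : Fin N → ℝ)
    (hc : ∀ i, 0 ≤ c i) (x : Fin N → E3) :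
    Qf R c x ≤ kap ℓ R *
      ∑ i, ∑ j, if cellIdx ℓ (x i) = cellIdx ℓ (x j) then c i * c j else 0 := by
  rw [Qf_eq_integral hR c x]
  set n : Fin N → ℝ := fun i => ∑ j, if cellIdx ℓ (x i) = cellIdx ℓ (x j) then c j else 0 with hn
  have hn0 : ∀ i, 0 ≤ n i := by
    intro i
    apply Finset.sum_nonneg
    intro j _
    split_ifs
    · exact hc j
    · exact le_rfl
  have hv := vb_pos (show 0 < R / 2 by positivity)
  set v := vb (R / 2) with hvdef
  have hpt : ∀ u, (∑ i, c i * gk R (x i) u) ^ 2 ≤ kap ℓ R * ∑ i, c i * n i * gk R (x i) u := by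
    intro u
    set J : Finset (Fin N) := Finset.univ.filter (fun i => dist (x i) u < R / 2) with hJ
    have e1 : ∑ i, c i * gk R (x i) u = (∑ i ∈ J, c i) * v⁻¹ := by
      rw [Finset.sum_mul, hJ, Finset.sum_filter]
      apply Finset.sum_congr rfl
      intro i _
      unfold gk
      split_ifs <;> simp [hvdef]
    have e2 : ∑ i, c i * n i * gk R (x i) u = (∑ i ∈ J, c i * n i) * v⁻¹ := by
      rw [Finset.sum_mul, hJ, Finset.sum_filter]
      apply Finset.sum_congr rfl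
      intro i _
      unfold gk
      split_ifs <;> simp [hvdef]
    rw [e1, e2, kap_eq hR hℓ]
    have h1 := sq_sum_le_cell ℓ c hc x J
    have h2 := card_cells_le (R := R) hℓ x u J (fun i hi => (Finset.mem_filter.mp hi).2)
    have h3 : 0 ≤ ∑ i ∈ J, c i * n i :=
      Finset.sum_nonneg (fun i _ => mul_nonneg (hc i) (hn0 i))
    have h4 : ((J.image (fun i => cellIdx ℓ (x i))).card : ℝ)
        ≤ vb (R / 2 + Real.sqrt 3 * ℓ) / ℓ ^ 3 := by
      rw [le_div_iff₀ (by positivity)]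
      exact h2
    have h5 : (∑ i ∈ J, c i) ^ 2 ≤ vb (R / 2 + Real.sqrt 3 * ℓ) / ℓ ^ 3 * ∑ i ∈ J, c i * n i :=
      h1.trans (mul_le_mul_of_nonneg_right h4 h3)
    have h6 : 0 ≤ v⁻¹ ^ 2 := by positivity
    have h7 := mul_le_mul_of_nonneg_right h5 h6
    calc ((∑ i ∈ J, c i) * v⁻¹) ^ 2 = (∑ i ∈ J, c i) ^ 2 * v⁻¹ ^ 2 := by ring
      _ ≤ vb (R / 2 + Real.sqrt 3 * ℓ) / ℓ ^ 3 * (∑ i ∈ J, c i * n i) * v⁻¹ ^ 2 := h7
      _ = vb (R / 2 + Real.sqrt 3 * ℓ) / (v * ℓ ^ 3) * ((∑ i ∈ J, c i * n i) * v⁻¹) := by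
        field_simp
  have hint : Integrable (fun u => kap ℓ R * ∑ i, c i * n i * gk R (x i) u) := by
    apply Integrable.const_mul
    apply integrable_finsetSum
    intro i _
    exact (integrable_gk R (x i)).const_mul _
  have h8 := integral_mono_of_nonneg (μ := volume)
    (Filter.Eventually.of_forall (fun u => sq_nonneg (∑ i, c i * gk R (x i) u))) hint
    (Filter.Eventually.of_forall hpt)
  refine h8.trans (le_of_eq ?_)
  rw [integral_const_mul, integral_finsetSum _ (fun i _ => (integrable_gk R (x i)).const_mul _)]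
  congr 1
  apply Finset.sum_congr rfl
  intro i _
  rw [integral_const_mul, integral_gk hR, mul_one, hn, Finset.mul_sum]
  apply Finset.sum_congr rfl
  intro j _
  split_ifs <;> simp

end Vale.Agent.P171
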