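import Vale.Agent.P171.Kernel

open MeasureTheory

namespace Vale.Agent.P171

/-- the quadratic form of the kernel `K_R` on a configuration `x` with weights `c` -/
noncomputable def Qf (R : ℝ) {N : ℕ} (c : Fin N → ℝ) (x : Fin N → E3) : ℝ :=
  ∑ i, ∑ j, c i * c j * Kf R (dist (x i) (x j))

/-- weighted smeared density -/
noncomputable def fw (R : ℝ) {N : ℕ} (c : Fin N → ℝ) (x : Fin N → E3) (u : E3) : ℝ :=
  ∑ i, c i * gk R (x i) u

theorem measurable_fw (R : ℝ) {N : ℕ} (c : Fin N → ℝ) (x : Fin N → E3) :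
    Measurable (fw R c x) := by
  unfold fw
  exact Finset.measurable_sum _ fun i _ => (measurable_gk R (x i)).const_mul _

theorem integrable_fw (R : ℝ) {N : ℕ} (c : Fin N → ℝ) (x : Fin N → E3) :
    Integrable (fw R c x) := by
  unfold fw
  exact integrable_finsetSum _ fun i _ => (integrable_gk R (x i)).const_mul _

theorem abs_fw_le (R : ℝ) {N : ℕ} (c : Fin N → ℝ) (x : Fin N → E3) (u : E3) :
    |fw R c x u| ≤ ∑ i, |c i| * (vb (R / 2))⁻¹ := by
  unfold fw
  refine (Finset.abs_sum_le_sum_abs _ _).trans (Finset.sum_le_sum fun i _ => ?_)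
  rw [abs_mul, abs_of_nonneg (gk_nonneg R (x i) u)]
  exact mul_le_mul_of_nonneg_left (gk_le R (x i) u) (abs_nonneg _)

theorem integrable_fw_mul (R : ℝ) {N M : ℕ} (c : Fin N → ℝ) (x : Fin N → E3)
    (c' : Fin M → ℝ) (y : Fin M → E3) :
    Integrable (fun u => fw R c x u * fw R c' y u) := by
  apply (integrable_fw R c x).mul_bdd (c := ∑ i, |c' i| * (vb (R / 2))⁻¹)
    (measurable_fw R c' y).aestronglyMeasurable
  filter_upwards with u
  rw [Real.norm_eq_abs]
  exact abs_fw_le R c' y u

theorem integrable_fw_sq (R : ℝ) {N : ℕ} (c : Fin N → ℝ) (x : Fin N → E3) :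
    Integrable (fun u => fw R c x u ^ 2) := by
  simp_rw [sq]
  exact integrable_fw_mul R c x c x

theorem integral_fw {R : ℝ} (hR : 0 < R) {N : ℕ} (c : Fin N → ℝ) (x : Fin N → E3) :
    ∫ u, fw R c x u = ∑ i, c i := by
  unfold fw
  rw [integral_finsetSum _ fun i _ => (integrable_gk R (x i)).const_mul _]
  simp [integral_const_mul, integral_gk hR]

/-- BQ: positive type representation. -/
theorem Qf_eq_integral {R : ℝ} (hR : 0 < R) {N : ℕ} (c : Fin N → ℝ) (x : Fin N → E3) :
    Qf R c x = ∫ u, (∑ i, c i * gk R (x i) u) ^ 2 := by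
  unfold Qf
  simp_rw [sq, Finset.sum_mul_sum]
  rw [integral_finsetSum]
  · apply Finset.sum_congr rfl
    intro i _
    rw [integral_finsetSum]
    · apply Finset.sum_congr rfl
      intro j _
      rw [← Kf_dist hR, ← integral_const_mul]
      congr 1
      ext u
      ring
    · intro j _
      have := (integrable_gk_mul R (x i) (x j)).const_mul (c i * c j)
      refine this.congr (Filter.Eventually.of_forall fun u => ?_)
      simp only
      ring
  · intro i _
    apply integrable_finsetSum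
    intro j _
    have := (integrable_gk_mul R (x i) (x j)).const_mul (c i * c j)
    refine this.congr (Filter.Eventually.of_forall fun u => ?_)
    simp only
    ring

theorem Qf_eq_integral_fw {R : ℝ} (hR : 0 < R) {N : ℕ} (c : Fin N → ℝ) (x : Fin N → E3) :
    Qf R c x = ∫ u, fw R c x u ^ 2 := Qf_eq_integral hR c x

theorem Qf_nonneg {R : ℝ} (hR : 0 < R) {N : ℕ} (c : Fin N → ℝ) (x : Fin N → E3) :
    0 ≤ Qf R c x := by
  rw [Qf_eq_integral hR]
  exact integral_nonneg fun u => sq_nonneg _

/-- closed box `[a,b]^3`. -/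
def box (a b : ℝ) : Set E3 := {p | ∀ i, a ≤ p i ∧ p i ≤ b}

theorem cube_eq_box (L : ℝ) : cube L = box 0 L := rfl

theorem box_eq_preimage (a b : ℝ) :
    box a b = (WithLp.ofLp : E3 → (Fin 3 → ℝ)) ⁻¹' (Set.Icc (fun _ => a) (fun _ => b)) := by
  ext p
  simp only [box, Set.mem_ofPred_eq, Set.mem_preimage, Set.mem_Icc, Pi.le_def]
  exact forall_and

theorem measurableSet_box (a b : ℝ) : MeasurableSet (box a b) := by
  rw [box_eq_preimage]
  exact (PiLp.volume_preserving_ofLp (Fin 3)).measurable measurableSet_Icc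

theorem volume_box (a b : ℝ) : volume (box a b) = ENNReal.ofReal (b - a) ^ 3 := by
  rw [box_eq_preimage, (PiLp.volume_preserving_ofLp (Fin 3)).measure_preimage
    measurableSet_Icc.nullMeasurableSet, Real.volume_Icc_pi]
  simp

theorem volume_box_toReal {a b : ℝ} (h : a ≤ b) : (volume (box a b)).toReal = (b - a) ^ 3 := by
  rw [volume_box, ENNReal.toReal_pow, ENNReal.toReal_ofReal (by linarith)]

theorem abs_apply_sub_le (u x : E3) (k : Fin 3) : |u k - x k| ≤ dist u x := by
  rw [dist_eq_norm]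
  have := PiLp.norm_apply_le (u - x) k
  simpa using this

theorem ball_subset_box {a b ρ : ℝ} {x : E3} (hx : x ∈ box a b) :
    Metric.ball x ρ ⊆ box (a - ρ) (b + ρ) := by
  intro u hu k
  rw [Metric.mem_ball] at hu
  have h1 := abs_apply_sub_le u x k
  have h2 := abs_le.1 (h1.trans hu.le)
  have h3 := hx k
  constructor <;> linarith [h2.1, h2.2, h3.1, h3.2]

/-- B1: linearised mean-field lower bound. -/
theorem Qf_mf_lower {R L α : ℝ} (hR : 0 < R) (hL : 0 < L) (hα : 0 < α) (t : ℝ) {N : ℕ}
    (x : Fin N → E3) (hx : ∀ i, x i ∈ cube L) :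
    t * N - t ^ 2 * (L + R) ^ 3 / (2 * α) ≤ α / 2 * Qf R (fun _ => 1) x := by
  rw [Qf_eq_integral_fw hR]
  set S := box (0 - R / 2) (L + R / 2) with hS
  set V : ℝ := (L + R) ^ 3 with hV
  have hvol : (volume S).toReal = V := by
    rw [hS, volume_box_toReal (by linarith), hV]; ring
  have hSfin : volume S ≠ ⊤ := by
    rw [hS, volume_box]; exact ENNReal.pow_ne_top ENNReal.ofReal_ne_top
  set c : ℝ := t / α with hc
  set f := fw R (fun _ : Fin N => (1 : ℝ)) x with hf
  have hsupp : ∀ u, u ∉ S → f u = 0 := by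
    intro u hu
    rw [hf]
    unfold fw
    apply Finset.sum_eq_zero
    intro i _
    rw [gk_eq_indicator, Set.indicator_of_notMem, mul_zero]
    intro hmem
    exact hu (ball_subset_box (hx i) hmem)
  have hpt : ∀ u, (f u - S.indicator (fun _ => c) u) ^ 2
      = f u ^ 2 - 2 * c * f u + S.indicator (fun _ => c ^ 2) u := by
    intro u
    by_cases hu : u ∈ S
    · rw [Set.indicator_of_mem hu, Set.indicator_of_mem hu]; ring
    · rw [Set.indicator_of_notMem hu, Set.indicator_of_notMem hu, hsupp u hu]; ring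
  have hi1 : Integrable (fun u => f u ^ 2) := integrable_fw_sq R _ x
  have hi2 : Integrable (fun u => 2 * c * f u) := (integrable_fw R _ x).const_mul _
  have hi3 : Integrable (S.indicator (fun _ => c ^ 2)) := by
    rw [integrable_indicator_iff (measurableSet_box _ _)]
    exact integrableOn_const hSfin
  have h0 : 0 ≤ ∫ u, (f u - S.indicator (fun _ => c) u) ^ 2 :=
    integral_nonneg fun u => sq_nonneg _
  simp_rw [hpt] at h0
  have hsplit : ∫ u, (f u ^ 2 - 2 * c * f u + S.indicator (fun _ => c ^ 2) u)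
      = (∫ u, f u ^ 2) - (∫ u, 2 * c * f u) + ∫ u, S.indicator (fun _ => c ^ 2) u := by
    rw [← integral_sub hi1 hi2]
    exact integral_add (hi1.sub hi2) hi3
  rw [hsplit, integral_const_mul, integral_fw hR, integral_indicator (measurableSet_box _ _)] at h0
  simp only [integral_const, smul_eq_mul, measureReal_def,
    Measure.restrict_apply MeasurableSet.univ, Set.univ_inter, Finset.sum_const, Finset.card_univ,
    Fintype.card_fin, nsmul_eq_mul, mul_one] at h0
  rw [hvol] at h0
  have h3 : t * N - t ^ 2 * V / (2 * α) = α / 2 * (2 * c * N - V * c ^ 2) := by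
    rw [hc]; field_simp
  rw [h3]
  apply mul_le_mul_of_nonneg_left _ (by positivity)
  linarith

theorem fw_add (R : ℝ) {N : ℕ} (c c' : Fin N → ℝ) (x : Fin N → E3) (u : E3) :
    fw R (fun i => c i + c' i) x u = fw R c x u + fw R c' x u := by
  unfold fw
  rw [← Finset.sum_add_distrib]
  apply Finset.sum_congr rfl
  intro i _
  ring

/-- B3: splitting. -/
theorem Qf_add_le {R η : ℝ} (hR : 0 < R) (hη : 0 < η) {N : ℕ} (c c' : Fin N → ℝ)
    (x : Fin N → E3) :
    Qf R (fun i => c i + c' i) x ≤ (1 + η) * Qf R c x + (1 + 1 / η) * Qf R c' x := by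
  rw [Qf_eq_integral_fw hR, Qf_eq_integral_fw hR, Qf_eq_integral_fw hR, ← integral_const_mul,
    ← integral_const_mul, ← integral_add ((integrable_fw_sq R c x).const_mul _)
      ((integrable_fw_sq R c' x).const_mul _)]
  apply integral_mono (integrable_fw_sq R _ x)
    (((integrable_fw_sq R c x).const_mul _).add ((integrable_fw_sq R c' x).const_mul _))
  intro u
  simp only [fw_add, Pi.add_apply]
  set a := fw R c x u
  set b := fw R c' x u
  have h : 0 ≤ (η * a - b) ^ 2 / η := by positivity
  have h2 : (η * a - b) ^ 2 / η = (1 + η) * a ^ 2 + (1 + 1 / η) * b ^ 2 - (a + b) ^ 2 := by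
    field_simp
    ring
  linarith

end Vale.Agent.P171
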