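import Vale.Agent.P171.Stab
import Vale.Agent.P171.Cont
import Vale.Agent.P171.ConvexT

open MeasureTheory Filter Topology
open scoped ENNReal

namespace Vale.Agent.P171

/-- one-body weight of a configuration inside the region -/
theorem ob_act_of_mem (μ : ℝ) {S : Set E3} {N : ℕ} {x : Fin N → E3} (hx : ∀ i, x i ∈ S) :
    ob (act μ S) N x = ENNReal.ofReal (Real.exp (N * μ)) := by
  unfold ob act
  have : ∀ i : Fin N, S.indicator (fun _ => ENNReal.ofReal (Real.exp μ)) (x i)
      = ENNReal.ofReal (Real.exp μ) := fun i => Set.indicator_of_mem (hx i) _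
  simp only [this, Finset.prod_const, Finset.card_univ, Fintype.card_fin]
  rw [← ENNReal.ofReal_pow (Real.exp_pos _).le, ← Real.exp_nat_mul]

/-- one-body weight of a configuration leaving the region -/
theorem ob_act_of_not_mem (μ : ℝ) {S : Set E3} {N : ℕ} {x : Fin N → E3} (hx : ¬ ∀ i, x i ∈ S) :
    ob (act μ S) N x = 0 := by
  apply ob_eq_zero
  intro h
  exact hx (fun i => (act_ne_zero_iff μ S (x i)).mp (h i))

/-- energy of the Kac kernel through the quadratic form -/
theorem U_Kf {ρ : ℝ} (hρ : 0 < ρ) (N : ℕ) (x : Fin N → E3) :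
    2 * U (Kf ρ) N x = Qf ρ (fun _ => 1) x - N * (vb (ρ / 2))⁻¹ := by
  have h1 := sum_sum_eq_two_U (Kf ρ) N x
  rw [Kf_zero hρ] at h1
  unfold Qf
  simp only [one_mul]
  linarith

theorem U_const_mul (c : ℝ) (ψ : ℝ → ℝ) (N : ℕ) (x : Fin N → E3) :
    U (fun r => c * ψ r) N x = c * U ψ N x := by
  unfold U
  rw [Finset.mul_sum]
  apply Finset.sum_congr rfl
  intro i _
  rw [Finset.mul_sum]
  apply Finset.sum_congr rfl
  intro j _
  split_ifs <;> simp

/-- finite volume form of the Lebowitz-Penrose lower bound -/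
theorem XiS_kac_ge (φ : ℝ → ℝ) {α ρ L : ℝ} (hα : 0 < α) (hρ : 0 < ρ) (hL : 0 < L) (μ t : ℝ) :
    ENNReal.ofReal (Real.exp (-(t ^ 2 * (L + ρ) ^ 3 / (2 * α)))) *
      XiS φ (μ - α / (2 * vb (ρ / 2)) + t) (cube L)
      ≤ XiS (fun r => φ r - α * Kf ρ r) μ (cube L) := by
  unfold XiS GP
  have e1 : ∀ (c : ℝ≥0∞) (u : (N : ℕ) → (Fin N → E3) → ℝ≥0∞), c ≠ ⊤ →
      c * GS volume u = GS volume (fun N x => c * u N x) := by
    intro c u hc
    unfold GS
    rw [← ENNReal.tsum_mul_left]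
    apply tsum_congr
    intro N
    rw [lintegral_const_mul' _ _ hc]
    ring
  rw [e1 _ _ ENNReal.ofReal_ne_top]
  apply GS_mono
  intro N
  apply Filter.Eventually.of_forall
  intro x
  by_cases hx : ∀ i, x i ∈ cube L
  · rw [ob_act_of_mem _ hx, ob_act_of_mem _ hx]
    unfold bw
    rw [← ENNReal.ofReal_mul (Real.exp_pos _).le, ← ENNReal.ofReal_mul (Real.exp_pos _).le,
      ← ENNReal.ofReal_mul (Real.exp_pos _).le, ← Real.exp_add, ← Real.exp_add, ← Real.exp_add]
    apply ENNReal.ofReal_le_ofReal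
    apply Real.exp_le_exp.mpr
    have h1 := Qf_mf_lower hρ hL hα t x hx
    have h2 := U_Kf hρ N x
    have h3 : U (fun r => φ r - α * Kf ρ r) N x = U φ N x - α * U (Kf ρ) N x := by
      rw [U_sub φ (fun r => α * Kf ρ r), U_const_mul]
    rw [h3]
    have h4 : α * U (Kf ρ) N x = α / 2 * Qf ρ (fun _ => 1) x - N * (α / (2 * vb (ρ / 2))) := by
      have : α * U (Kf ρ) N x = α / 2 * (2 * U (Kf ρ) N x) := by ring
      rw [this, h2]
      have hv := vb_pos (show 0 < ρ / 2 by positivity)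
      field_simp
    rw [h4]
    nlinarith
  · rw [ob_act_of_not_mem _ hx, ob_act_of_not_mem _ hx]
    simp

/-- logarithmic form -/
theorem lX_kac_ge {φ : ℝ → ℝ} {B B' α ρ L : ℝ} (h : Good φ B) (hα : 0 < α) (hρ : 0 < ρ)
    (h' : Good (fun r => φ r - α * Kf ρ r) B') (hL : 0 < L) (μ t : ℝ) :
    lX φ (μ - α / (2 * vb (ρ / 2)) + t) L - t ^ 2 * (L + ρ) ^ 3 / (2 * α)
      ≤ lX (fun r => φ r - α * Kf ρ r) μ L := by
  have h1 := XiS_kac_ge φ hα hρ hL μ t
  rw [← exp_lX h _ hL.le, ← exp_lX h' _ hL.le, ← ENNReal.ofReal_mul (Real.exp_pos _).le,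
    ← Real.exp_add] at h1
  have h2 := (ENNReal.ofReal_le_ofReal_iff (Real.exp_pos _).le).mp h1
  have h3 := Real.exp_le_exp.mp h2
  linarith

/-- E1: Lebowitz-Penrose lower bound (exact for every range `ρ`). -/
theorem press_kac_ge {φ : ℝ → ℝ} {B B' α ρ : ℝ} (h : Good φ B) (hα : 0 < α) (hρ : 0 < ρ)
    (h' : Good (fun r => φ r - α * Kf ρ r) B') (μ t : ℝ) :
    press φ (μ - α / (2 * vb (ρ / 2)) + t) - t ^ 2 / (2 * α)
      ≤ press (fun r => φ r - α * Kf ρ r) μ := by
  have t1 := tendsto_press h (μ - α / (2 * vb (ρ / 2)) + t)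
  have t2 := tendsto_press h' μ
  have t3 : Tendsto (fun L : ℝ => (1 + ρ * L⁻¹) ^ 3 * (t ^ 2 / (2 * α))) atTop
      (𝓝 ((1 + ρ * 0) ^ 3 * (t ^ 2 / (2 * α)))) :=
    ((tendsto_const_nhds.add (tendsto_inv_atTop_zero.const_mul ρ)).pow 3).mul_const _
  have e : (1 + ρ * 0) ^ 3 * (t ^ 2 / (2 * α)) = t ^ 2 / (2 * α) := by ring
  rw [e] at t3
  refine le_of_tendsto_of_tendsto (t1.sub t3) t2 ?_
  filter_upwards [eventually_gt_atTop (0 : ℝ)] with L hL
  have h1 := lX_kac_ge h hα hρ h' hL μ t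
  have h2 : lX φ (μ - α / (2 * vb (ρ / 2)) + t) L / L ^ 3 - (1 + ρ * L⁻¹) ^ 3 * (t ^ 2 / (2 * α))
      = (lX φ (μ - α / (2 * vb (ρ / 2)) + t) L - t ^ 2 * (L + ρ) ^ 3 / (2 * α)) / L ^ 3 := by
    field_simp
  rw [h2]
  exact div_le_div_of_nonneg_right h1 (by positivity)

theorem update_term (a R : ℕ → ℝ) (K : ℕ) (α ρ r : ℝ) :
    (fun k => Function.update a K α k * Kf (Function.update R K ρ k) r)
      = Function.update (fun k => a k * Kf (R k) r) K (α * Kf ρ r) := by
  funext k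
  by_cases hk : k = K
  · subst hk
    simp
  · simp [Function.update_of_ne hk]

/-- adding a Kac piece at a free index stays in the class -/
theorem pot_update {a R : ℕ → ℝ} (h : Adm a R) {K : ℕ} (hK : a K = 0) (α ρ : ℝ) (r : ℝ) :
    pot (Function.update a K α) (Function.update R K ρ) r = pot a R r - α * Kf ρ r := by
  unfold pot att
  rw [update_term]
  have h1 := (summable_att h r).hasSum.update K (α * Kf ρ r)
  rw [h1.tsum_eq, hK]
  ring

theorem adm_update {a R : ℕ → ℝ} (h : Adm a R) (K : ℕ) {α ρ : ℝ} (hα : 0 ≤ α) (hρ : 1 ≤ ρ) :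
    Adm (Function.update a K α) (Function.update R K ρ) := by
  refine ⟨?_, ?_, ?_⟩
  · intro k
    by_cases hk : k = K
    · subst hk
      simpa using hα
    · rw [Function.update_of_ne hk]
      exact h.nonneg k
  · exact (h.summ.hasSum.update K α).summable
  · intro k
    by_cases hk : k = K
    · subst hk
      simpa using hρ
    · rw [Function.update_of_ne hk]
      exact h.Rge k

theorem tsum_update {a R : ℕ → ℝ} (h : Adm a R) {K : ℕ} (hK : a K = 0) (α : ℝ) :
    ∑' k, Function.update a K α k = ∑' k, a k + α := by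
  have h1 := h.summ.hasSum.update K α
  rw [h1.tsum_eq, hK]
  ring

/-- E2: uniform quadratic growth bound for the pressures of the class:
for every budget `A` and every `a0 > 0` there is `b0` such that all pressures of the class with
budget `A` (having at least one free index) are bounded by `b0 + ν^2 / (8 a0)`. -/
theorem exists_growth (A a0 : ℝ) (ha0 : 0 < a0) :
    ∃ b0 : ℝ, ∀ a R : ℕ → ℝ, Adm a R → ∑' k, a k ≤ A → (∃ K, a K = 0) →
      ∀ ν, press (pot a R) ν ≤ b0 + ν ^ 2 / (8 * a0) := by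
  obtain ⟨B, _, hB⟩ := exists_good (A + 8 * a0)
  set α : ℝ := 8 * a0 with hα
  have hαpos : 0 < α := by positivity
  set s : ℝ := α / (2 * vb ((1 : ℝ) / 2)) with hs
  refine ⟨Real.exp B + s ^ 2 / α, ?_⟩
  intro a R h hA ⟨K, hK⟩ ν
  have hg : Good (pot a R) B := hB a R h (by linarith)
  have hg' : Good (fun r => pot a R r - α * Kf 1 r) B := by
    have e : (fun r => pot a R r - α * Kf 1 r)
        = pot (Function.update a K α) (Function.update R K 1) := by
      funext r
      exact (pot_update h hK α 1 r).symm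
    rw [e]
    apply hB _ _ (adm_update h K hαpos.le le_rfl)
    rw [tsum_update h hK]
    linarith
  have h1 := press_kac_ge hg hαpos one_pos hg' 0 (ν + s)
  have h2 := press_le_exp hg' 0
  have e1 : (0 : ℝ) - α / (2 * vb ((1 : ℝ) / 2)) + (ν + s) = ν := by
    rw [hs]
    ring
  rw [e1] at h1
  rw [zero_add] at h2
  have h3 : (ν + s) ^ 2 / (2 * α) ≤ ν ^ 2 / α + s ^ 2 / α := by
    rw [← add_div, div_le_div_iff₀ (by positivity) hαpos]
    nlinarith [sq_nonneg (ν - s), mul_nonneg hαpos.le (sq_nonneg (ν - s))]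
  linarith

end Vale.Agent.P171
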