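import Vale.Agent.P171.LPupDefs

open MeasureTheory Filter Topology
open scoped ENNReal

namespace Vale.Agent.P171

theorem act_add (μ t : ℝ) (S : Set E3) (p : E3) :
    act (μ + t) S p = ENNReal.ofReal (Real.exp t) * act μ S p := by
  unfold act
  by_cases hp : p ∈ S
  · simp only [Set.indicator_of_mem hp]
    rw [← ENNReal.ofReal_mul (Real.exp_pos t).le, ← Real.exp_add, add_comm]
  · simp only [Set.indicator_of_notMem hp, mul_zero]

theorem ob_act_add (μ t : ℝ) (S : Set E3) (n : ℕ) (x : Fin n → E3) :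
    ob (act (μ + t) S) n x = ENNReal.ofReal (Real.exp (t * n)) * ob (act μ S) n x := by
  unfold ob
  simp only [act_add, Finset.prod_mul_distrib, Finset.prod_const, Finset.card_univ,
    Fintype.card_fin]
  congr 1
  rw [← ENNReal.ofReal_pow (Real.exp_pos t).le, ← Real.exp_nat_mul, mul_comm]

/-- a single canonical term is bounded through the pressure at a shifted chemical potential -/
theorem term_le_press {φ : ℝ → ℝ} {B : ℝ} (h : Good φ B) (μ t : ℝ) {b : ℝ} (hb : 0 < b) (n : ℕ) :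
    ((n.factorial : ℝ≥0∞))⁻¹ *
      ∫⁻ x : Fin n → E3, bw φ n x * ob (act μ (cube b)) n x ∂(Measure.pi fun _ => volume)
      ≤ ENNReal.ofReal (Real.exp ((b + 1) ^ 3 * press φ (μ + t) - t * n)) := by
  have h1 := term_le_GS (volume : Measure E3)
    (fun N x => bw φ N x * ob (act (μ + t) (cube b)) N x) n
  have h2 : GS (volume : Measure E3) (fun N x => bw φ N x * ob (act (μ + t) (cube b)) N x)
      = XiS φ (μ + t) (cube b) := rfl
  rw [h2] at h1
  have h3 := h1.trans (XiS_cube_le h (μ + t) hb)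
  simp only [ob_act_add] at h3
  have h4 : ∀ x : Fin n → E3, bw φ n x * (ENNReal.ofReal (Real.exp (t * n)) * ob (act μ (cube b)) n x)
      = ENNReal.ofReal (Real.exp (t * n)) * (bw φ n x * ob (act μ (cube b)) n x) := by
    intro x; ring
  simp only [h4] at h3
  rw [lintegral_const_mul' _ _ ENNReal.ofReal_ne_top] at h3
  set A := ∫⁻ x : Fin n → E3, bw φ n x * ob (act μ (cube b)) n x ∂(Measure.pi fun _ => volume)
  have h5 : ENNReal.ofReal (Real.exp (-(t * n))) * ENNReal.ofReal (Real.exp (t * n)) = 1 := by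
    rw [← ENNReal.ofReal_mul (Real.exp_pos _).le, ← Real.exp_add]
    simp
  calc ((n.factorial : ℝ≥0∞))⁻¹ * A
      = ENNReal.ofReal (Real.exp (-(t * n))) *
        (((n.factorial : ℝ≥0∞))⁻¹ * (ENNReal.ofReal (Real.exp (t * n)) * A)) := by
        calc ((n.factorial : ℝ≥0∞))⁻¹ * A = 1 * (((n.factorial : ℝ≥0∞))⁻¹ * A) := by rw [one_mul]
          _ = _ := by rw [← h5]; ring
    _ ≤ ENNReal.ofReal (Real.exp (-(t * n))) *
        ENNReal.ofReal (Real.exp ((b + 1) ^ 3 * press φ (μ + t))) := by gcongr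
    _ = _ := by
        rw [← ENNReal.ofReal_mul (Real.exp_pos _).le, ← Real.exp_add]
        congr 2
        ring

theorem tsum_gauss_le {c : ℝ} (hc : 0 < c) :
    Summable (fun n : ℕ => Real.exp (-(c * (n : ℝ) ^ 2))) ∧
      ∑' n : ℕ, Real.exp (-(c * (n : ℝ) ^ 2)) ≤ 1 + 1 / c := by
  have hr0 : 0 ≤ Real.exp (-c) := (Real.exp_pos _).le
  have hr1 : Real.exp (-c) < 1 := by
    rw [Real.exp_lt_one_iff]; linarith
  have hgeo := summable_geometric_of_lt_one hr0 hr1
  have hle : ∀ n : ℕ, Real.exp (-(c * (n : ℝ) ^ 2)) ≤ Real.exp (-c) ^ n := by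
    intro n
    rw [← Real.exp_nat_mul]
    apply Real.exp_le_exp.mpr
    have : (n : ℝ) ≤ (n : ℝ) ^ 2 := by
      rcases Nat.eq_zero_or_pos n with rfl | hn
      · simp
      · have : (1 : ℝ) ≤ n := by exact_mod_cast hn
        nlinarith
    nlinarith
  have hs : Summable (fun n : ℕ => Real.exp (-(c * (n : ℝ) ^ 2))) :=
    Summable.of_nonneg_of_le (fun n => (Real.exp_pos _).le) hle hgeo
  refine ⟨hs, ?_⟩
  calc ∑' n : ℕ, Real.exp (-(c * (n : ℝ) ^ 2)) ≤ ∑' n : ℕ, Real.exp (-c) ^ n :=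
        hs.tsum_le_tsum hle hgeo
    _ = (1 - Real.exp (-c))⁻¹ := tsum_geometric_of_lt_one hr0 hr1
    _ ≤ 1 + 1 / c := by
        have h1 : 0 < 1 - Real.exp (-c) := by linarith
        rw [inv_le_iff_one_le_mul₀ h1]
        have h2 : 1 + c ≤ Real.exp c := by linarith [Real.add_one_le_exp c]
        have h3 : Real.exp (-c) * Real.exp c = 1 := by rw [← Real.exp_add]; simp
        have h4 : Real.exp (-c) * (1 + c) ≤ 1 := by
          calc Real.exp (-c) * (1 + c) ≤ Real.exp (-c) * Real.exp c := by gcongr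
            _ = 1 := h3
        have h5 : (1 + 1 / c) * (1 - Real.exp (-c)) = (1 + c - Real.exp (-c) * (1 + c)) / c := by
          field_simp
          ring
        rw [h5, le_div_iff₀ hc]
        linarith

/-- T10b: Chernoff bound for the one-cell partition function with mean-field term. -/
theorem Ycell_le {φ : ℝ → ℝ} {B : ℝ} (h : Good φ B) {μ κ b V θ τ : ℝ} (hκ : 0 < κ) (hb : 0 < b)
    (hV : (b + 1) ^ 3 ≤ V) (hθ0 : 0 < θ) (hθ1 : θ < 1)
    (hτ : ∀ t : ℝ, press φ (μ + t) - (1 - θ) * t ^ 2 / (2 * κ * V) ≤ τ) :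
    Ycell φ μ κ b ≤ ENNReal.ofReal (Real.exp (V * τ) * (1 + 2 / (θ * κ))) := by
  have hV0 : 0 < V := lt_of_lt_of_le (by positivity) hV
  have hc : 0 < θ * κ / 2 := by positivity
  obtain ⟨hs, hsum⟩ := tsum_gauss_le hc
  have hterm : ∀ n : ℕ, ENNReal.ofReal (Real.exp (κ * (n : ℝ) ^ 2 / 2)) *
      (((n.factorial : ℝ≥0∞))⁻¹ *
        ∫⁻ x : Fin n → E3, bw φ n x * ob (act μ (cube b)) n x ∂(Measure.pi fun _ => volume))
      ≤ ENNReal.ofReal (Real.exp (V * τ) * Real.exp (-(θ * κ / 2 * (n : ℝ) ^ 2))) := by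
    intro n
    have h1 := term_le_press h μ (κ * n) hb n
    calc _ ≤ ENNReal.ofReal (Real.exp (κ * (n : ℝ) ^ 2 / 2)) *
          ENNReal.ofReal (Real.exp ((b + 1) ^ 3 * press φ (μ + κ * n) - κ * n * n)) := by gcongr
      _ = ENNReal.ofReal (Real.exp (κ * (n : ℝ) ^ 2 / 2
            + ((b + 1) ^ 3 * press φ (μ + κ * n) - κ * n * n))) := by
          rw [← ENNReal.ofReal_mul (Real.exp_pos _).le, ← Real.exp_add]
      _ ≤ _ := by
          apply ENNReal.ofReal_le_ofReal
          rw [← Real.exp_add]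
          apply Real.exp_le_exp.mpr
          have hp := press_nonneg h (μ + κ * n)
          have h2 : (b + 1) ^ 3 * press φ (μ + κ * n) ≤ V * press φ (μ + κ * n) := by gcongr
          have h3 := hτ (κ * n)
          have h4 : V * ((1 - θ) * (κ * n) ^ 2 / (2 * κ * V)) = (1 - θ) * κ * (n : ℝ) ^ 2 / 2 := by
            field_simp
          have h5 : V * (press φ (μ + κ * n) - (1 - θ) * (κ * n) ^ 2 / (2 * κ * V)) ≤ V * τ := by
            gcongr
          rw [mul_sub, h4] at h5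
          nlinarith
  unfold Ycell
  calc _ ≤ ∑' n : ℕ, ENNReal.ofReal (Real.exp (V * τ) * Real.exp (-(θ * κ / 2 * (n : ℝ) ^ 2))) :=
        ENNReal.tsum_le_tsum hterm
    _ = ENNReal.ofReal (∑' n : ℕ, Real.exp (V * τ) * Real.exp (-(θ * κ / 2 * (n : ℝ) ^ 2))) := by
        rw [ENNReal.ofReal_tsum_of_nonneg (fun n => by positivity) (hs.mul_left _)]
    _ ≤ _ := by
        apply ENNReal.ofReal_le_ofReal
        rw [tsum_mul_left]
        have : 1 + 1 / (θ * κ / 2) = 1 + 2 / (θ * κ) := by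
          field_simp
        rw [this] at hsum
        gcongr

end Vale.Agent.P171
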