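import Vale.Agent.P171.LPupCells
import Vale.Agent.P171.LPupChernoff

open MeasureTheory Filter Topology
open scoped ENNReal

namespace Vale.Agent.P171

theorem att_smul (c : ℝ) (a R : ℕ → ℝ) (r : ℝ) :
    att (fun k => c * a k) R r = c * att a R r := by
  unfold att
  rw [← tsum_mul_left]
  exact tsum_congr fun k => mul_assoc _ _ _

theorem adm_smul {a R : ℕ → ℝ} (h : Adm a R) {c : ℝ} (hc : 0 ≤ c) : Adm (fun k => c * a k) R where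
  nonneg := fun k => mul_nonneg hc (h.nonneg k)
  summ := h.summ.mul_left c
  Rge := h.Rge

theorem tsum_smul (c : ℝ) (a : ℕ → ℝ) : ∑' k, c * a k = c * ∑' k, a k := tsum_mul_left

theorem tsum_nonneg_adm {a R : ℕ → ℝ} (h : Adm a R) : 0 ≤ ∑' k, a k := tsum_nonneg h.nonneg

/-- the potentials with one more Kac piece are uniformly good -/
theorem good_kac_unif {a R : ℕ → ℝ} (hA : Adm a R) {K : ℕ} (hK : a K = 0) {α : ℝ} (hα : 0 ≤ α) :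
    ∃ B : ℝ, ∀ ρ, 1 ≤ ρ → Good (fun r => pot a R r - α * Kf ρ r) B := by
  obtain ⟨B, _, hB⟩ := exists_good (∑' k, a k + α)
  refine ⟨B, fun ρ hρ => ?_⟩
  have h := hB _ _ (adm_update hA K hα hρ) (tsum_update hA hK α).le
  have e : pot (Function.update a K α) (Function.update R K ρ) =
      fun r => pot a R r - α * Kf ρ r := by
    funext r
    exact pot_update hA hK α ρ r
  rwa [e] at h

/-- the shell potentials are uniformly good -/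
theorem good_shell {a R : ℕ → ℝ} (hA : Adm a R) {K : ℕ} (hK : a K = 0) {α η : ℝ} (hα : 0 ≤ α)
    (hη : 0 < η) :
    ∃ B : ℝ, ∀ ρ, 1 ≤ ρ → Good (fun r => q r - (1 + 1 / η) * (att a R r + α * Kf ρ r)) B := by
  have hc : 0 ≤ 1 + 1 / η := by positivity
  obtain ⟨B, hB⟩ := good_kac_unif (adm_smul hA hc) (K := K) (by simp [hK]) (mul_nonneg hc hα)
  refine ⟨B, fun ρ hρ => ?_⟩
  have h := hB ρ hρ
  have e : (fun r => pot (fun k => (1 + 1 / η) * a k) R r - (1 + 1 / η) * α * Kf ρ r) =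
      fun r => q r - (1 + 1 / η) * (att a R r + α * Kf ρ r) := by
    funext r
    unfold pot
    rw [att_smul]
    ring
  rwa [e] at h

theorem lX_le_of_XiS_le {φ : ℝ → ℝ} {B : ℝ} (h : Good φ B) (μ : ℝ) {L : ℝ} (hL : 0 ≤ L) {Z : ℝ}
    (hZ : XiS φ μ (cube L) ≤ ENNReal.ofReal (Real.exp Z)) : lX φ μ L ≤ Z := by
  unfold lX
  have h1 := ENNReal.toReal_le_of_le_ofReal (Real.exp_pos Z).le hZ
  have h2 := Real.log_le_log (lt_of_lt_of_le one_pos (one_le_toReal_XiS h μ hL)) h1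
  rwa [Real.log_exp] at h2

theorem kap_pos {ℓ ρ : ℝ} (hℓ : 0 < ℓ) (hρ : 0 < ρ) : 0 < kap ℓ ρ := by
  unfold kap
  positivity

/-- finite volume bounds turned into a bound on the pressure -/
theorem press_kac_le_aux {a R : ℕ → ℝ} (hA : Adm a R) {K : ℕ} (hK : ∀ k, K ≤ k → a k = 0)
    {ϱ ℓ α ρ η BΓ θ τ B1 B2 : ℝ} (hϱ : ∀ k, k < K → R k ≤ ϱ) (h1 : 1 ≤ ϱ) (hℓ : 2 * ϱ < ℓ)
    (hα : 0 < α) (hρ : 1 ≤ ρ) (hη : 0 < η)
    (hΓ : Good (fun r => q r - (1 + 1 / η) * (att a R r + α * Kf ρ r)) BΓ)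
    (hG1 : Good (pot (fun k => (1 + η) * a k) R) B1)
    (hG2 : Good (fun r => pot a R r - α * Kf ρ r) B2) (μ : ℝ) (hθ0 : 0 < θ) (hθ1 : θ < 1)
    (hτ : ∀ t : ℝ, press (pot (fun k => (1 + η) * a k) R) (μ + η * att a R 0 / 2 + t) -
      (1 - θ) * t ^ 2 / (2 * ((1 + η) * α * kap ℓ ρ) * ℓ ^ 3) ≤ τ) :
    press (fun r => pot a R r - α * Kf ρ r) μ ≤
      (Real.exp (μ + (att a R 0 + α * Kf ρ 0) / (2 * η) + BΓ) * (ℓ ^ 3 - (ℓ - 2 * ϱ) ^ 3) +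
        (ℓ ^ 3 * τ + Real.log (1 + 2 / (θ * ((1 + η) * α * kap ℓ ρ))))) / ℓ ^ 3 := by
  have hℓ0 : 0 < ℓ := by linarith
  have hκ : 0 < (1 + η) * α * kap ℓ ρ :=
    mul_pos (mul_pos (by linarith) hα) (kap_pos hℓ0 (by linarith))
  have hV : (ℓ - 2 * ϱ + 1) ^ 3 ≤ ℓ ^ 3 := pow_le_pow_left₀ (by linarith) (by linarith) 3
  have hY := Ycell_le hG1 (μ := μ + η * att a R 0 / 2) hκ (b := ℓ - 2 * ϱ) (by linarith) hV
    hθ0 hθ1 hτ
  refine press_le_of_forall hG2 μ hℓ0 fun M _ => ?_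
  refine lX_le_of_XiS_le hG2 μ (by positivity) ?_
  refine (XiS_le_cells hA hK hϱ h1 hℓ hα.le hρ hη hΓ μ M).trans ?_
  refine (mul_le_mul_right (pow_le_pow_left' hY _) _).trans (le_of_eq ?_)
  have hc2 : 0 < 1 + 2 / (θ * ((1 + η) * α * kap ℓ ρ)) := by positivity
  rw [← ENNReal.ofReal_pow (by positivity), ← ENNReal.ofReal_mul (Real.exp_pos _).le]
  congr 1
  conv_lhs => rw [← Real.exp_log hc2]
  rw [← Real.exp_add, ← Real.exp_nat_mul, ← Real.exp_add]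
  congr 1
  push_cast
  ring

theorem tendsto_log_div_cube {c : ℝ} (hc : 0 < c) :
    Tendsto (fun ℓ : ℝ => Real.log (1 + c * ℓ ^ 3) / ℓ ^ 3) atTop (𝓝 0) := by
  have hx : Tendsto (fun ℓ : ℝ => 1 + c * ℓ ^ 3) atTop atTop :=
    tendsto_atTop_add_const_left _ 1 ((tendsto_pow_atTop (by norm_num)).const_mul_atTop hc)
  have h := (Real.tendsto_pow_log_div_mul_add_atTop c⁻¹ (-c⁻¹) 1 (inv_ne_zero hc.ne')).comp hx
  refine h.congr fun ℓ => ?_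
  simp only [Function.comp, pow_one]
  congr 1
  field_simp
  ring

theorem exists_ell (E' ϱ : ℝ) {c e : ℝ} (hc : 0 < c) (he : 0 < e) :
    ∃ ℓ : ℝ, 2 * ϱ < ℓ ∧ 0 < ℓ ∧ E' * (ℓ ^ 3 - (ℓ - 2 * ϱ) ^ 3) / ℓ ^ 3 ≤ e ∧
      Real.log (1 + c * ℓ ^ 3) / ℓ ^ 3 ≤ e := by
  have h1 : Tendsto (fun ℓ : ℝ => E' * (1 - (1 - 2 * ϱ * ℓ⁻¹) ^ 3)) atTop (𝓝 (E' * (1 - 1))) :=
    (tendsto_const_nhds.sub (tendsto_one_sub_mul_inv_pow (2 * ϱ))).const_mul E'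
  rw [sub_self, mul_zero] at h1
  have h2 := tendsto_log_div_cube hc
  obtain ⟨ℓ, hℓ1, hℓ2, hℓ3, hℓ4⟩ := ((h1.eventually (gt_mem_nhds he)).and
    ((h2.eventually (gt_mem_nhds he)).and
      ((eventually_gt_atTop (2 * ϱ)).and (eventually_gt_atTop (0 : ℝ))))).exists
  refine ⟨ℓ, hℓ3, hℓ4, le_trans (le_of_eq ?_) hℓ1.le, hℓ2.le⟩
  field_simp

theorem exists_radius (R : ℕ → ℝ) (K : ℕ) : ∃ ϱ : ℝ, 1 ≤ ϱ ∧ ∀ k, k < K → R k ≤ ϱ := by
  refine ⟨1 + ∑ k ∈ Finset.range K, |R k|, ?_, fun k hk => ?_⟩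
  · have : 0 ≤ ∑ k ∈ Finset.range K, |R k| := Finset.sum_nonneg fun _ _ => abs_nonneg _
    linarith
  · have h1 : |R k| ≤ ∑ k ∈ Finset.range K, |R k| :=
      Finset.single_le_sum (f := fun k => |R k|) (fun _ _ => abs_nonneg _) (Finset.mem_range.2 hk)
    have h2 := le_abs_self (R k)
    linarith

theorem param_ineq {δ η s : ℝ} (hδ0 : 0 < δ) (hδ1 : δ ≤ 1) (hη0 : 0 < η) (hη : η ≤ δ / 2)
    (hs0 : 0 ≤ s) (hs : s ≤ δ / 49) : (1 + η) * (1 + s) ^ 3 ≤ (1 + δ) * (1 - δ / 8) := by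
  have hs1 : s ≤ 1 := by linarith
  have h1 : (1 + s) ^ 3 ≤ 1 + 7 * s := by nlinarith [mul_nonneg hs0 hs0, mul_nonneg hs0 (sub_nonneg.2 hs1)]
  have h2 : (1 + η) * (1 + s) ^ 3 ≤ (1 + δ / 2) * (1 + δ / 7) := by
    refine mul_le_mul (by linarith) (by linarith) (by positivity) (by positivity)
  refine h2.trans ?_
  nlinarith [mul_nonneg hδ0.le (sub_nonneg.2 hδ1)]

theorem one_le_param {η s : ℝ} (hη0 : 0 < η) (hs0 : 0 ≤ s) : 1 ≤ (1 + η) * (1 + s) ^ 3 := by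
  have h3 : (1 : ℝ) ≤ (1 + s) ^ 3 := one_le_pow₀ (by linarith)
  nlinarith

theorem log_term_le {θ α κ v : ℝ} (hθ : 0 < θ) (hα : 0 < α) (hκ : 0 < κ) (hv : 0 < v)
    (h : α ≤ κ * v) : Real.log (1 + 2 / (θ * κ)) / v ≤ Real.log (1 + 2 / (θ * α) * v) / v := by
  refine div_le_div_of_nonneg_right ?_ hv.le
  refine Real.log_le_log (by positivity) ?_
  have h9 : 2 / (θ * κ) ≤ 2 / (θ * α) * v := by
    rw [div_mul_eq_mul_div, div_le_div_iff₀ (by positivity) (by positivity)]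
    have := mul_le_mul_of_nonneg_left h hθ.le
    nlinarith
  linarith

theorem kap_mul_cube {ℓ ρ : ℝ} (hℓ : 0 < ℓ) :
    kap ℓ ρ * ℓ ^ 3 = (1 + 2 * Real.sqrt 3 * ℓ / ρ) ^ 3 := by
  unfold kap
  field_simp

theorem split_div (x y z v : ℝ) (hv : 0 < v) : (x + (v * y + z)) / v = x / v + y + z / v := by
  field_simp
  ring

/-- the core of the argument, after the semicontinuity lemma has produced `δ` -/
theorem press_kac_le_core {a R : ℕ → ℝ} (hA : Adm a R) {K : ℕ} (hK : ∀ k, K ≤ k → a k = 0)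
    {α : ℝ} (hα : 0 < α) (μ : ℝ) {e : ℝ} (he : 0 < e) {δ Bg T : ℝ} (hδ0 : 0 < δ) (hδ1 : δ ≤ 1)
    (hGη : ∀ η : ℝ, 0 < η → η ≤ 1 → Good (pot (fun k => (1 + η) * a k) R) Bg)
    (hδ : ∀ η a' μ', 0 < η → η ≤ δ → α ≤ a' → a' ≤ α + δ * α → μ ≤ μ' → μ' ≤ μ + δ → ∀ t : ℝ,
      press (pot (fun k => (1 + η) * a k) R) (μ' + t) - t ^ 2 / (2 * a') ≤ T + e / 3) :
    ∃ ρ0 : ℝ, 1 ≤ ρ0 ∧ ∀ ρ, ρ0 ≤ ρ → press (fun r => pot a R r - α * Kf ρ r) μ ≤ T + e := by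
  have hK0 : a K = 0 := hK K le_rfl
  have hatt0 : 0 ≤ att a R 0 := att_nonneg hA 0
  obtain ⟨η, hηdef⟩ : ∃ η, η = δ / (att a R 0 + 2) := ⟨_, rfl⟩
  have hη0 : 0 < η := by rw [hηdef]; positivity
  have hη2 : η ≤ δ / 2 := by
    rw [hηdef]
    exact div_le_div_of_nonneg_left hδ0.le (by norm_num) (by linarith)
  have hηδ : η ≤ δ := by linarith
  have hηatt : η * att a R 0 / 2 ≤ δ := by
    have : η * att a R 0 ≤ δ := by
      rw [hηdef, div_mul_eq_mul_div, div_le_iff₀ (by positivity)]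
      nlinarith
    linarith
  obtain ⟨θ, hθdef⟩ : ∃ θ, θ = δ / 8 := ⟨_, rfl⟩
  have hθ0 : 0 < θ := by rw [hθdef]; positivity
  have hθ1 : θ < 1 := by rw [hθdef]; linarith
  obtain ⟨ϱ, hϱ1, hϱ⟩ := exists_radius R K
  obtain ⟨BΓ, hBΓ⟩ := good_shell hA hK0 hα.le hη0
  obtain ⟨B2, hB2⟩ := good_kac_unif hA hK0 hα.le
  obtain ⟨ℓ, hℓ1, hℓ0, hℓ2, hℓ3⟩ := exists_ell
    (Real.exp (μ + (att a R 0 + α * (vb (1 / 2))⁻¹) / (2 * η) + BΓ)) ϱ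
    (c := 2 / (θ * α)) (e := e / 3) (by positivity) (by positivity)
  refine ⟨max 1 (2 * Real.sqrt 3 * ℓ * 49 / δ), le_max_left _ _, fun ρ hρ => ?_⟩
  have hρ1 : 1 ≤ ρ := le_trans (le_max_left _ _) hρ
  have hρ0 : 0 < ρ := by linarith
  obtain ⟨s, hsdef⟩ : ∃ s, s = 2 * Real.sqrt 3 * ℓ / ρ := ⟨_, rfl⟩
  have hs0 : 0 ≤ s := by rw [hsdef]; positivity
  have hs : s ≤ δ / 49 := by
    have h2 : 2 * Real.sqrt 3 * ℓ * 49 / δ ≤ ρ := le_trans (le_max_right _ _) hρ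
    rw [div_le_iff₀ hδ0] at h2
    rw [hsdef, div_le_iff₀ hρ0]
    linarith
  have hpar := param_ineq hδ0 hδ1 hη0 hη2 hs0 hs
  have hone := one_le_param hη0 hs0
  have hκℓ : (1 + η) * α * kap ℓ ρ * ℓ ^ 3 = α * ((1 + η) * (1 + s) ^ 3) := by
    rw [mul_assoc, kap_mul_cube hℓ0, hsdef]
    ring
  have h1θ : 0 < 1 - θ := by linarith
  obtain ⟨a', ha'def⟩ : ∃ a', a' = α * ((1 + η) * (1 + s) ^ 3) / (1 - θ) := ⟨_, rfl⟩
  have ha'1 : α ≤ a' := by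
    rw [ha'def, le_div_iff₀ h1θ]
    have h5 := mul_le_mul_of_nonneg_left hone hα.le
    nlinarith
  have ha'2 : a' ≤ α + δ * α := by
    rw [ha'def, div_le_iff₀ h1θ]
    have := mul_le_mul_of_nonneg_left hpar hα.le
    rw [hθdef]
    linarith
  have hτ : ∀ t : ℝ, press (pot (fun k => (1 + η) * a k) R) (μ + η * att a R 0 / 2 + t) -
      (1 - θ) * t ^ 2 / (2 * ((1 + η) * α * kap ℓ ρ) * ℓ ^ 3) ≤ T + e / 3 := by
    intro t
    have h := hδ η a' (μ + η * att a R 0 / 2) hη0 hηδ ha'1 ha'2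
      (by have : 0 ≤ η * att a R 0 / 2 := by positivity
          linarith) (by linarith) t
    have e1 : (1 - θ) * t ^ 2 / (2 * ((1 + η) * α * kap ℓ ρ) * ℓ ^ 3) = t ^ 2 / (2 * a') := by
      rw [mul_assoc 2, hκℓ, ha'def]
      have h5 : 0 < α * ((1 + η) * (1 + s) ^ 3) := by positivity
      field_simp
    rw [e1]
    exact h
  have hmain := press_kac_le_aux hA hK hϱ hϱ1 hℓ1 hα hρ1 hη0 (hBΓ ρ hρ1)
    (hGη η hη0 (by linarith)) (hB2 ρ hρ1) μ hθ0 hθ1 hτ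
  refine hmain.trans ?_
  have hℓ3pos : 0 < ℓ ^ 3 := by positivity
  have hsh0 : 0 ≤ ℓ ^ 3 - (ℓ - 2 * ϱ) ^ 3 := by
    have : (ℓ - 2 * ϱ) ^ 3 ≤ ℓ ^ 3 := pow_le_pow_left₀ (by linarith) (by linarith) 3
    linarith
  have ht1 : Real.exp (μ + (att a R 0 + α * Kf ρ 0) / (2 * η) + BΓ) *
      (ℓ ^ 3 - (ℓ - 2 * ϱ) ^ 3) / ℓ ^ 3 ≤ e / 3 := by
    refine le_trans ?_ hℓ2
    refine div_le_div_of_nonneg_right (mul_le_mul_of_nonneg_right ?_ hsh0) hℓ3pos.le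
    refine Real.exp_le_exp.2 ?_
    have h6 : α * Kf ρ 0 ≤ α * (vb (1 / 2))⁻¹ :=
      mul_le_mul_of_nonneg_left (Kf_le_half hρ1 0) hα.le
    have h7 : (att a R 0 + α * Kf ρ 0) / (2 * η) ≤ (att a R 0 + α * (vb (1 / 2))⁻¹) / (2 * η) :=
      div_le_div_of_nonneg_right (by linarith) (by positivity)
    linarith
  have ht3 : Real.log (1 + 2 / (θ * ((1 + η) * α * kap ℓ ρ))) / ℓ ^ 3 ≤ e / 3 := by
    refine le_trans (log_term_le hθ0 hα ?_ hℓ3pos ?_) hℓ3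
    · exact mul_pos (mul_pos (by linarith) hα) (kap_pos hℓ0 hρ0)
    · rw [hκℓ]
      have h5 := mul_le_mul_of_nonneg_left hone hα.le
      linarith
  rw [split_div _ _ _ _ hℓ3pos]
  linarith

/-- T10c = F1: Lebowitz-Penrose upper bound at a point. -/
theorem press_kac_le {a R : ℕ → ℝ} (hA : Adm a R) {K : ℕ} (hK : ∀ k, K ≤ k → a k = 0)
    {α : ℝ} (hα : 0 < α) (μ : ℝ) {e : ℝ} (he : 0 < e) :
    ∃ ρ0 : ℝ, 1 ≤ ρ0 ∧ ∀ ρ, ρ0 ≤ ρ →
      press (fun r => pot a R r - α * Kf ρ r) μ ≤ Tr α (press (pot a R)) μ + e := by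
  have hK0 : a K = 0 := hK K le_rfl
  have hA0 : 0 ≤ ∑' k, a k := tsum_nonneg_adm hA
  obtain ⟨b0, hb0⟩ := exists_growth (2 * ∑' k, a k) (2 * α) (by positivity)
  obtain ⟨B1, hB1⟩ := press_scale_le (∑' k, a k)
  obtain ⟨Bg, _, hBg⟩ := exists_good (2 * ∑' k, a k)
  have hGg : Good (pot a R) Bg := hBg a R hA (by linarith)
  have hAη : ∀ η : ℝ, 0 < η → Adm (fun k => (1 + η) * a k) R := fun η hη =>
    adm_smul hA (by linarith)
  have hsumη : ∀ η : ℝ, η ≤ 1 → ∑' k, (1 + η) * a k ≤ 2 * ∑' k, a k := by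
    intro η hη
    rw [tsum_smul]
    exact mul_le_mul_of_nonneg_right (by linarith) hA0
  have hGη : ∀ η : ℝ, 0 < η → η ≤ 1 → Good (pot (fun k => (1 + η) * a k) R) Bg :=
    fun η h0 h1 => hBg _ R (hAη η h0) (hsumη η h1)
  have hNice : Nice (press (pot a R)) (2 * α) b0 :=
    ⟨press_convex hGg, press_mono hGg, press_nonneg hGg,
      fun ν => hb0 a R hA (by linarith) ⟨K, hK0⟩ ν⟩
  have hgrow : ∀ η : ℝ, 0 < η → η ≤ 1 → ∀ ν,
      press (pot (fun k => (1 + η) * a k) R) ν ≤ b0 + ν ^ 2 / (16 * α) := by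
    intro η h0 h1 ν
    have := hb0 _ R (hAη η h0) (hsumη η h1) ⟨K, by simp [hK0]⟩ ν
    rwa [show (8 : ℝ) * (2 * α) = 16 * α by ring] at this
  have hC : Monotone fun ν : ℝ => Real.exp (ν + B1) := fun x y hxy =>
    Real.exp_le_exp.2 (by linarith)
  obtain ⟨δ, hδ0, hδ1, hδ⟩ := Tr_usc (g := press (pot a R))
    (gη := fun η => press (pot (fun k => (1 + η) * a k) R)) (C := fun ν => Real.exp (ν + B1))
    (μ := μ) hα hNice hgrow hC (fun η h0 h1 ν => hB1 a R hA le_rfl η h0 h1 ν)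
    (e := e / 3) (by positivity)
  exact press_kac_le_core hA hK hα μ he hδ0 hδ1 hGη hδ

end Vale.Agent.P171
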