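import Vale.Agent.P171.LPupEnergy
import Vale.Agent.P171.LPupChernoff

open MeasureTheory Filter Topology
open scoped ENNReal

namespace Vale.Agent.P171

namespace Cells

/-- pair weight of a general (not necessarily radial) pair interaction -/
theorem pw_ofReal_exp (Φ : E3 → E3 → ℝ) (N : ℕ) (x : Fin N → E3) :
    pw (fun x y => ENNReal.ofReal (Real.exp (-(Φ x y)))) N x
      = ENNReal.ofReal (Real.exp (-(∑ i, ∑ j, if i < j then Φ (x i) (x j) else 0))) := by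
  unfold pw
  rw [← Finset.sum_neg_distrib, Real.exp_sum,
    ENNReal.ofReal_prod_of_nonneg (fun i _ => (Real.exp_pos _).le)]
  refine Finset.prod_congr rfl fun i _ => ?_
  rw [← Finset.sum_neg_distrib, Real.exp_sum,
    ENNReal.ofReal_prod_of_nonneg (fun i _ => (Real.exp_pos _).le)]
  refine Finset.prod_congr rfl fun j _ => ?_
  split_ifs <;> simp

theorem prod_ofReal_exp (h : E3 → ℝ) (N : ℕ) (x : Fin N → E3) :
    ∏ i, ENNReal.ofReal (Real.exp (h (x i))) = ENNReal.ofReal (Real.exp (∑ i, h (x i))) := by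
  rw [Real.exp_sum, ENNReal.ofReal_prod_of_nonneg (fun i _ => (Real.exp_pos _).le)]

/-- number of ordered pairs -/
theorem sum_lt_const (n : ℕ) (κ : ℝ) :
    ∑ i : Fin n, ∑ j : Fin n, (if i < j then κ else 0) = κ * ((n : ℝ) ^ 2 - n) / 2 := by
  have h := sum_sum_eq_two_lt n (fun _ _ => κ) (fun _ _ => rfl)
  simp only [Finset.sum_const, Finset.card_univ, Fintype.card_fin, nsmul_eq_mul] at h
  linarith

/-- pair factor with a constant mean-field term -/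
noncomputable def Fk (φ : ℝ → ℝ) (κ : ℝ) (x y : E3) : ℝ≥0∞ :=
  ENNReal.ofReal (Real.exp (-(φ (dist x y) - κ)))

theorem pw_Fk (φ : ℝ → ℝ) (κ : ℝ) (n : ℕ) (x : Fin n → E3) :
    pw (Fk φ κ) n x = ENNReal.ofReal (Real.exp (κ * ((n : ℝ) ^ 2 - n) / 2)) * bw φ n x := by
  unfold Fk
  rw [pw_ofReal_exp (fun x y => φ (dist x y) - κ)]
  unfold bw U
  rw [← ENNReal.ofReal_mul (Real.exp_pos _).le, ← Real.exp_add, ← sum_lt_const n κ]
  congr 2
  rw [← sub_eq_add_neg, ← neg_sub, ← Finset.sum_sub_distrib]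
  congr 1
  refine Finset.sum_congr rfl fun i _ => ?_
  rw [← Finset.sum_sub_distrib]
  refine Finset.sum_congr rfl fun j _ => ?_
  split_ifs <;> simp

/-- the one-cell partition function as a grand partition functional -/
theorem Ycell_eq_GP (φ : ℝ → ℝ) (μ κ b : ℝ) :
    Ycell φ μ κ b = GP volume (pw (Fk φ κ)) (act (μ + κ / 2) (cube b)) := by
  unfold Ycell GP GS
  refine tsum_congr fun n => ?_
  have h : ∀ x : Fin n → E3, pw (Fk φ κ) n x * ob (act (μ + κ / 2) (cube b)) n x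
      = ENNReal.ofReal (Real.exp (κ * (n : ℝ) ^ 2 / 2)) * (bw φ n x * ob (act μ (cube b)) n x) := by
    intro x
    rw [pw_Fk, ob_act_add]
    have : ENNReal.ofReal (Real.exp (κ * (n : ℝ) ^ 2 / 2))
        = ENNReal.ofReal (Real.exp (κ * ((n : ℝ) ^ 2 - n) / 2))
          * ENNReal.ofReal (Real.exp (κ / 2 * n)) := by
      rw [← ENNReal.ofReal_mul (Real.exp_pos _).le, ← Real.exp_add]
      congr 2
      ring
    rw [this]
    ring
  simp only [h]
  rw [lintegral_const_mul' _ _ ENNReal.ofReal_ne_top]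
  ring

/-- the core of the cell with index `v` -/
def coreSet (ℓ ϱ : ℝ) (v : Fin 3 → ℤ) : Set E3 := {p | inCore ℓ ϱ p ∧ cellIdx ℓ p = v}

/-- the cells meeting the cube of side `M ℓ` -/
noncomputable def cells (M : ℕ) : Finset (Fin 3 → ℤ) := Fintype.piFinset fun _ => Finset.Icc 0 (M : ℤ)

/-- the union of the shells of these cells -/
def shellSet (ℓ ϱ : ℝ) (M : ℕ) : Set E3 := {p | ¬ inCore ℓ ϱ p ∧ cellIdx ℓ p ∈ cells M}

theorem card_cells (M : ℕ) : (cells M).card = (M + 1) ^ 3 := by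
  unfold cells
  rw [Fintype.card_piFinset]
  simp

theorem measurableSet_inCore (ℓ ϱ : ℝ) : MeasurableSet {p : E3 | inCore ℓ ϱ p} := by
  have : {p : E3 | inCore ℓ ϱ p} = ⋂ i : Fin 3, {p : E3 | ϱ ≤ p i - ℓ * ⌊p i / ℓ⌋ ∧
      p i - ℓ * ⌊p i / ℓ⌋ < ℓ - ϱ} := by
    ext p; simp [inCore]
  rw [this]
  refine MeasurableSet.iInter fun i => ?_
  have hi : Measurable fun p : E3 => p i := by fun_prop
  have hf : Measurable fun p : E3 => ((⌊p i / ℓ⌋ : ℤ) : ℝ) :=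
    (measurable_from_top (f := fun n : ℤ => (n : ℝ))).comp (hi.div_const ℓ).floor
  have hg : Measurable fun p : E3 => p i - ℓ * ⌊p i / ℓ⌋ := hi.sub (hf.const_mul ℓ)
  exact (measurableSet_le measurable_const hg).inter (measurableSet_lt hg measurable_const)

theorem measurableSet_cell (ℓ : ℝ) (v : Fin 3 → ℤ) : MeasurableSet {p : E3 | cellIdx ℓ p = v} :=
  (measurable_cellIdx ℓ) (measurableSet_singleton v)

theorem measurableSet_coreSet (ℓ ϱ : ℝ) (v : Fin 3 → ℤ) : MeasurableSet (coreSet ℓ ϱ v) :=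
  (measurableSet_inCore ℓ ϱ).inter (measurableSet_cell ℓ v)

theorem measurableSet_shellSet (ℓ ϱ : ℝ) (M : ℕ) : MeasurableSet (shellSet ℓ ϱ M) :=
  (measurableSet_inCore ℓ ϱ).compl.inter
    ((measurable_cellIdx ℓ) ((cells M).finite_toSet.measurableSet))

theorem volume_coreSet {ℓ ϱ : ℝ} (hϱ : 0 ≤ ϱ) (hℓ : 2 * ϱ < ℓ) (v : Fin 3 → ℤ) :
    volume (coreSet ℓ ϱ v) = ENNReal.ofReal ((ℓ - 2 * ϱ) ^ 3) := by
  have hℓ0 : 0 < ℓ := by linarith
  have h : coreSet ℓ ϱ v = (@WithLp.ofLp 2 (Fin 3 → ℝ)) ⁻¹'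
      (Set.pi Set.univ fun i : Fin 3 => Set.Ico (ℓ * (v i : ℝ) + ϱ) (ℓ * (v i : ℝ) + ℓ - ϱ)) := by
    ext p
    simp only [coreSet, Set.mem_ofPred_eq, Set.mem_preimage, Set.mem_pi, Set.mem_univ, true_imp_iff,
      Set.mem_Ico]
    constructor
    · rintro ⟨hp, hv⟩ i
      have h1 : ⌊p i / ℓ⌋ = v i := congrFun hv i
      have h2 := hp i
      rw [h1] at h2
      constructor
      · have := h2.1
        show ℓ * (v i : ℝ) + ϱ ≤ p i
        linarith
      · have := h2.2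
        show p i < ℓ * (v i : ℝ) + ℓ - ϱ
        linarith
    · intro hp
      have hfl : ∀ i, ⌊p i / ℓ⌋ = v i := by
        intro i
        have h1 : ℓ * (v i : ℝ) + ϱ ≤ p i := (hp i).1
        have h2 : p i < ℓ * (v i : ℝ) + ℓ - ϱ := (hp i).2
        rw [Int.floor_eq_iff, le_div_iff₀ hℓ0, div_lt_iff₀ hℓ0]
        constructor <;> nlinarith
      refine ⟨fun i => ?_, funext hfl⟩
      have h1 : ℓ * (v i : ℝ) + ϱ ≤ p i := (hp i).1
      have h2 : p i < ℓ * (v i : ℝ) + ℓ - ϱ := (hp i).2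
      rw [hfl i]
      constructor <;> linarith
  rw [h, (PiLp.volume_preserving_ofLp (Fin 3)).measure_preimage
    (MeasurableSet.univ_pi fun _ => measurableSet_Ico).nullMeasurableSet, volume_pi_pi]
  have : ∀ i : Fin 3, volume (Set.Ico (ℓ * (v i : ℝ) + ϱ) (ℓ * (v i : ℝ) + ℓ - ϱ))
      = ENNReal.ofReal (ℓ - 2 * ϱ) := by
    intro i
    rw [Real.volume_Ico]
    congr 1
    ring
  simp [this, ENNReal.ofReal_pow (show 0 ≤ ℓ - 2 * ϱ by linarith)]

theorem volume_shellSet_le {ℓ ϱ : ℝ} (hϱ : 0 ≤ ϱ) (hℓ : 2 * ϱ < ℓ) (M : ℕ) :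
    volume (shellSet ℓ ϱ M)
      ≤ ENNReal.ofReal (((M : ℝ) + 1) ^ 3 * (ℓ ^ 3 - (ℓ - 2 * ϱ) ^ 3)) := by
  have hℓ0 : 0 < ℓ := by linarith
  have hsub : shellSet ℓ ϱ M ⊆ ⋃ v ∈ cells M, ({p : E3 | cellIdx ℓ p = v} \ coreSet ℓ ϱ v) := by
    intro p hp
    simp only [Set.mem_iUnion]
    exact ⟨cellIdx ℓ p, hp.2, rfl, fun h => hp.1 h.1⟩
  have hone : ∀ v, volume ({p : E3 | cellIdx ℓ p = v} \ coreSet ℓ ϱ v)
      = ENNReal.ofReal (ℓ ^ 3 - (ℓ - 2 * ϱ) ^ 3) := by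
    intro v
    have hss : coreSet ℓ ϱ v ⊆ {p : E3 | cellIdx ℓ p = v} := fun p hp => hp.2
    rw [measure_diff hss (measurableSet_coreSet ℓ ϱ v).nullMeasurableSet
      (by rw [volume_coreSet hϱ hℓ]; exact ENNReal.ofReal_ne_top), volume_cell hℓ0,
      volume_coreSet hϱ hℓ, ENNReal.ofReal_sub _ (by have : 0 ≤ ℓ - 2 * ϱ := by linarith
                                                     positivity)]
  calc volume (shellSet ℓ ϱ M)
      ≤ volume (⋃ v ∈ cells M, ({p : E3 | cellIdx ℓ p = v} \ coreSet ℓ ϱ v)) := measure_mono hsub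
    _ ≤ ∑ v ∈ cells M, volume ({p : E3 | cellIdx ℓ p = v} \ coreSet ℓ ϱ v) :=
        measure_biUnion_finset_le _ _
    _ = ((M + 1) ^ 3 : ℕ) * ENNReal.ofReal (ℓ ^ 3 - (ℓ - 2 * ϱ) ^ 3) := by
        simp only [hone, Finset.sum_const, card_cells, nsmul_eq_mul]
    _ = _ := by
        rw [ENNReal.ofReal_mul (by positivity)]
        congr 1
        rw [← ENNReal.ofReal_natCast]
        congr 1
        push_cast
        ring

/-- decoupled pair factor -/
noncomputable def Fdec (a R : ℕ → ℝ) (α ρ ℓ ϱ η : ℝ) (x y : E3) : ℝ≥0∞ :=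
  ENNReal.ofReal (Real.exp (-(Phidec a R α ρ ℓ ϱ η x y)))

theorem measurable_Phidec {a R : ℕ → ℝ} (hA : Adm a R) (α ρ ℓ ϱ η : ℝ) :
    Measurable (fun p : E3 × E3 => Phidec a R α ρ ℓ ϱ η p.1 p.2) := by
  have hd : Measurable fun p : E3 × E3 => dist p.1 p.2 := measurable_fst.dist measurable_snd
  have hq : Measurable fun p : E3 × E3 => q (dist p.1 p.2) := measurable_q.comp hd
  have ha : Measurable fun p : E3 × E3 => att a R (dist p.1 p.2) := (measurable_att hA).comp hd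
  have hk : Measurable fun p : E3 × E3 => Kf ρ (dist p.1 p.2) := (measurable_Kf ρ).comp hd
  have hc1 : MeasurableSet {p : E3 × E3 | inCore ℓ ϱ p.1} :=
    measurable_fst (measurableSet_inCore ℓ ϱ)
  have hc2 : MeasurableSet {p : E3 × E3 | inCore ℓ ϱ p.2} :=
    measurable_snd (measurableSet_inCore ℓ ϱ)
  have hcell : MeasurableSet {p : E3 × E3 | cellIdx ℓ p.1 = cellIdx ℓ p.2} :=
    measurableSet_eq_fun ((measurable_cellIdx ℓ).comp measurable_fst)
      ((measurable_cellIdx ℓ).comp measurable_snd)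
  unfold Phidec
  refine Measurable.ite (hc1.inter hc2) (Measurable.ite hcell ?_ measurable_const)
    (Measurable.ite (hc1.compl.inter hc2.compl) ?_ measurable_const)
  · exact (hq.sub (ha.const_mul _)).sub measurable_const
  · exact hq.sub ((ha.add (hk.const_mul _)).const_mul _)

theorem measurable_Fdec {a R : ℕ → ℝ} (hA : Adm a R) (α ρ ℓ ϱ η : ℝ) :
    Measurable (Function.uncurry (Fdec a R α ρ ℓ ϱ η)) := by
  unfold Fdec Function.uncurry
  exact ENNReal.measurable_ofReal.comp (Real.measurable_exp.comp (measurable_Phidec hA α ρ ℓ ϱ η).neg)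

theorem Fdec_core_shell (a R : ℕ → ℝ) (α ρ ℓ ϱ η : ℝ) {x y : E3} (hx : inCore ℓ ϱ x)
    (hy : ¬ inCore ℓ ϱ y) : Fdec a R α ρ ℓ ϱ η x y = 1 ∧ Fdec a R α ρ ℓ ϱ η y x = 1 := by
  unfold Fdec Phidec
  simp [hx, hy]

theorem Fdec_core_core_ne (a R : ℕ → ℝ) (α ρ ℓ ϱ η : ℝ) {x y : E3} (hx : inCore ℓ ϱ x)
    (hy : inCore ℓ ϱ y) (hne : cellIdx ℓ x ≠ cellIdx ℓ y) : Fdec a R α ρ ℓ ϱ η x y = 1 := by
  unfold Fdec Phidec
  simp [hx, hy, hne]

theorem att_scale {a R : ℕ → ℝ} (c r : ℝ) : att (fun k => c * a k) R r = c * att a R r := by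
  unfold att
  rw [← tsum_mul_left]
  refine tsum_congr fun k => ?_
  ring

theorem Fdec_core_core_eq (a R : ℕ → ℝ) (α ρ ℓ ϱ η : ℝ) {x y : E3} (hx : inCore ℓ ϱ x)
    (hy : inCore ℓ ϱ y) (he : cellIdx ℓ x = cellIdx ℓ y) :
    Fdec a R α ρ ℓ ϱ η x y = Fk (pot (fun k => (1 + η) * a k) R) ((1 + η) * α * kap ℓ ρ) x y := by
  unfold Fdec Phidec Fk pot
  rw [att_scale]
  simp [hx, hy, he]

theorem Fdec_shell_shell (a R : ℕ → ℝ) (α ρ ℓ ϱ η : ℝ) {x y : E3} (hx : ¬ inCore ℓ ϱ x)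
    (hy : ¬ inCore ℓ ϱ y) :
    Fdec a R α ρ ℓ ϱ η x y
      = Fr (fun r => q r - (1 + 1 / η) * (att a R r + α * Kf ρ r)) x y := by
  unfold Fdec Phidec Fr
  simp [hx, hy]

theorem pw_congr {F G : E3 → E3 → ℝ≥0∞} {N : ℕ} {x : Fin N → E3}
    (h : ∀ i j, F (x i) (x j) = G (x i) (x j)) : pw F N x = pw G N x := by
  unfold pw
  refine Finset.prod_congr rfl fun i _ => Finset.prod_congr rfl fun j _ => ?_
  rw [h i j]

/-- Step 1: the decoupling inequality at the level of the grand partition functional. -/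
theorem XiS_le_GP_dec {a R : ℕ → ℝ} (hA : Adm a R) {K : ℕ} (hK : ∀ k, K ≤ k → a k = 0)
    {ϱ ℓ α ρ η : ℝ} (hϱ : ∀ k, k < K → R k ≤ ϱ) (h1 : 1 ≤ ϱ) (hℓ : 2 * ϱ < ℓ) (hα : 0 ≤ α)
    (hρ : 1 ≤ ρ) (hη : 0 < η) (μ : ℝ) (S : Set E3) :
    XiS (fun r => pot a R r - α * Kf ρ r) μ S ≤
      GP volume (pw (Fdec a R α ρ ℓ ϱ η))
        (fun p => act μ S p * ENNReal.ofReal (Real.exp (hdec a R α ρ ℓ ϱ η p))) := by
  unfold XiS GP
  refine GS_mono volume fun N => Filter.Eventually.of_forall fun x => ?_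
  have h2 : ob (fun p => act μ S p * ENNReal.ofReal (Real.exp (hdec a R α ρ ℓ ϱ η p))) N x
      = ob (act μ S) N x * ENNReal.ofReal (Real.exp (∑ i, hdec a R α ρ ℓ ϱ η (x i))) := by
    unfold ob
    rw [Finset.prod_mul_distrib, prod_ofReal_exp]
  have h3 : bw (fun r => pot a R r - α * Kf ρ r) N x
      ≤ pw (Fdec a R α ρ ℓ ϱ η) N x
        * ENNReal.ofReal (Real.exp (∑ i, hdec a R α ρ ℓ ϱ η (x i))) := by
    unfold Fdec
    rw [pw_ofReal_exp (Phidec a R α ρ ℓ ϱ η), ← ENNReal.ofReal_mul (Real.exp_pos _).le,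
      ← Real.exp_add]
    unfold bw
    apply ENNReal.ofReal_le_ofReal
    apply Real.exp_le_exp.mpr
    have := energy_dec hA hK hϱ h1 hℓ hα hρ hη N x
    linarith
  rw [h2]
  calc bw (fun r => pot a R r - α * Kf ρ r) N x * ob (act μ S) N x
      ≤ (pw (Fdec a R α ρ ℓ ϱ η) N x
        * ENNReal.ofReal (Real.exp (∑ i, hdec a R α ρ ℓ ϱ η (x i)))) * ob (act μ S) N x := by
        gcongr
    _ = _ := by ring

theorem cellIdx_mem_cells {ℓ : ℝ} (hℓ : 0 < ℓ) {M : ℕ} {p : E3} (hp : p ∈ cube (M * ℓ)) :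
    cellIdx ℓ p ∈ cells M := by
  unfold cells
  rw [Fintype.mem_piFinset]
  intro i
  rw [Finset.mem_Icc]
  have h := hp i
  constructor
  · exact Int.floor_nonneg.mpr (div_nonneg h.1 hℓ.le)
  · have h1 : p i / ℓ ≤ M := by
      rw [div_le_iff₀ hℓ]; exact h.2
    have h2 : ((⌊p i / ℓ⌋ : ℤ) : ℝ) ≤ ((M : ℤ) : ℝ) := by
      push_cast
      exact (Int.floor_le _).trans h1
    exact_mod_cast h2

/-- Step 2: splitting of the one-body weight. -/
theorem weight_le_split (a R : ℕ → ℝ) (α ρ ϱ η μ : ℝ) {ℓ : ℝ} (hℓ : 0 < ℓ) (M : ℕ) (p : E3) :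
    act μ (cube (M * ℓ)) p * ENNReal.ofReal (Real.exp (hdec a R α ρ ℓ ϱ η p))
      ≤ act (μ + (att a R 0 + α * Kf ρ 0) / (2 * η)) (shellSet ℓ ϱ M) p
        + ∑ v ∈ cells M,
          act (μ + (η * att a R 0 + (1 + η) * α * kap ℓ ρ) / 2) (coreSet ℓ ϱ v) p := by
  by_cases hp : p ∈ cube (M * ℓ)
  · have hcell := cellIdx_mem_cells hℓ hp
    by_cases hc : inCore ℓ ϱ p
    · have h1 : act μ (cube (M * ℓ)) p * ENNReal.ofReal (Real.exp (hdec a R α ρ ℓ ϱ η p))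
          = act (μ + (η * att a R 0 + (1 + η) * α * kap ℓ ρ) / 2) (coreSet ℓ ϱ (cellIdx ℓ p)) p := by
        have hmem : p ∈ coreSet ℓ ϱ (cellIdx ℓ p) := ⟨hc, rfl⟩
        unfold act hdec
        rw [Set.indicator_of_mem hp, Set.indicator_of_mem hmem, if_pos hc,
          ← ENNReal.ofReal_mul (Real.exp_pos _).le, ← Real.exp_add]
      rw [h1]
      refine le_trans ?_ le_add_self
      exact Finset.single_le_sum
        (f := fun v => act (μ + (η * att a R 0 + (1 + η) * α * kap ℓ ρ) / 2) (coreSet ℓ ϱ v) p)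
        (fun _ _ => zero_le) hcell
    · have h1 : act μ (cube (M * ℓ)) p * ENNReal.ofReal (Real.exp (hdec a R α ρ ℓ ϱ η p))
          = act (μ + (att a R 0 + α * Kf ρ 0) / (2 * η)) (shellSet ℓ ϱ M) p := by
        have hmem : p ∈ shellSet ℓ ϱ M := ⟨hc, hcell⟩
        unfold act hdec
        rw [Set.indicator_of_mem hp, Set.indicator_of_mem hmem, if_neg hc,
          ← ENNReal.ofReal_mul (Real.exp_pos _).le, ← Real.exp_add]
      rw [h1]
      exact le_self_add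
  · unfold act
    rw [Set.indicator_of_notMem hp, zero_mul]
    exact zero_le

/-- Step 4: the shell factor. -/
theorem GP_shell_le (a R : ℕ → ℝ) {ϱ ℓ α ρ η BΓ : ℝ} (hϱ : 0 ≤ ϱ) (hℓ : 2 * ϱ < ℓ)
    (hΓ : Good (fun r => q r - (1 + 1 / η) * (att a R r + α * Kf ρ r)) BΓ) (μ' : ℝ) (M : ℕ) :
    GP volume (pw (Fdec a R α ρ ℓ ϱ η)) (act μ' (shellSet ℓ ϱ M)) ≤
      ENNReal.ofReal (Real.exp (Real.exp (μ' + BΓ) *
        (((M : ℝ) + 1) ^ 3 * (ℓ ^ 3 - (ℓ - 2 * ϱ) ^ 3)))) := by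
  have hV0 : 0 ≤ ((M : ℝ) + 1) ^ 3 * (ℓ ^ 3 - (ℓ - 2 * ϱ) ^ 3) := by
    have h1 : (ℓ - 2 * ϱ) ^ 3 ≤ ℓ ^ 3 := by
      apply pow_le_pow_left₀ (by linarith) (by linarith)
    have h2 : 0 ≤ ℓ ^ 3 - (ℓ - 2 * ϱ) ^ 3 := by linarith
    positivity
  refine le_trans ?_ (XiS_le_exp hΓ μ' (measurableSet_shellSet ℓ ϱ M) hV0
    (volume_shellSet_le hϱ hℓ M))
  unfold XiS
  refine GP_mono volume (fun N => Filter.Eventually.of_forall fun x hx => ?_) fun x => le_rfl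
  rw [bw_eq_pw]
  refine le_of_eq (pw_congr fun i j => ?_)
  have hi := ((act_ne_zero_iff μ' _ _).mp (hx i)).1
  have hj := ((act_ne_zero_iff μ' _ _).mp (hx j)).1
  exact Fdec_shell_shell a R α ρ ℓ ϱ η hi hj

/-- Step 5: the core factors. -/
theorem GP_core_le (a R : ℕ → ℝ) (α ρ ℓ ϱ η μ' : ℝ) (v : Fin 3 → ℤ) :
    GP volume (pw (Fdec a R α ρ ℓ ϱ η))
        (act (μ' + (1 + η) * α * kap ℓ ρ / 2) (coreSet ℓ ϱ v)) ≤
      Ycell (pot (fun k => (1 + η) * a k) R) μ' ((1 + η) * α * kap ℓ ρ) (ℓ - 2 * ϱ) := by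
  rw [Ycell_eq_GP]
  set κ := (1 + η) * α * kap ℓ ρ with hκ
  set φη := pot (fun k => (1 + η) * a k) R with hφη
  set w : E3 := WithLp.toLp 2 (fun i => ℓ * (v i : ℝ) + ϱ) with hw
  have hmap := GP_pw_map volume (F := Fk φη κ) (act (μ' + κ / 2) (cube (ℓ - 2 * ϱ)))
    (MeasurableEquiv.addRight (-w)) (measurePreserving_add_right volume (-w)) (by
      intro x y
      simp [Fk])
  rw [← hmap]
  refine GP_mono volume (fun N => Filter.Eventually.of_forall fun x hx => ?_) fun x => ?_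
  · refine le_of_eq (pw_congr fun i j => ?_)
    have hi := (act_ne_zero_iff _ _ _).mp (hx i)
    have hj := (act_ne_zero_iff _ _ _).mp (hx j)
    exact Fdec_core_core_eq a R α ρ ℓ ϱ η hi.1 hj.1 (hi.2.trans hj.2.symm)
  · unfold act
    by_cases hx : x ∈ coreSet ℓ ϱ v
    · have hmem : (MeasurableEquiv.addRight (-w)) x ∈ cube (ℓ - 2 * ϱ) := by
        intro i
        have h1 := hx.1 i
        have h2 : ⌊x i / ℓ⌋ = v i := congrFun hx.2 i
        rw [h2] at h1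
        have h3 : ((MeasurableEquiv.addRight (-w)) x) i = x i - (ℓ * (v i : ℝ) + ϱ) := by
          simp [hw, sub_eq_add_neg]
        rw [h3]
        constructor <;> linarith [h1.1, h1.2]
      rw [Set.indicator_of_mem hx, Set.indicator_of_mem hmem]
    · rw [Set.indicator_of_notMem hx]
      exact zero_le

end Cells

open Cells in
/-- T10a: decoupling of the big cube into cores and shells. `BΓ` is a stability constant of the
shell potential. -/
theorem XiS_le_cells {a R : ℕ → ℝ} (hA : Adm a R) {K : ℕ} (hK : ∀ k, K ≤ k → a k = 0)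
    {ϱ ℓ α ρ η BΓ : ℝ} (hϱ : ∀ k, k < K → R k ≤ ϱ) (h1 : 1 ≤ ϱ) (hℓ : 2 * ϱ < ℓ) (hα : 0 ≤ α)
    (hρ : 1 ≤ ρ) (hη : 0 < η)
    (hΓ : Good (fun r => q r - (1 + 1 / η) * (att a R r + α * Kf ρ r)) BΓ) (μ : ℝ) (M : ℕ) :
    XiS (fun r => pot a R r - α * Kf ρ r) μ (cube (M * ℓ)) ≤
      ENNReal.ofReal (Real.exp (Real.exp (μ + (att a R 0 + α * Kf ρ 0) / (2 * η) + BΓ) *
        (((M : ℝ) + 1) ^ 3 * (ℓ ^ 3 - (ℓ - 2 * ϱ) ^ 3)))) *
      (Ycell (pot (fun k => (1 + η) * a k) R) (μ + η * att a R 0 / 2) ((1 + η) * α * kap ℓ ρ)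
        (ℓ - 2 * ϱ)) ^ ((M + 1) ^ 3) := by
  have hℓ0 : 0 < ℓ := by linarith
  have hϱ0 : 0 ≤ ϱ := by linarith
  set F := Fdec a R α ρ ℓ ϱ η with hF
  have hFm : Measurable (Function.uncurry F) := measurable_Fdec hA α ρ ℓ ϱ η
  set gsh := act (μ + (att a R 0 + α * Kf ρ 0) / (2 * η)) (shellSet ℓ ϱ M) with hgsh
  set gco : (Fin 3 → ℤ) → E3 → ℝ≥0∞ := fun v =>
    act (μ + (η * att a R 0 + (1 + η) * α * kap ℓ ρ) / 2) (coreSet ℓ ϱ v) with hgco
  have hgshm : Measurable gsh := measurable_act _ (measurableSet_shellSet ℓ ϱ M)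
  have hgcom : ∀ v, Measurable (gco v) := fun v => measurable_act _ (measurableSet_coreSet ℓ ϱ v)
  -- step 1 and 2
  have s1 := XiS_le_GP_dec hA hK hϱ h1 hℓ hα hρ hη μ (cube (M * ℓ))
  have s2 : GP volume (pw F)
      (fun p => act μ (cube (M * ℓ)) p * ENNReal.ofReal (Real.exp (hdec a R α ρ ℓ ϱ η p)))
      ≤ GP volume (pw F) (fun p => gsh p + ∑ v ∈ cells M, gco v p) :=
    GP_mono volume (fun N => Filter.Eventually.of_forall fun x _ => le_rfl)
      (weight_le_split a R α ρ ϱ η μ hℓ0 M)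
  -- step 3
  have s3 : GP volume (pw F) (fun p => gsh p + ∑ v ∈ cells M, gco v p)
      = GP volume (pw F) gsh * ∏ v ∈ cells M, GP volume (pw F) (gco v) := by
    rw [GP_pw_add volume hFm hgshm (Finset.measurable_fun_sum _ fun v _ => hgcom v),
      GP_pw_sum volume hFm (cells M) gco (fun v _ => hgcom v)]
    · intro v _ v' _ hvv' x y hx hy
      have hx' := (act_ne_zero_iff _ _ _).mp hx
      have hy' := (act_ne_zero_iff _ _ _).mp hy
      exact Fdec_core_core_ne a R α ρ ℓ ϱ η hx'.1 hy'.1 (by rw [hx'.2, hy'.2]; exact hvv')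
    · intro x y hx hy
      have hx' := (act_ne_zero_iff _ _ _).mp hx
      obtain ⟨v, _, hv⟩ : ∃ v ∈ cells M, gco v y ≠ 0 := by
        by_contra hcon
        push Not at hcon
        exact hy (Finset.sum_eq_zero hcon)
      have hy' := (act_ne_zero_iff _ _ _).mp hv
      exact (Fdec_core_shell a R α ρ ℓ ϱ η hy'.1 hx'.1).symm
  -- step 4
  have s4 := GP_shell_le a R (α := α) (ρ := ρ) (η := η) hϱ0 hℓ hΓ
    (μ + (att a R 0 + α * Kf ρ 0) / (2 * η)) M
  -- step 5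
  have s5 : ∀ v ∈ cells M, GP volume (pw F) (gco v) ≤
      Ycell (pot (fun k => (1 + η) * a k) R) (μ + η * att a R 0 / 2) ((1 + η) * α * kap ℓ ρ)
        (ℓ - 2 * ϱ) := by
    intro v _
    have h := GP_core_le a R α ρ ℓ ϱ η (μ + η * att a R 0 / 2) v
    have e : μ + η * att a R 0 / 2 + (1 + η) * α * kap ℓ ρ / 2
        = μ + (η * att a R 0 + (1 + η) * α * kap ℓ ρ) / 2 := by ring
    rw [e] at h
    exact h
  calc XiS (fun r => pot a R r - α * Kf ρ r) μ (cube (M * ℓ))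
      ≤ GP volume (pw F) gsh * ∏ v ∈ cells M, GP volume (pw F) (gco v) :=
        (s1.trans s2).trans_eq s3
    _ ≤ _ := by
        refine mul_le_mul' s4 ?_
        calc ∏ v ∈ cells M, GP volume (pw F) (gco v)
            ≤ ∏ _v ∈ cells M, Ycell (pot (fun k => (1 + η) * a k) R) (μ + η * att a R 0 / 2)
                ((1 + η) * α * kap ℓ ρ) (ℓ - 2 * ϱ) := Finset.prod_le_prod' s5
          _ = _ := by rw [Finset.prod_const, card_cells]

end Vale.Agent.P171
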