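import Vale.Agent.P171.LPlow
import Vale.Agent.P171.ConvexLim

open MeasureTheory Filter Topology
open scoped ENNReal

namespace Vale.Agent.P171

/-- `p` lies in the core of its cell of side `ℓ` (at distance at least `ϱ` from the cell walls) -/
def inCore (ℓ ϱ : ℝ) (p : E3) : Prop :=
  ∀ i, ϱ ≤ p i - ℓ * ⌊p i / ℓ⌋ ∧ p i - ℓ * ⌊p i / ℓ⌋ < ℓ - ϱ

open Classical in
/-- the decoupled pair interaction -/
noncomputable def Phidec (a R : ℕ → ℝ) (α ρ ℓ ϱ η : ℝ) (x y : E3) : ℝ :=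
  if inCore ℓ ϱ x ∧ inCore ℓ ϱ y then
    (if cellIdx ℓ x = cellIdx ℓ y then
      q (dist x y) - (1 + η) * att a R (dist x y) - (1 + η) * α * kap ℓ ρ else 0)
  else if ¬ inCore ℓ ϱ x ∧ ¬ inCore ℓ ϱ y then
    q (dist x y) - (1 + 1 / η) * (att a R (dist x y) + α * Kf ρ (dist x y))
  else 0

open Classical in
/-- the shift of the chemical potential produced by the decoupling -/
noncomputable def hdec (a R : ℕ → ℝ) (α ρ ℓ ϱ η : ℝ) (x : E3) : ℝ :=
  if inCore ℓ ϱ x then (η * att a R 0 + (1 + η) * α * kap ℓ ρ) / 2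
  else (att a R 0 + α * Kf ρ 0) / (2 * η)

/-- one-cell partition function with a mean-field term -/
noncomputable def Ycell (φ : ℝ → ℝ) (μ κ b : ℝ) : ℝ≥0∞ :=
  ∑' n : ℕ, ENNReal.ofReal (Real.exp (κ * (n : ℝ) ^ 2 / 2)) *
    (((n.factorial : ℝ≥0∞))⁻¹ *
      ∫⁻ x : Fin n → E3, bw φ n x * ob (act μ (cube b)) n x ∂(Measure.pi fun _ => volume))

end Vale.Agent.P171
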