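import Vale.Agent.P171.LPupDefs

open MeasureTheory Filter Topology
open scoped ENNReal

namespace Vale.Agent.P171

theorem abs_coord_sub_le_dist (x y : E3) (i : Fin 3) : |x i - y i| ≤ dist x y := by
  have h := PiLp.norm_apply_le (x - y) i
  rw [dist_eq_norm]
  simpa using h

/-- two core points of different cells are at distance at least `2ϱ` -/
theorem dist_ge_of_inCore {ℓ ϱ : ℝ} (hℓ : 0 < ℓ) (hϱ : 0 ≤ ϱ) {x y : E3} (hx : inCore ℓ ϱ x)
    (hy : inCore ℓ ϱ y) (hne : cellIdx ℓ x ≠ cellIdx ℓ y) : 2 * ϱ ≤ dist x y := by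
  obtain ⟨i, hi⟩ := Function.ne_iff.mp hne
  unfold cellIdx at hi
  have hd := abs_coord_sub_le_dist x y i
  have hxi := hx i
  have hyi := hy i
  rcases lt_or_gt_of_ne hi with h | h
  · have h1 : (⌊x i / ℓ⌋ : ℝ) + 1 ≤ ⌊y i / ℓ⌋ := by exact_mod_cast h
    have h2 : ℓ * ((⌊x i / ℓ⌋ : ℝ) + 1) ≤ ℓ * ⌊y i / ℓ⌋ := by gcongr
    have h3 := neg_abs_le (x i - y i)
    nlinarith
  · have h1 : (⌊y i / ℓ⌋ : ℝ) + 1 ≤ ⌊x i / ℓ⌋ := by exact_mod_cast h
    have h2 : ℓ * ((⌊y i / ℓ⌋ : ℝ) + 1) ≤ ℓ * ⌊x i / ℓ⌋ := by gcongr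
    have h3 := le_abs_self (x i - y i)
    nlinarith

/-- double sum versus sum over ordered pairs, for a symmetric array -/
theorem sum_sum_eq_two_lt (N : ℕ) (G : Fin N → Fin N → ℝ) (hs : ∀ i j, G i j = G j i) :
    ∑ i, ∑ j, G i j = 2 * (∑ i, ∑ j, if i < j then G i j else 0) + ∑ i, G i i := by
  have h1 : ∀ i j : Fin N, G i j
      = (if i < j then G i j else 0) + (if j < i then G j i else 0)
        + (if i = j then G i i else 0) := by
    intro i j
    rcases lt_trichotomy i j with hij | hij | hij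
    · simp [hij, hij.ne, hij.not_gt]
    · subst hij
      simp
    · simp [hij, hij.ne', hij.not_gt, hs i j]
  have h2 : ∑ i : Fin N, ∑ j : Fin N, (if j < i then G j i else 0)
      = ∑ i : Fin N, ∑ j : Fin N, (if i < j then G i j else 0) := by
    rw [Finset.sum_comm]
  have h3 : ∑ i : Fin N, ∑ j : Fin N, (if i = j then G i i else 0) = ∑ i, G i i := by
    simp
  calc ∑ i, ∑ j, G i j
      = ∑ i : Fin N, ∑ j : Fin N, ((if i < j then G i j else 0)
        + (if j < i then G j i else 0) + (if i = j then G i i else 0)) := by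
        apply Finset.sum_congr rfl
        intro i _
        apply Finset.sum_congr rfl
        intro j _
        exact h1 i j
    _ = (∑ i : Fin N, ∑ j : Fin N, (if i < j then G i j else 0))
        + (∑ i : Fin N, ∑ j : Fin N, (if i < j then G i j else 0)) + ∑ i, G i i := by
        simp only [Finset.sum_add_distrib]
        rw [h2, h3]
    _ = _ := by ring

/-- the attraction vanishes beyond the largest range -/
theorem att_eq_zero {a R : ℕ → ℝ} (hA : Adm a R) {K : ℕ} (hK : ∀ k, K ≤ k → a k = 0)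
    {ϱ r : ℝ} (hϱ : ∀ k, k < K → R k ≤ ϱ) (hr : ϱ ≤ r) : att a R r = 0 := by
  unfold att
  have : ∀ k, a k * Kf (R k) r = 0 := by
    intro k
    rcases lt_or_ge k K with hk | hk
    · rw [Kf_eq_zero (lt_of_lt_of_le one_pos (hA.Rge k)) ((hϱ k hk).trans hr), mul_zero]
    · rw [hK k hk, zero_mul]
  simp [this]

/-- splitting of the attraction energy -/
theorem att_split {a R : ℕ → ℝ} (hA : Adm a R) {η : ℝ} (hη : 0 < η) {N : ℕ} (c c' : Fin N → ℝ)
    (x : Fin N → E3) :
    ∑ i, ∑ j, (c i + c' i) * (c j + c' j) * att a R (dist (x i) (x j))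
      ≤ (1 + η) * ∑ i, ∑ j, c i * c j * att a R (dist (x i) (x j))
        + (1 + 1 / η) * ∑ i, ∑ j, c' i * c' j * att a R (dist (x i) (x j)) := by
  rw [sum_sum_att hA (fun i => c i + c' i) x, sum_sum_att hA c x, sum_sum_att hA c' x,
    ← tsum_mul_left, ← tsum_mul_left,
    ← ((summable_a_Qf hA c x).mul_left _).tsum_add ((summable_a_Qf hA c' x).mul_left _)]
  refine (summable_a_Qf hA _ x).tsum_le_tsum ?_
    (((summable_a_Qf hA c x).mul_left _).add ((summable_a_Qf hA c' x).mul_left _))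
  intro k
  have h := Qf_add_le (lt_of_lt_of_le one_pos (hA.Rge k)) hη c c' x
  have h2 := mul_le_mul_of_nonneg_left h (hA.nonneg k)
  calc a k * Qf (R k) (fun i => c i + c' i) x
      ≤ a k * ((1 + η) * Qf (R k) c x + (1 + 1 / η) * Qf (R k) c' x) := h2
    _ = _ := by ring

/-- T9: the decoupling inequality for the energy. -/
theorem energy_dec {a R : ℕ → ℝ} (hA : Adm a R) {K : ℕ} (hK : ∀ k, K ≤ k → a k = 0)
    {ϱ ℓ α ρ η : ℝ} (hϱ : ∀ k, k < K → R k ≤ ϱ) (h1 : 1 ≤ ϱ) (hℓ : 2 * ϱ < ℓ) (hα : 0 ≤ α)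
    (hρ : 1 ≤ ρ) (hη : 0 < η) (N : ℕ) (x : Fin N → E3) :
    (∑ i : Fin N, ∑ j : Fin N, if i < j then Phidec a R α ρ ℓ ϱ η (x i) (x j) else 0)
      - ∑ i, hdec a R α ρ ℓ ϱ η (x i)
      ≤ U (fun r => pot a R r - α * Kf ρ r) N x := by
  classical
  have hℓ0 : 0 < ℓ := by linarith
  have hρ0 : 0 < ρ := by linarith
  have hϱ0 : 0 ≤ ϱ := by linarith
  set c : Fin N → ℝ := fun i => if inCore ℓ ϱ (x i) then 1 else 0 with hc
  set c' : Fin N → ℝ := fun i => if inCore ℓ ϱ (x i) then 0 else 1 with hc'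
  set s : Fin N → Fin N → ℝ := fun i j => if cellIdx ℓ (x i) = cellIdx ℓ (x j) then 1 else 0 with hs
  set d : Fin N → Fin N → ℝ := fun i j => dist (x i) (x j) with hd
  set κ : ℝ := kap ℓ ρ with hκ
  have hκ0 : 0 ≤ κ := by
    rw [hκ]; unfold kap; positivity
  have hc0 : ∀ i, 0 ≤ c i := by
    intro i; simp only [hc]; split_ifs <;> norm_num
  have hcc' : ∀ i, c i + c' i = 1 := by
    intro i; simp only [hc, hc']; split_ifs <;> norm_num
  -- formula for the decoupled interaction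
  have hP : ∀ i j, Phidec a R α ρ ℓ ϱ η (x i) (x j)
      = c i * c j * s i j * (q (d i j) - (1 + η) * att a R (d i j) - (1 + η) * α * κ)
        + c' i * c' j * (q (d i j) - (1 + 1 / η) * (att a R (d i j) + α * Kf ρ (d i j))) := by
    intro i j
    simp only [Phidec, hc, hc', hs, hd, hκ]
    by_cases hi : inCore ℓ ϱ (x i) <;> by_cases hj : inCore ℓ ϱ (x j) <;>
      by_cases hij : cellIdx ℓ (x i) = cellIdx ℓ (x j) <;> simp [hi, hj, hij]
  have hh : ∀ i, hdec a R α ρ ℓ ϱ η (x i)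
      = c i * ((η * att a R 0 + (1 + η) * α * κ) / 2)
        + c' i * ((att a R 0 + α * Kf ρ 0) / (2 * η)) := by
    intro i
    simp only [hdec, hc, hc', hκ]
    by_cases hi : inCore ℓ ϱ (x i) <;> simp [hi]
  have hsymm : ∀ i j, Phidec a R α ρ ℓ ϱ η (x i) (x j) = Phidec a R α ρ ℓ ϱ η (x j) (x i) := by
    intro i j
    rw [hP, hP]
    have e1 : d i j = d j i := dist_comm _ _
    have e2 : s i j = s j i := by
      simp only [hs, eq_comm]
    rw [e1, e2]
    ring
  -- core points in different cells do not feel the attraction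
  have hatt : ∀ i j, c i * c j * s i j * att a R (d i j) = c i * c j * att a R (d i j) := by
    intro i j
    simp only [hc, hs, hd]
    by_cases hi : inCore ℓ ϱ (x i) <;> by_cases hj : inCore ℓ ϱ (x j) <;>
      by_cases hij : cellIdx ℓ (x i) = cellIdx ℓ (x j) <;> simp [hi, hj, hij]
    have h2 := dist_ge_of_inCore hℓ0 hϱ0 hi hj hij
    have h3 : ϱ ≤ dist (x i) (x j) := by linarith
    have h4 := att_eq_zero hA hK hϱ h3
    first
      | exact h4
      | exact h4.symm
      | (rw [h4])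
  -- the three nonnegative pieces
  set T1 : Fin N → Fin N → ℝ := fun i j => q (d i j) * (1 - c i * c j * s i j - c' i * c' j) with hT1
  set T2 : Fin N → Fin N → ℝ := fun i j => (1 + η) * (c i * c j * att a R (d i j))
      + (1 + 1 / η) * (c' i * c' j * att a R (d i j))
      - (c i + c' i) * (c j + c' j) * att a R (d i j) with hT2
  set T3 : Fin N → Fin N → ℝ := fun i j => (1 + η) * (κ * (if cellIdx ℓ (x i) = cellIdx ℓ (x j)
        then c i * c j else 0))
      + (1 + 1 / η) * (c' i * c' j * Kf ρ (d i j))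
      - (c i + c' i) * (c j + c' j) * Kf ρ (d i j) with hT3
  have hT1nn : ∀ i j, 0 ≤ T1 i j := by
    intro i j
    simp only [hT1]
    apply mul_nonneg (q_nonneg _)
    simp only [hc, hc', hs]
    by_cases hi : inCore ℓ ϱ (x i) <;> by_cases hj : inCore ℓ ϱ (x j) <;>
      by_cases hij : cellIdx ℓ (x i) = cellIdx ℓ (x j) <;> simp [hi, hj, hij]
  have hT2nn : 0 ≤ ∑ i, ∑ j, T2 i j := by
    have := att_split hA hη c c' x
    simp only [hT2, Finset.sum_sub_distrib, Finset.sum_add_distrib, ← Finset.mul_sum]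
    linarith
  have hT3nn : 0 ≤ ∑ i, ∑ j, T3 i j := by
    have k1 := Qf_add_le hρ0 hη c c' x
    have k2 := Qf_le_cell hρ0 hℓ0 c hc0 x
    have k3 : (1 + η) * Qf ρ c x ≤ (1 + η) * (κ *
        ∑ i, ∑ j, if cellIdx ℓ (x i) = cellIdx ℓ (x j) then c i * c j else 0) := by
      apply mul_le_mul_of_nonneg_left k2 (by linarith)
    simp only [hT3, Finset.sum_sub_distrib, Finset.sum_add_distrib, ← Finset.mul_sum]
    unfold Qf at k1 k3
    linarith
  have hdiff : ∀ i j, (pot a R (d i j) - α * Kf ρ (d i j)) - Phidec a R α ρ ℓ ϱ η (x i) (x j)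
      = T1 i j + T2 i j + α * T3 i j := by
    intro i j
    rw [hP]
    have e1 := hatt i j
    have e2 : (if cellIdx ℓ (x i) = cellIdx ℓ (x j) then c i * c j else 0) = c i * c j * s i j := by
      simp only [hs]
      split_ifs <;> simp
    simp only [hT1, hT2, hT3, e2, hcc', pot]
    linear_combination (1 + η) * e1
  have key1 : ∑ i, ∑ j, Phidec a R α ρ ℓ ϱ η (x i) (x j)
      ≤ ∑ i, ∑ j, (pot a R (d i j) - α * Kf ρ (d i j)) := by
    rw [← sub_nonneg, ← Finset.sum_sub_distrib]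
    simp only [← Finset.sum_sub_distrib, hdiff, Finset.sum_add_distrib, ← Finset.mul_sum]
    have : 0 ≤ ∑ i, ∑ j, T1 i j := Finset.sum_nonneg fun i _ => Finset.sum_nonneg fun j _ => hT1nn i j
    have h3 := mul_nonneg hα hT3nn
    linarith
  have key2 : ∀ i, - Phidec a R α ρ ℓ ϱ η (x i) (x i) - 2 * hdec a R α ρ ℓ ϱ η (x i)
      ≤ att a R 0 + α * Kf ρ 0 := by
    intro i
    rw [hP, hh]
    have hK0 : 0 ≤ α * Kf ρ 0 := mul_nonneg hα (Kf_nonneg _ _)
    simp only [hc, hc', hs, hd, dist_self, q_zero]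
    by_cases hi : inCore ℓ ϱ (x i)
    · simp only [hi, if_true]
      nlinarith
    · simp only [hi, if_false]
      have : (att a R 0 + α * Kf ρ 0) / (2 * η) * 2 = 1 / η * (att a R 0 + α * Kf ρ 0) := by
        field_simp
      nlinarith
  have e1 := sum_sum_eq_two_lt N (fun i j => Phidec a R α ρ ℓ ϱ η (x i) (x j)) hsymm
  have e2 := sum_sum_eq_two_U (fun r => pot a R r - α * Kf ρ r) N x
  have e3 : ∑ i : Fin N, (- Phidec a R α ρ ℓ ϱ η (x i) (x i) - 2 * hdec a R α ρ ℓ ϱ η (x i))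
      ≤ N * (att a R 0 + α * Kf ρ 0) := by
    calc _ ≤ ∑ _i : Fin N, (att a R 0 + α * Kf ρ 0) := Finset.sum_le_sum fun i _ => key2 i
      _ = _ := by simp; ring
  rw [Finset.sum_sub_distrib, Finset.sum_neg_distrib, ← Finset.mul_sum] at e3
  have e4 : pot a R 0 = - att a R 0 := by
    unfold pot; rw [q_zero]; ring
  simp only [e4] at e2
  simp only [hd] at key1
  nlinarith

end Vale.Agent.P171
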