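import Vale.Agent.P171.Step
import Vale.Agent.P171.Bridge

open MeasureTheory Filter Topology

namespace Vale.Agent.P171

/-- dependent choice -/
theorem exists_seq {X : Type*} (J : ℕ → X → Prop) (C : ℕ → X → X → Prop) (h0 : ∃ x, J 0 x)
    (hs : ∀ K x, J K x → ∃ y, J (K + 1) y ∧ C K x y) :
    ∃ f : ℕ → X, (∀ K, J K (f K)) ∧ ∀ K, C K (f K) (f (K + 1)) := by
  classical
  choose nxt hn using hs
  obtain ⟨x0, hx0⟩ := h0
  let F : (K : ℕ) → {x : X // J K x} := fun K =>
    Nat.rec (motive := fun K => {x : X // J K x}) ⟨x0, hx0⟩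
      (fun K p => ⟨nxt K p.1 p.2, (hn K p.1 p.2).1⟩) K
  refine ⟨fun K => (F K).1, fun K => (F K).2, fun K => ?_⟩
  exact (hn K (F K).1 (F K).2).2

/-- the potential only depends on the ranges with non-zero amplitude -/
theorem pot_congr {a R R' : ℕ → ℝ} (h : ∀ k, a k ≠ 0 → R k = R' k) : pot a R = pot a R' := by
  funext r
  unfold pot att
  congr 2
  funext k
  by_cases hk : a k = 0
  · simp [hk]
  · rw [h k hk]

/-- amplitudes -/
noncomputable def aa (k : ℕ) : ℝ := 1024 * (1 / 2) ^ k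

/-- truncated amplitudes -/
noncomputable def aK (K : ℕ) (k : ℕ) : ℝ := if k < K then aa k else 0

/-- kink sizes -/
noncomputable def TT (K : ℕ) : ℝ := 1 / 32 * (1 + (1 / 2) ^ K)

/-- errors -/
noncomputable def ee (K : ℕ) : ℝ := 1 / 128 * (1 / 4) ^ K

theorem aa_pos (k : ℕ) : 0 < aa k := by unfold aa; positivity

theorem summable_aa : Summable aa := by
  unfold aa
  exact summable_geometric_two.mul_left _

theorem tsum_aa : ∑' k, aa k = 2048 := by
  unfold aa
  rw [tsum_mul_left, tsum_geometric_two]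
  norm_num

theorem aK_nonneg (K k : ℕ) : 0 ≤ aK K k := by
  unfold aK
  split_ifs
  · exact (aa_pos k).le
  · exact le_rfl

theorem aK_le (K k : ℕ) : aK K k ≤ aa k := by
  unfold aK
  split_ifs
  · exact le_rfl
  · exact (aa_pos k).le

theorem summable_aK (K : ℕ) : Summable (aK K) :=
  Summable.of_nonneg_of_le (aK_nonneg K) (aK_le K) summable_aa

theorem tsum_aK_le (K : ℕ) : ∑' k, aK K k ≤ 2048 := by
  rw [← tsum_aa]
  exact (summable_aK K).tsum_le_tsum (aK_le K) summable_aa

theorem aK_eq_zero {K k : ℕ} (h : K ≤ k) : aK K k = 0 := by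
  unfold aK
  rw [if_neg (by omega)]

theorem aK_succ (K : ℕ) : aK (K + 1) = Function.update (aK K) K (aa K) := by
  funext k
  unfold aK
  by_cases hk : k = K
  · subst hk
    simp
  · rw [Function.update_of_ne hk]
    by_cases h1 : k < K
    · rw [if_pos h1, if_pos (by omega)]
    · rw [if_neg h1, if_neg (by omega)]

theorem adm_aa {R : ℕ → ℝ} (hR : ∀ k, 1 ≤ R k) : Adm aa R :=
  ⟨fun k => (aa_pos k).le, summable_aa, hR⟩

theorem adm_aK (K : ℕ) {R : ℕ → ℝ} (hR : ∀ k, 1 ≤ R k) : Adm (aK K) R :=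
  ⟨aK_nonneg K, summable_aK K, hR⟩

/-- the tail mass -/
theorem tsum_tail (K : ℕ) : ∑' k, (aa k - aK (K + 1) k) = 1024 * (1 / 2) ^ K := by
  have hs : Summable fun k => aa k - aK (K + 1) k := summable_aa.sub (summable_aK _)
  rw [← hs.sum_add_tsum_nat_add (K + 1)]
  have h1 : ∑ i ∈ Finset.range (K + 1), (aa i - aK (K + 1) i) = 0 := by
    apply Finset.sum_eq_zero
    intro i hi
    rw [Finset.mem_range] at hi
    unfold aK
    rw [if_pos hi, sub_self]
  have h2 : ∀ i, aa (i + (K + 1)) - aK (K + 1) (i + (K + 1))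
      = 1024 * (1 / 2) ^ (K + 1) * (1 / 2) ^ i := by
    intro i
    rw [aK_eq_zero (by omega), sub_zero]
    unfold aa
    rw [pow_add]
    ring
  rw [h1, zero_add, tsum_congr h2, tsum_mul_left, tsum_geometric_two, pow_succ]
  ring

/-- adding the `K`-th Kac piece -/
theorem pot_aK_succ (K : ℕ) {R : ℕ → ℝ} (hR : ∀ k, 1 ≤ R k) (ρ : ℝ) :
    pot (aK (K + 1)) (Function.update R K ρ) = fun r => pot (aK K) R r - aa K * Kf ρ r := by
  funext r
  rw [aK_succ]
  exact pot_update (adm_aK K hR) (aK_eq_zero le_rfl) (aa K) ρ r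

/-- the invariant of the construction -/
def Inv (K : ℕ) (st : (ℕ → ℝ) × ℝ) : Prop :=
  (∀ k, 1 ≤ st.1 k) ∧ st.2 ≤ 0 ∧ ∀ h ∈ Set.Icc (0 : ℝ) 16,
    TT K * h - ee K ≤ D2 (press (pot (aK (K + 1)) st.1)) st.2 h

theorem TT_pos (K : ℕ) : 0 < TT K := by unfold TT; positivity

theorem ee_pos (K : ℕ) : 0 < ee K := by unfold ee; positivity

/-- the free gas with the repulsive core -/
theorem good_zero : Good (pot (aK 0) fun _ => 1) 0 := by
  have hA : Adm (aK 0) fun _ => 1 := adm_aK 0 fun _ => le_rfl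
  refine ⟨measurable_pot hA, fun r hr => pot_neg hA hr, ?_⟩
  intro N x _
  have h0 : ∀ r, 0 ≤ pot (aK 0) (fun _ => 1) r := by
    intro r
    have : att (aK 0) (fun _ => 1) r = 0 := by
      unfold att
      have : ∀ k, aK 0 k * Kf 1 r = 0 := by
        intro k
        rw [aK_eq_zero (Nat.zero_le k), zero_mul]
      rw [tsum_congr this, tsum_zero]
    unfold pot
    rw [this, sub_zero]
    exact q_nonneg r
  have : 0 ≤ U (pot (aK 0) fun _ => 1) N x := by
    unfold U
    apply Finset.sum_nonneg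
    intro i _
    apply Finset.sum_nonneg
    intro j _
    split_ifs
    · exact h0 _
    · exact le_rfl
  simpa using this

theorem base_D2 : 2 ≤ D2 (press (pot (aK 0) fun _ => 1)) 0 32 := by
  have h1 := press_ge_log good_zero 32
  have h2 := press_nonneg good_zero (-32)
  have h3 := press_le_exp good_zero 0
  have h4 : (32 : ℝ) ≤ Real.log (1 + Real.exp 32) := by
    rw [Real.le_log_iff_exp_le (by positivity)]
    linarith
  unfold D2
  simp only [zero_add, zero_sub, add_zero, Real.exp_zero] at h3 ⊢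
  linarith

theorem inv_base : ∃ st, Inv 0 st := by
  have hA : Adm (aK 0) fun _ => 1 := adm_aK 0 fun _ => le_rfl
  have hD : (aa 0 * TT 0 / 2) ^ 2
      ≤ aa 0 * D2 (press (pot (aK 0) fun _ => 1)) 0 32 - 32 ^ 2 := by
    have := base_D2
    unfold aa TT
    norm_num
    linarith
  obtain ⟨μ1, hμ1, ρ0, hρ0, h⟩ := step_lemma hA (K := 0) (fun k _ => aK_eq_zero (Nat.zero_le k))
    (aa_pos 0) (by norm_num : (0 : ℝ) < 32) (TT_pos 0) hD (ee_pos 0) (by norm_num : (0 : ℝ) < 16)
  refine ⟨(Function.update (fun _ => 1) 0 ρ0, μ1), ?_, hμ1, ?_⟩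
  · intro k
    by_cases hk : k = 0
    · subst hk; simpa using hρ0
    · simp [Function.update_of_ne hk]
  · intro t ht
    have := h ρ0 le_rfl t ht
    simp only []
    rw [pot_aK_succ 0 (fun _ => le_rfl) ρ0]
    exact this

theorem inv_step (K : ℕ) (st : (ℕ → ℝ) × ℝ) (hst : Inv K st) :
    ∃ st', Inv (K + 1) st' ∧ ∀ k, k ≤ K → st'.1 k = st.1 k := by
  obtain ⟨R, μ⟩ := st
  obtain ⟨hR, hμ, hk⟩ := hst
  simp only [] at hR hμ hk
  have hA : Adm (aK (K + 1)) R := adm_aK (K + 1) hR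
  set α := aa (K + 1) with hα
  have hαpos : 0 < α := aa_pos _
  set h0 := α * TT K / 2 with hh0
  have hTK := TT_pos K
  have hh0pos : 0 < h0 := by positivity
  have hp : (0 : ℝ) < (1 / 2) ^ K := by positivity
  have hp1 : ((1 : ℝ) / 2) ^ K ≤ 1 := pow_le_one₀ (by norm_num) (by norm_num)
  have hαv : α = 512 * (1 / 2) ^ K := by
    rw [hα]; unfold aa; rw [pow_succ]; ring
  have hh0le : h0 ≤ 16 := by
    rw [hh0, hαv]; unfold TT
    nlinarith
  have hkk := hk h0 ⟨hh0pos.le, hh0le⟩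
  have hee : ee K = 1 / 128 * ((1 / 2) ^ K) ^ 2 := by
    unfold ee
    rw [← pow_mul, mul_comm K 2, pow_mul]
    norm_num
  have hD : (α * TT (K + 1) / 2) ^ 2
      ≤ α * D2 (press (pot (aK (K + 1)) R)) μ h0 - h0 ^ 2 := by
    have h1 : α * (TT K * h0 - ee K) ≤ α * D2 (press (pot (aK (K + 1)) R)) μ h0 :=
      mul_le_mul_of_nonneg_left hkk hαpos.le
    have h2 : (α * TT (K + 1) / 2) ^ 2 ≤ α * (TT K * h0 - ee K) - h0 ^ 2 := by
      rw [hh0, hee]
      have hT1 : TT (K + 1) = 1 / 32 * (1 + (1 / 2) ^ K / 2) := by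
        unfold TT; rw [pow_succ]; ring
      rw [hT1, hαv]
      unfold TT
      set y := ((1 : ℝ) / 2) ^ K with hy
      have : 0 ≤ y ^ 3 := by positivity
      have : 0 ≤ y ^ 4 := by positivity
      nlinarith
    linarith
  obtain ⟨μ1, hμ1, ρ0, hρ0, h⟩ := step_lemma hA (K := K + 1) (fun k hk => aK_eq_zero hk)
    hαpos hh0pos (TT_pos (K + 1)) hD (ee_pos (K + 1)) (by norm_num : (0 : ℝ) < 16)
  refine ⟨(Function.update R (K + 1) ρ0, μ1), ⟨?_, hμ1.trans hμ, ?_⟩, ?_⟩
  · intro k
    by_cases hk : k = K + 1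
    · subst hk; simpa using hρ0
    · simpa [Function.update_of_ne hk] using hR k
  · intro t ht
    have := h ρ0 le_rfl t ht
    simp only []
    rw [pot_aK_succ (K + 1) hR ρ0]
    exact this
  · intro k hk
    simp only []
    rw [Function.update_of_ne (by omega)]

/-- The main theorem in the variable `μ`. -/
theorem exists_kink : ∃ R : ℕ → ℝ, (∀ k, 1 ≤ R k) ∧ ∃ μ, ¬ DifferentiableAt ℝ (press (pot aa R)) μ := by
  obtain ⟨f, hJ, hC⟩ := exists_seq Inv (fun K st st' => ∀ k, k ≤ K → st'.1 k = st.1 k)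
    inv_base inv_step
  set R : ℕ → ℝ := fun k => (f k).1 k with hRdef
  have hR : ∀ k, 1 ≤ R k := fun k => (hJ k).1 k
  have hcompat : ∀ K k, k ≤ K → (f K).1 k = R k := by
    intro K
    induction K with
    | zero =>
      intro k hk
      have : k = 0 := by omega
      subst this
      rfl
    | succ K ih =>
      intro k hk
      rcases Nat.lt_or_ge k (K + 1) with h | h
      · rw [hC K k (by omega), ih k (by omega)]
      · have : k = K + 1 := by omega
        subst this
        rfl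
  have hpot : ∀ K, pot (aK (K + 1)) (f K).1 = pot (aK (K + 1)) R := by
    intro K
    apply pot_congr
    intro k hk
    apply hcompat
    by_contra hlt
    exact hk (aK_eq_zero (by omega))
  refine ⟨R, hR, ?_⟩
  obtain ⟨B, hB0, hB⟩ := exists_good 2048
  have hG : Good (pot aa R) B := hB aa R (adm_aa hR) tsum_aa.le
  have hGK : ∀ K, Good (pot (aK K) R) B := fun K => hB _ R (adm_aK K hR) (tsum_aK_le K)
  obtain ⟨B', hB'⟩ := press_tail_le 2048 (by norm_num)
  set P := press (pot aa R) with hP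
  have hkey : ∀ K, ∀ h ∈ Set.Icc (0 : ℝ) 1,
      1 / 32 * h - (ee K + (1 / 2) ^ K * Real.exp B') ≤ D2 P (f K).2 h := by
    intro K h hh
    have h1 := (hJ K).2.2 h ⟨hh.1, by linarith [hh.2]⟩
    rw [hpot K] at h1
    have hμ := (hJ K).2.1
    have hlow : ∀ ν, press (pot (aK (K + 1)) R) ν ≤ P ν :=
      fun ν => press_att_mono (adm_aa hR) (adm_aK _ hR) (aK_le _) ν
    have hp : (0 : ℝ) < (1 / 2) ^ K := by positivity
    have hp1 : ((1 : ℝ) / 2) ^ K ≤ 1 := pow_le_one₀ (by norm_num) (by norm_num)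
    have hup := hB' aa (aK (K + 1)) R (adm_aa hR) (adm_aK _ hR) tsum_aa.le
      (by
        intro k
        unfold aK
        split_ifs
        · exact Or.inl rfl
        · exact Or.inr rfl)
      (1024 * (1 / 2) ^ K) (by positivity) (tsum_tail K).le (by linarith) (f K).2
    have hexp : Real.exp ((f K).2 + B') ≤ Real.exp B' := Real.exp_le_exp.mpr (by linarith)
    have hT : 1 / 32 * h ≤ TT K * h := by
      apply mul_le_mul_of_nonneg_right _ hh.1
      unfold TT
      linarith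
    have e1 := hlow ((f K).2 + h)
    have e2 := hlow ((f K).2 - h)
    have e3 : 1024 * (1 / 2) ^ K / 2048 * Real.exp ((f K).2 + B')
        ≤ (1 / 2) ^ K / 2 * Real.exp B' := by
      have : (1024 : ℝ) * (1 / 2) ^ K / 2048 = (1 / 2) ^ K / 2 := by ring
      rw [this]
      exact mul_le_mul_of_nonneg_left hexp (by positivity)
    unfold D2 at h1 ⊢
    linarith
  have hlo : ∀ K, Real.log (3 / 128) - 1 - B ≤ (f K).2 := by
    intro K
    have h1 := (hJ K).2.2 1 ⟨by norm_num, by norm_num⟩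
    rw [hpot K] at h1
    have hT : 1 / 32 ≤ TT K := by
      unfold TT
      have : (0 : ℝ) < (1 / 2) ^ K := by positivity
      linarith
    have he : ee K ≤ 1 / 128 := by
      unfold ee
      have : ((1 : ℝ) / 4) ^ K ≤ 1 := pow_le_one₀ (by norm_num) (by norm_num)
      linarith
    have hm := press_mono (hGK (K + 1)) (show (f K).2 - 1 ≤ (f K).2 by linarith)
    have hn := press_nonneg (hGK (K + 1)) (f K).2
    have hx := press_le_exp (hGK (K + 1)) ((f K).2 + 1)
    unfold D2 at h1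
    have h2 : 3 / 128 ≤ Real.exp ((f K).2 + 1 + B) := by linarith
    have h3 := (Real.log_le_iff_le_exp (by norm_num)).mpr h2
    linarith
  have hε : Tendsto (fun K => ee K + (1 / 2) ^ K * Real.exp B') atTop (𝓝 0) := by
    have t1 : Tendsto ee atTop (𝓝 0) := by
      have := (tendsto_pow_atTop_nhds_zero_of_lt_one (r := (1 / 4 : ℝ)) (by norm_num)
        (by norm_num)).const_mul (1 / 128 : ℝ)
      rw [mul_zero] at this
      exact this
    have t2 : Tendsto (fun K : ℕ => ((1 : ℝ) / 2) ^ K * Real.exp B') atTop (𝓝 0) := by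
      have := (tendsto_pow_atTop_nhds_zero_of_lt_one (r := (1 / 2 : ℝ)) (by norm_num)
        (by norm_num)).mul_const (Real.exp B')
      simpa using this
    simpa using t1.add t2
  obtain ⟨μ, -, hμ⟩ := not_differentiable_of_approx_kinks (press_convex hG)
    (c := 1 / 32) (lo := Real.log (3 / 128) - 1 - B) (hi := 0) (by norm_num)
    (fun K => (f K).2) (fun K => ee K + (1 / 2) ^ K * Real.exp B')
    (fun K => ⟨hlo K, (hJ K).2.1⟩) hε hkey
  exact ⟨μ, hμ⟩

/-- The main theorem with the objects of the problem. -/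
theorem main_theorem : ∃ φ : ℝ → ℝ, Measurable φ ∧ LocBdd φ ∧ Stable φ ∧ Tempered φ ∧
    (∀ (L : ℝ) (N : ℕ), IntegrableOn (fun x : Fin N → E3 => Real.exp (-(1 * U φ N x)))
      (Set.pi Set.univ (fun _ : Fin N => cube L))) ∧
    (∀ (L z : ℝ), 0 < z → Summable (fun N : ℕ => z ^ N * Zc φ 1 L N)) ∧
    ∃ P : ℝ → ℝ, IsPressure φ 1 P ∧ ∃ z, 0 < z ∧ ¬ DifferentiableAt ℝ P z := by
  obtain ⟨R, hR, μ, hμ⟩ := exists_kink
  obtain ⟨B, -, hB⟩ := exists_good 2048
  have hA := adm_aa hR
  have hG : Good (pot aa R) B := hB aa R hA tsum_aa.le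
  refine ⟨pot aa R, measurable_pot hA, locBdd_pot hA, ⟨B, hG.stab⟩, tempered_pot hA,
    fun L N => integrableOn_boltzmann hG L N, fun L z hz => summable_Xi hG L hz,
    fun z => press (pot aa R) (Real.log z), isPressure hG, Real.exp μ, Real.exp_pos μ,
    not_differentiableAt_z hμ⟩

end Vale.Agent.P171
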