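import Vale.Agent.P171.Pot

open MeasureTheory Filter Topology

namespace Vale.Agent.P171

theorem gk_symm (R : ℝ) (x u : E3) : gk R x u = gk R u x := by
  unfold gk
  rw [dist_comm]

theorem measurable_gk_uncurry (R : ℝ) : Measurable (fun p : E3 × E3 => gk R p.1 p.2) := by
  unfold gk
  apply Measurable.ite _ measurable_const measurable_const
  apply IsOpen.measurableSet
  apply isOpen_lt
  · fun_prop
  · fun_prop

theorem integrable_gk_prod {R : ℝ} (hR : 0 < R) :
    Integrable (fun p : E3 × E3 => gk R 0 p.2 * gk R p.1 p.2) (volume.prod volume) := by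
  have hm : Measurable (fun p : E3 × E3 => gk R 0 p.2 * gk R p.1 p.2) :=
    ((measurable_gk R 0).comp measurable_snd).mul (measurable_gk_uncurry R)
  rw [integrable_prod_iff' hm.aestronglyMeasurable]
  constructor
  · filter_upwards with u
    have : (fun x => gk R 0 u * gk R x u) = fun x => gk R 0 u * gk R u x := by
      ext x; rw [gk_symm R x u]
    rw [this]
    exact (integrable_gk R u).const_mul _
  · have : (fun u => ∫ x, ‖gk R 0 u * gk R x u‖) = fun u => gk R 0 u := by
      ext u
      have : (fun x => ‖gk R 0 u * gk R x u‖) = fun x => gk R 0 u * gk R u x := by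
        ext x
        rw [Real.norm_eq_abs, abs_of_nonneg (mul_nonneg (gk_nonneg _ _ _) (gk_nonneg _ _ _)),
          gk_symm R x u]
      rw [this, integral_const_mul, integral_gk hR, mul_one]
    simp only
    rw [this]
    exact integrable_gk R 0

theorem Kf_norm_eq {R : ℝ} (hR : 0 < R) (x : E3) :
    Kf R ‖x‖ = ∫ u, gk R 0 u * gk R x u := by
  rw [Kf_dist hR, dist_zero_left]

/-- the Kac kernel is integrable -/
theorem integrable_Kf {R : ℝ} (hR : 0 < R) : Integrable (fun x : E3 => Kf R ‖x‖) := by
  simp_rw [Kf_norm_eq hR]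
  exact (integrable_gk_prod hR).integral_prod_left

/-- the Kac kernel has total mass one -/
theorem integral_Kf {R : ℝ} (hR : 0 < R) : ∫ x : E3, Kf R ‖x‖ = 1 := by
  simp_rw [Kf_norm_eq hR]
  rw [integral_integral_swap (f := fun x u => gk R 0 u * gk R x u) (integrable_gk_prod hR)]
  have : (fun u => ∫ x, gk R 0 u * gk R x u) = fun u => gk R 0 u := by
    ext u
    have : (fun x => gk R 0 u * gk R x u) = fun x => gk R 0 u * gk R u x := by
      ext x; rw [gk_symm R x u]
    rw [this, integral_const_mul, integral_gk hR, mul_one]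
  rw [this, integral_gk hR]

theorem lintegral_att {a R : ℕ → ℝ} (h : Adm a R) :
    ∫⁻ x : E3, ENNReal.ofReal (att a R ‖x‖) = ENNReal.ofReal (∑' k, a k) := by
  have hRpos : ∀ k, 0 < R k := fun k => lt_of_lt_of_le one_pos (h.Rge k)
  have h1 : ∀ x : E3, ENNReal.ofReal (att a R ‖x‖)
      = ∑' k, ENNReal.ofReal (a k * Kf (R k) ‖x‖) := by
    intro x
    unfold att
    exact ENNReal.ofReal_tsum_of_nonneg (fun k => mul_nonneg (h.nonneg k) (Kf_nonneg _ _))
      (summable_att h _)
  simp_rw [h1]
  rw [lintegral_tsum]
  · have h2 : ∀ k, ∫⁻ x : E3, ENNReal.ofReal (a k * Kf (R k) ‖x‖) = ENNReal.ofReal (a k) := by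
      intro k
      rw [← ofReal_integral_eq_lintegral_ofReal ((integrable_Kf (hRpos k)).const_mul _)
        (Filter.Eventually.of_forall fun x => mul_nonneg (h.nonneg k) (Kf_nonneg _ _)),
        integral_const_mul, integral_Kf (hRpos k), mul_one]
    simp_rw [h2]
    exact (ENNReal.ofReal_tsum_of_nonneg h.nonneg h.summ).symm
  · intro k
    apply Measurable.aemeasurable
    apply ENNReal.measurable_ofReal.comp
    exact ((measurable_Kf (R k)).comp measurable_norm).const_mul _

/-- the attraction is integrable -/
theorem integrable_att {a R : ℕ → ℝ} (h : Adm a R) : Integrable (fun x : E3 => att a R ‖x‖) := by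
  refine ⟨((measurable_att h).comp measurable_norm).aestronglyMeasurable, ?_⟩
  rw [hasFiniteIntegral_iff_ofReal (Filter.Eventually.of_forall fun x => att_nonneg h _),
    lintegral_att h]
  exact ENNReal.ofReal_lt_top

/-- the total mass of the attraction -/
theorem integral_att {a R : ℕ → ℝ} (h : Adm a R) : ∫ x : E3, att a R ‖x‖ = ∑' k, a k := by
  rw [integral_eq_lintegral_of_nonneg_ae (Filter.Eventually.of_forall fun x => att_nonneg h _)
    ((measurable_att h).comp measurable_norm).aestronglyMeasurable, lintegral_att h,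
    ENNReal.toReal_ofReal (tsum_nonneg h.nonneg)]

theorem q_eq_zero {r : ℝ} (hr : 1 ≤ r) : q r = 0 := by
  unfold q
  rw [if_neg]
  intro h
  linarith [h.2]

/-- the potential is (absolutely) integrable outside the unit ball -/
theorem integrableOn_pot {a R : ℕ → ℝ} (h : Adm a R) :
    IntegrableOn (fun x : E3 => pot a R ‖x‖) {x | 1 ≤ ‖x‖} := by
  have hS : MeasurableSet {x : E3 | 1 ≤ ‖x‖} := measurableSet_le measurable_const measurable_norm
  have : IntegrableOn (fun x : E3 => -att a R ‖x‖) {x | 1 ≤ ‖x‖} := (integrable_att h).neg.integrableOn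
  refine this.congr_fun ?_ hS
  intro x hx
  simp only [pot]
  rw [q_eq_zero hx, zero_sub]

/-- Ruelle regularity: the Mayer function is integrable -/
theorem regular_pot {a R : ℕ → ℝ} (h : Adm a R) :
    Integrable (fun x : E3 => Real.exp (-(pot a R ‖x‖)) - 1) := by
  set b : ℝ := (∑' k, a k) * (vb (1 / 2))⁻¹ with hb
  have hb0 : 0 ≤ b := mul_nonneg (tsum_nonneg h.nonneg) (inv_nonneg.2 (vb_nonneg _))
  have hdom : Integrable (fun x : E3 =>
      (Metric.ball (0 : E3) 1).indicator (fun _ => Real.exp b) x + Real.exp b * att a R ‖x‖) := by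
    apply Integrable.add
    · rw [integrable_indicator_iff measurableSet_ball]
      exact integrableOn_const measure_ball_lt_top.ne
    · exact (integrable_att h).const_mul _
  refine hdom.mono' ?_ ?_
  · apply Measurable.aestronglyMeasurable
    exact (Real.measurable_exp.comp ((measurable_pot h).comp measurable_norm).neg).sub_const 1
  · filter_upwards with x
    have hatt0 := att_nonneg h ‖x‖
    have hattb := att_le h ‖x‖
    have hexpb : 1 ≤ Real.exp b := Real.one_le_exp hb0
    rw [Real.norm_eq_abs]
    by_cases hx : ‖x‖ < 1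
    · have hmem : x ∈ Metric.ball (0 : E3) 1 := by simpa using hx
      rw [Set.indicator_of_mem hmem]
      have h1 : -(pot a R ‖x‖) ≤ b := by
        unfold pot
        have := q_nonneg ‖x‖
        linarith
      have h2 : Real.exp (-(pot a R ‖x‖)) ≤ Real.exp b := Real.exp_le_exp.2 h1
      have h3 : 0 < Real.exp (-(pot a R ‖x‖)) := Real.exp_pos _
      have h4 : 0 ≤ Real.exp b * att a R ‖x‖ := by positivity
      rw [abs_le]
      constructor <;> linarith
    · have hmem : x ∉ Metric.ball (0 : E3) 1 := by simpa using hx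
      rw [Set.indicator_of_notMem hmem, zero_add]
      have hp : -(pot a R ‖x‖) = att a R ‖x‖ := by
        unfold pot
        rw [q_eq_zero (not_lt.1 hx)]
        ring
      rw [hp]
      set y := att a R ‖x‖ with hy
      have h1 : 1 ≤ Real.exp y := Real.one_le_exp hatt0
      rw [abs_of_nonneg (by linarith)]
      -- exp y - 1 ≤ y * exp y ≤ y * exp b
      have h2 : Real.exp y - 1 ≤ y * Real.exp y := by
        have h3 := Real.add_one_le_exp (-y)
        have h4 : Real.exp (-y) * Real.exp y = 1 := by rw [← Real.exp_add]; simp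
        have h5 : 0 < Real.exp y := Real.exp_pos y
        nlinarith
      have h6 : y * Real.exp y ≤ y * Real.exp b :=
        mul_le_mul_of_nonneg_left (Real.exp_le_exp.2 hattb) hatt0
      linarith

end Vale.Agent.P171
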