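import Vale.Agent.P171.Main
import Vale.Agent.P171.Regular

open MeasureTheory Filter Topology

namespace Vale.Agent.P171

/-- The main theorem with further regularity properties of the potential. -/
theorem main_theorem_regular : ∃ φ : ℝ → ℝ, Measurable φ ∧ LocBdd φ ∧ Stable φ ∧ Tempered φ ∧
    (∃ M : ℝ, ∀ r, -M ≤ φ r) ∧ (∀ r, 1 ≤ r → φ r ≤ 0) ∧
    IntegrableOn (fun x : E3 => φ ‖x‖) {x | 1 ≤ ‖x‖} ∧
    Integrable (fun x : E3 => Real.exp (-(1 * φ ‖x‖)) - 1) ∧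
    (∀ (L : ℝ) (N : ℕ), IntegrableOn (fun x : Fin N → E3 => Real.exp (-(1 * U φ N x)))
      (Set.pi Set.univ (fun _ : Fin N => cube L))) ∧
    (∀ (L z : ℝ), 0 < z → Summable (fun N : ℕ => z ^ N * Zc φ 1 L N)) ∧
    ∃ P : ℝ → ℝ, IsPressure φ 1 P ∧ ∃ z, 0 < z ∧ ¬ DifferentiableAt ℝ P z := by
  obtain ⟨R, hR, μ, hμ⟩ := exists_kink
  obtain ⟨B, -, hB⟩ := exists_good 2048
  have hA := adm_aa hR
  have hG : Good (pot aa R) B := hB aa R hA tsum_aa.le
  refine ⟨pot aa R, measurable_pot hA, locBdd_pot hA, ⟨B, hG.stab⟩, tempered_pot hA,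
    ⟨(∑' k, aa k) * (vb (1 / 2))⁻¹, fun r => ?_⟩, fun r hr => pot_neg hA hr,
    integrableOn_pot hA, ?_,
    fun L N => integrableOn_boltzmann hG L N, fun L z hz => summable_Xi hG L hz,
    fun z => press (pot aa R) (Real.log z), isPressure hG, Real.exp μ, Real.exp_pos μ,
    not_differentiableAt_z hμ⟩
  · have h1 := att_le hA r
    have h2 := q_nonneg r
    unfold pot
    linarith
  · simpa using regular_pot hA

end Vale.Agent.P171
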