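import Vale.Agent.P171.Defs
import Vale.Agent.P171.GPBasic
import Vale.Agent.P171.GPFact
import Vale.Agent.P171.GPHolder

open MeasureTheory Filter Topology
open scoped ENNReal

namespace Vale.Agent.P171

/-- Boltzmann weight at inverse temperature one -/
noncomputable def bw (φ : ℝ → ℝ) (N : ℕ) (x : Fin N → E3) : ℝ≥0∞ :=
  ENNReal.ofReal (Real.exp (-(U φ N x)))

/-- one-body weight: activity `exp μ` on the region `S` -/
noncomputable def act (μ : ℝ) (S : Set E3) : E3 → ℝ≥0∞ :=
  S.indicator (fun _ => ENNReal.ofReal (Real.exp μ))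

/-- grand partition function of the region `S` at chemical potential `μ` -/
noncomputable def XiS (φ : ℝ → ℝ) (μ : ℝ) (S : Set E3) : ℝ≥0∞ := GP volume (bw φ) (act μ S)

/-- logarithm of the grand partition function of the cube of side `L` -/
noncomputable def lX (φ : ℝ → ℝ) (μ L : ℝ) : ℝ := Real.log (XiS φ μ (cube L)).toReal

/-- the pressure, defined by the supremum formula -/
noncomputable def press (φ : ℝ → ℝ) (μ : ℝ) : ℝ := ⨆ L : Set.Ioi (0 : ℝ), lX φ μ L / ((L : ℝ) + 1) ^ 3

/-- the class of potentials for which the thermodynamic limit is proved -/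
structure Good (φ : ℝ → ℝ) (B : ℝ) : Prop where
  meas : Measurable φ
  neg : ∀ r, 1 ≤ r → φ r ≤ 0
  stab : ∀ (N : ℕ) (x : Fin N → E3), Function.Injective x → -(B * N) ≤ U φ N x

/-- pair factor of a radial potential -/
noncomputable def Fr (φ : ℝ → ℝ) (x y : E3) : ℝ≥0∞ := ENNReal.ofReal (Real.exp (-(φ (dist x y))))

/-- D0a -/
theorem bw_eq_pw (φ : ℝ → ℝ) (N : ℕ) (x : Fin N → E3) : bw φ N x = pw (Fr φ) N x := by
  unfold pw Fr bw U
  rw [← Finset.sum_neg_distrib, Real.exp_sum,
    ENNReal.ofReal_prod_of_nonneg (fun i _ => (Real.exp_pos _).le)]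
  refine Finset.prod_congr rfl fun i _ => ?_
  rw [← Finset.sum_neg_distrib, Real.exp_sum,
    ENNReal.ofReal_prod_of_nonneg (fun i _ => (Real.exp_pos _).le)]
  refine Finset.prod_congr rfl fun j _ => ?_
  by_cases h : i < j
  · simp [h]
  · simp [h]

theorem bw_eq_pw' (φ : ℝ → ℝ) : bw φ = pw (Fr φ) := by
  funext N x
  exact bw_eq_pw φ N x

theorem measurable_Fr {φ : ℝ → ℝ} (hφ : Measurable φ) : Measurable (Function.uncurry (Fr φ)) := by
  unfold Fr Function.uncurry
  exact ENNReal.measurable_ofReal.comp (Real.measurable_exp.comp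
    (hφ.comp (measurable_fst.dist measurable_snd)).neg)

/-- D0b: almost every configuration consists of distinct points. -/
theorem ae_injective (N : ℕ) :
    ∀ᵐ x ∂(Measure.pi fun _ : Fin N => (volume : Measure E3)), Function.Injective x := by
  have h : ∀ i j : Fin N, i ≠ j →
      ∀ᵐ x ∂(Measure.pi fun _ : Fin N => (volume : Measure E3)), x i ≠ x j := by
    intro i j hij
    let T : Submodule ℝ (Fin N → E3) :=
      LinearMap.ker ((LinearMap.proj i : (Fin N → E3) →ₗ[ℝ] E3) - LinearMap.proj j)
    have hT : T ≠ ⊤ := by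
      intro hT
      have hmem : (Pi.single i (EuclideanSpace.single 0 1) : Fin N → E3) ∈ T := by
        rw [hT]; trivial
      simp [T, LinearMap.mem_ker, hij.symm] at hmem
    have hz := Measure.addHaar_submodule (Measure.pi fun _ : Fin N => (volume : Measure E3)) T hT
    rw [ae_iff]
    refine measure_mono_null ?_ hz
    intro x hx
    have hx' : x i = x j := by simpa using hx
    simp [T, LinearMap.mem_ker, hx']
  have h2 : ∀ᵐ x ∂(Measure.pi fun _ : Fin N => (volume : Measure E3)),
      ∀ i j : Fin N, i ≠ j → x i ≠ x j := by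
    rw [ae_all_iff]; intro i
    rw [ae_all_iff]; intro j
    by_cases hij : i = j
    · exact Filter.Eventually.of_forall fun x h => absurd hij h
    · filter_upwards [h i j hij] with x hx _ using hx
  filter_upwards [h2] with x hx i j hij
  by_contra hne
  exact hx i j hne hij

theorem measurable_U {φ : ℝ → ℝ} (hφ : Measurable φ) (N : ℕ) : Measurable (U φ N) := by
  unfold U
  refine Finset.measurable_sum _ fun i _ => Finset.measurable_sum _ fun j _ => ?_
  by_cases h : i < j
  · simp only [h, if_true]
    exact hφ.comp ((measurable_pi_apply i).dist (measurable_pi_apply j))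
  · simp only [h, if_false]
    exact measurable_const

theorem measurableSet_cube (L : ℝ) : MeasurableSet (cube L) := by
  have : cube L = ⋂ i : Fin 3, {p : E3 | 0 ≤ p i ∧ p i ≤ L} := by
    ext p; simp [cube]
  rw [this]
  refine MeasurableSet.iInter fun i => ?_
  have hi : Measurable fun p : E3 => p i := by fun_prop
  exact (measurableSet_le measurable_const hi).inter (measurableSet_le hi measurable_const)

theorem volume_cube {L : ℝ} (hL : 0 ≤ L) : volume (cube L) = ENNReal.ofReal (L ^ 3) := by
  have h : cube L = (@WithLp.ofLp 2 (Fin 3 → ℝ)) ⁻¹'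
      (Set.pi Set.univ fun _ : Fin 3 => Set.Icc (0 : ℝ) L) := by
    ext p
    simp only [cube, Set.mem_preimage, Set.mem_pi, Set.mem_univ, true_imp_iff, Set.mem_Icc]
    rfl
  rw [h, (PiLp.volume_preserving_ofLp (Fin 3)).measure_preimage
    (MeasurableSet.univ_pi fun _ => measurableSet_Icc).nullMeasurableSet, volume_pi_pi]
  simp [ENNReal.ofReal_pow hL]

theorem measurable_act (μ : ℝ) {S : Set E3} (hS : MeasurableSet S) : Measurable (act μ S) :=
  measurable_const.indicator hS

theorem lintegral_act (μ : ℝ) {S : Set E3} (hS : MeasurableSet S) :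
    ∫⁻ x, act μ S x = ENNReal.ofReal (Real.exp μ) * volume S := by
  unfold act
  rw [lintegral_indicator hS, setLIntegral_const]

theorem act_ne_zero_iff (μ : ℝ) (S : Set E3) (x : E3) : act μ S x ≠ 0 ↔ x ∈ S := by
  unfold act
  by_cases h : x ∈ S
  · simp [h, Real.exp_pos]
  · simp [h]

/-- D1: stability bound. -/
theorem XiS_le_exp {φ : ℝ → ℝ} {B : ℝ} (h : Good φ B) (μ : ℝ) {S : Set E3} (hS : MeasurableSet S)
    {V : ℝ} (hV0 : 0 ≤ V) (hV : volume S ≤ ENNReal.ofReal V) :
    XiS φ μ S ≤ ENNReal.ofReal (Real.exp (Real.exp (μ + B) * V)) := by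
  have key : XiS φ μ S ≤ ENNReal.ofReal (Real.exp (Real.exp B * (Real.exp μ * V))) := by
    refine GP_le_exp volume (measurable_act μ hS) (Real.exp_pos _).le
      (mul_nonneg (Real.exp_pos _).le hV0) ?_ ?_
    · rw [lintegral_act μ hS, ENNReal.ofReal_mul (Real.exp_pos _).le]
      exact mul_le_mul_right hV _
    · intro N
      filter_upwards [ae_injective N] with x hx _
      unfold bw
      rw [← Real.exp_nat_mul]
      refine ENNReal.ofReal_le_ofReal (Real.exp_le_exp.2 ?_)
      have := h.stab N x hx
      linarith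
  rw [Real.exp_add]
  convert key using 3
  ring

theorem one_le_XiS (φ : ℝ → ℝ) (μ : ℝ) (S : Set E3) : 1 ≤ XiS φ μ S := by
  refine one_le_GP volume fun x => ?_
  simp [bw, U]

theorem XiS_mono_set (φ : ℝ → ℝ) (μ : ℝ) {S S' : Set E3} (h : S ⊆ S') :
    XiS φ μ S ≤ XiS φ μ S' := by
  refine GP_mono volume (fun N => Filter.Eventually.of_forall fun x _ => le_rfl) fun x => ?_
  unfold act
  exact Set.indicator_le_indicator_of_subset h (fun _ => zero_le) x

/-- translation invariance -/
theorem XiS_translate (φ : ℝ → ℝ) (μ : ℝ) (S : Set E3) (v : E3) :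
    XiS φ μ ((fun p => p + v) '' S) = XiS φ μ S := by
  unfold XiS
  rw [bw_eq_pw']
  have h := GP_pw_map volume (F := Fr φ) (act μ ((fun p => p + v) '' S))
    (MeasurableEquiv.addRight v) (measurePreserving_add_right volume v) (by
      intro x y
      simp [Fr])
  rw [← h]
  congr 1
  funext x
  unfold act
  by_cases hx : x ∈ S
  · have : (MeasurableEquiv.addRight v) x ∈ (fun p => p + v) '' S := ⟨x, hx, rfl⟩
    rw [Set.indicator_of_mem this, Set.indicator_of_mem hx]
  · have : (MeasurableEquiv.addRight v) x ∉ (fun p => p + v) '' S := by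
      rintro ⟨y, hy, hyx⟩
      have : y = x := by simpa using hyx
      exact hx (this ▸ hy)
    rw [Set.indicator_of_notMem this, Set.indicator_of_notMem hx]

end Vale.Agent.P171
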