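import Vale.Agent.P171.KernelCell
import Vale.Agent.P171.Thermo

open MeasureTheory Filter Topology

namespace Vale.Agent.P171

/-- the repulsive core -/
noncomputable def q (r : ℝ) : ℝ := if 0 < r ∧ r < 1 then (r ^ 6)⁻¹ else 0

/-- the attraction: a superposition of Kac kernels -/
noncomputable def att (a R : ℕ → ℝ) (r : ℝ) : ℝ := ∑' k, a k * Kf (R k) r

/-- the potentials of the construction -/
noncomputable def pot (a R : ℕ → ℝ) (r : ℝ) : ℝ := q r - att a R r

/-- admissible data -/
structure Adm (a R : ℕ → ℝ) : Prop where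
  nonneg : ∀ k, 0 ≤ a k
  summ : Summable a
  Rge : ∀ k, 1 ≤ R k

theorem q_nonneg (r : ℝ) : 0 ≤ q r := by
  unfold q
  split_ifs with h
  · have := h.1
    positivity
  · exact le_rfl

theorem measurable_q : Measurable q := by
  unfold q
  apply Measurable.ite
  · exact (measurableSet_lt measurable_const measurable_id).inter
      (measurableSet_lt measurable_id measurable_const)
  · exact (measurable_id.pow_const 6).inv
  · exact measurable_const

theorem Kf_le_half {R : ℝ} (hR : 1 ≤ R) (r : ℝ) : Kf R r ≤ (vb (1 / 2))⁻¹ := by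
  refine (Kf_le (by linarith) r).trans ?_
  apply inv_anti₀ (vb_pos (by norm_num))
  exact vb_mono (by linarith)

theorem term_att_le {a R : ℕ → ℝ} (h : Adm a R) (r : ℝ) (k : ℕ) :
    a k * Kf (R k) r ≤ a k * (vb (1 / 2))⁻¹ :=
  mul_le_mul_of_nonneg_left (Kf_le_half (h.Rge k) r) (h.nonneg k)

theorem summable_att {a R : ℕ → ℝ} (h : Adm a R) (r : ℝ) :
    Summable (fun k => a k * Kf (R k) r) :=
  Summable.of_nonneg_of_le (fun k => mul_nonneg (h.nonneg k) (Kf_nonneg _ _))
    (term_att_le h r) (h.summ.mul_right _)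

theorem att_nonneg {a R : ℕ → ℝ} (h : Adm a R) (r : ℝ) : 0 ≤ att a R r :=
  tsum_nonneg (fun k => mul_nonneg (h.nonneg k) (Kf_nonneg _ _))

theorem att_le {a R : ℕ → ℝ} (h : Adm a R) (r : ℝ) : att a R r ≤ (∑' k, a k) * (vb (1 / 2))⁻¹ := by
  rw [← tsum_mul_right]
  exact (summable_att h r).tsum_le_tsum (term_att_le h r) (h.summ.mul_right _)

theorem measurable_att {a R : ℕ → ℝ} (h : Adm a R) : Measurable (att a R) := by
  apply measurable_of_tendsto_metrizable
    (f := fun (n : ℕ) (r : ℝ) => ∑ k ∈ Finset.range n, a k * Kf (R k) r)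
  · intro n
    apply Finset.measurable_sum
    intro k _
    exact (measurable_Kf (R k)).const_mul (a k)
  · rw [tendsto_pi_nhds]
    intro r
    exact (summable_att h r).hasSum.tendsto_sum_nat

theorem measurable_pot {a R : ℕ → ℝ} (h : Adm a R) : Measurable (pot a R) :=
  measurable_q.sub (measurable_att h)

theorem pot_neg {a R : ℕ → ℝ} (h : Adm a R) {r : ℝ} (hr : 1 ≤ r) : pot a R r ≤ 0 := by
  have h1 : q r = 0 := by
    unfold q
    rw [if_neg]
    intro h2
    linarith [h2.2]
  have h2 := att_nonneg h r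
  unfold pot
  linarith

theorem locBdd_pot {a R : ℕ → ℝ} (h : Adm a R) : LocBdd (pot a R) := by
  intro lo hi hlo
  refine ⟨(lo ^ 6)⁻¹ + (∑' k, a k) * (vb (1 / 2))⁻¹, ?_⟩
  intro r hr
  have h1 : q r ≤ (lo ^ 6)⁻¹ := by
    unfold q
    split_ifs with h2
    · apply inv_anti₀ (by positivity)
      exact pow_le_pow_left₀ hlo.le hr.1 6
    · positivity
  have h2 := q_nonneg r
  have h3 := att_nonneg h r
  have h4 := att_le h r
  unfold pot
  rw [abs_le]
  constructor <;> linarith

theorem tempered_pot {a R : ℕ → ℝ} (h : Adm a R) : Tempered (pot a R) := by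
  refine ⟨1, 1, 1, one_pos, one_pos, one_pos, ?_⟩
  intro r hr
  have h1 := pot_neg h hr
  have h2 : 0 ≤ r ^ (-(3 + 1) : ℝ) := Real.rpow_nonneg (by linarith) _
  linarith

/-- double sum versus sum over pairs -/
theorem sum_sum_eq_two_U (φ : ℝ → ℝ) (N : ℕ) (x : Fin N → E3) :
    ∑ i, ∑ j, φ (dist (x i) (x j)) = 2 * U φ N x + N * φ 0 := by
  have h1 : ∀ i j : Fin N, φ (dist (x i) (x j))
      = (if i < j then φ (dist (x i) (x j)) else 0) + (if j < i then φ (dist (x j) (x i)) else 0)
        + (if i = j then φ 0 else 0) := by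
    intro i j
    rcases lt_trichotomy i j with hij | hij | hij
    · simp [hij, hij.ne, hij.not_gt]
    · subst hij
      simp
    · simp [hij, hij.ne', hij.not_gt, dist_comm]
  have h2 : ∑ i : Fin N, ∑ j : Fin N, (if j < i then φ (dist (x j) (x i)) else 0) = U φ N x := by
    rw [Finset.sum_comm]
    rfl
  have h3 : ∑ i : Fin N, ∑ j : Fin N, (if i = j then φ 0 else 0) = N * φ 0 := by
    simp
  calc ∑ i, ∑ j, φ (dist (x i) (x j))
      = ∑ i : Fin N, ∑ j : Fin N, ((if i < j then φ (dist (x i) (x j)) else 0)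
        + (if j < i then φ (dist (x j) (x i)) else 0) + (if i = j then φ 0 else 0)) := by
        apply Finset.sum_congr rfl
        intro i _
        apply Finset.sum_congr rfl
        intro j _
        exact h1 i j
    _ = U φ N x + U φ N x + N * φ 0 := by
        simp only [Finset.sum_add_distrib]
        rw [h2, h3]
        rfl
    _ = 2 * U φ N x + N * φ 0 := by ring

theorem U_sub (φ ψ : ℝ → ℝ) (N : ℕ) (x : Fin N → E3) :
    U (fun r => φ r - ψ r) N x = U φ N x - U ψ N x := by
  unfold U
  rw [← Finset.sum_sub_distrib]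
  apply Finset.sum_congr rfl
  intro i _
  rw [← Finset.sum_sub_distrib]
  apply Finset.sum_congr rfl
  intro j _
  split_ifs <;> simp

theorem summable_a_Qf {a R : ℕ → ℝ} (h : Adm a R) {N : ℕ} (c : Fin N → ℝ) (x : Fin N → E3) :
    Summable (fun k => a k * Qf (R k) c x) := by
  unfold Qf
  simp only [Finset.mul_sum]
  apply summable_sum
  intro i _
  apply summable_sum
  intro j _
  have := (summable_att h (dist (x i) (x j))).mul_left (c i * c j)
  refine this.congr ?_
  intro k
  ring

/-- the attraction energy as a sum of quadratic forms -/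
theorem sum_sum_att {a R : ℕ → ℝ} (h : Adm a R) {N : ℕ} (c : Fin N → ℝ) (x : Fin N → E3) :
    ∑ i, ∑ j, c i * c j * att a R (dist (x i) (x j)) = ∑' k, a k * Qf (R k) c x := by
  unfold Qf att
  simp only [Finset.mul_sum]
  have hs : ∀ i j : Fin N, Summable (fun k => a k * (c i * c j * Kf (R k) (dist (x i) (x j)))) := by
    intro i j
    have := (summable_att h (dist (x i) (x j))).mul_left (c i * c j)
    refine this.congr ?_
    intro k
    ring
  rw [Summable.tsum_finsetSum]
  · apply Finset.sum_congr rfl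
    intro i _
    rw [Summable.tsum_finsetSum]
    · apply Finset.sum_congr rfl
      intro j _
      rw [← tsum_mul_left]
      apply tsum_congr
      intro k
      ring
    · intro j _
      exact hs i j
  · intro i _
    apply summable_sum
    intro j _
    exact hs i j

end Vale.Agent.P171
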