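import Vale.Agent.P171.Superadd

open MeasureTheory Filter Topology
open scoped ENNReal

namespace Vale.Agent.P171

theorem lX_nonneg (φ : ℝ → ℝ) (μ L : ℝ) : 0 ≤ lX φ μ L := by
  unfold lX
  by_cases h : XiS φ μ (cube L) = ⊤
  · simp [h]
  · refine Real.log_nonneg ?_
    have := (ENNReal.toReal_le_toReal ENNReal.one_ne_top h).2 (one_le_XiS φ μ (cube L))
    simpa using this

theorem XiS_cube_ne_top {φ : ℝ → ℝ} {B : ℝ} (h : Good φ B) (μ : ℝ) {L : ℝ} (hL : 0 ≤ L) :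
    XiS φ μ (cube L) ≠ ⊤ :=
  ne_top_of_le_ne_top ENNReal.ofReal_ne_top
    (XiS_le_exp h μ (measurableSet_cube L) (pow_nonneg hL 3) (volume_cube hL).le)

theorem one_le_toReal_XiS {φ : ℝ → ℝ} {B : ℝ} (h : Good φ B) (μ : ℝ) {L : ℝ} (hL : 0 ≤ L) :
    1 ≤ (XiS φ μ (cube L)).toReal := by
  have := (ENNReal.toReal_le_toReal ENNReal.one_ne_top (XiS_cube_ne_top h μ hL)).2
    (one_le_XiS φ μ (cube L))
  simpa using this

theorem lX_le_exp {φ : ℝ → ℝ} {B : ℝ} (h : Good φ B) (μ : ℝ) {L : ℝ} (hL : 0 ≤ L) :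
    lX φ μ L ≤ Real.exp (μ + B) * L ^ 3 := by
  unfold lX
  have h1 := XiS_le_exp h μ (measurableSet_cube L) (pow_nonneg hL 3) (volume_cube hL).le
  have h2 := (ENNReal.toReal_le_toReal (XiS_cube_ne_top h μ hL) ENNReal.ofReal_ne_top).2 h1
  rw [ENNReal.toReal_ofReal (Real.exp_pos _).le] at h2
  have h3 := Real.log_le_log (lt_of_lt_of_le one_pos (one_le_toReal_XiS h μ hL)) h2
  rwa [Real.log_exp] at h3

theorem exp_lX {φ : ℝ → ℝ} {B : ℝ} (h : Good φ B) (μ : ℝ) {L : ℝ} (hL : 0 ≤ L) :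
    ENNReal.ofReal (Real.exp (lX φ μ L)) = XiS φ μ (cube L) := by
  unfold lX
  rw [Real.exp_log (lt_of_lt_of_le one_pos (one_le_toReal_XiS h μ hL)),
    ENNReal.ofReal_toReal (XiS_cube_ne_top h μ hL)]

theorem ratio_le_exp {φ : ℝ → ℝ} {B : ℝ} (h : Good φ B) (μ : ℝ) {L : ℝ} (hL : 0 ≤ L) :
    lX φ μ L / (L + 1) ^ 3 ≤ Real.exp (μ + B) := by
  rw [div_le_iff₀ (by positivity)]
  refine (lX_le_exp h μ hL).trans ?_
  refine mul_le_mul_of_nonneg_left ?_ (Real.exp_pos _).le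
  exact pow_le_pow_left₀ hL (by linarith) 3

theorem bddAbove_ratio {φ : ℝ → ℝ} {B : ℝ} (h : Good φ B) (μ : ℝ) :
    BddAbove (Set.range fun L : Set.Ioi (0 : ℝ) => lX φ μ L / ((L : ℝ) + 1) ^ 3) := by
  refine ⟨Real.exp (μ + B), ?_⟩
  rintro _ ⟨L, rfl⟩
  exact ratio_le_exp h μ (le_of_lt L.2)

theorem ratio_le_press {φ : ℝ → ℝ} {B : ℝ} (h : Good φ B) (μ : ℝ) {L : ℝ} (hL : 0 < L) :
    lX φ μ L / (L + 1) ^ 3 ≤ press φ μ :=
  le_ciSup (bddAbove_ratio h μ) (⟨L, hL⟩ : Set.Ioi (0 : ℝ))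

/-- D3a -/
theorem lX_le_press {φ : ℝ → ℝ} {B : ℝ} (h : Good φ B) (μ : ℝ) {L : ℝ} (hL : 0 < L) :
    lX φ μ L ≤ (L + 1) ^ 3 * press φ μ := by
  have := ratio_le_press h μ hL
  rw [div_le_iff₀ (by positivity)] at this
  linarith

/-- D3a, exponentiated -/
theorem XiS_cube_le {φ : ℝ → ℝ} {B : ℝ} (h : Good φ B) (μ : ℝ) {L : ℝ} (hL : 0 < L) :
    XiS φ μ (cube L) ≤ ENNReal.ofReal (Real.exp ((L + 1) ^ 3 * press φ μ)) := by
  rw [← exp_lX h μ hL.le]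
  exact ENNReal.ofReal_le_ofReal (Real.exp_le_exp.2 (lX_le_press h μ hL))

/-- D5 -/
theorem press_nonneg {φ : ℝ → ℝ} {B : ℝ} (h : Good φ B) (μ : ℝ) : 0 ≤ press φ μ :=
  le_trans (div_nonneg (lX_nonneg φ μ 1) (by positivity)) (ratio_le_press h μ one_pos)

theorem press_le_exp {φ : ℝ → ℝ} {B : ℝ} (h : Good φ B) (μ : ℝ) :
    press φ μ ≤ Real.exp (μ + B) := by
  have : Nonempty (Set.Ioi (0 : ℝ)) := ⟨⟨1, Set.mem_Ioi.2 one_pos⟩⟩
  exact ciSup_le fun L => ratio_le_exp h μ (le_of_lt L.2)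

/-- logarithmic form of superadditivity -/
theorem lX_superadd {φ : ℝ → ℝ} {B : ℝ} (h : Good φ B) (μ : ℝ) {ℓ L : ℝ} (hℓ : 0 < ℓ)
    (hL : 0 ≤ L) (M : ℕ) (hM : (M : ℝ) * (ℓ + 1) ≤ L + 1) :
    (M : ℝ) ^ 3 * lX φ μ ℓ ≤ lX φ μ L := by
  have h1 := XiS_superadd h μ hℓ M hM
  have h2 := (ENNReal.toReal_le_toReal (ENNReal.pow_ne_top (XiS_cube_ne_top h μ hℓ.le))
    (XiS_cube_ne_top h μ hL)).2 h1
  rw [ENNReal.toReal_pow] at h2
  have hpos : 0 < (XiS φ μ (cube ℓ)).toReal := lt_of_lt_of_le one_pos (one_le_toReal_XiS h μ hℓ.le)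
  have h3 := Real.log_le_log (pow_pos hpos _) h2
  rw [Real.log_pow] at h3
  unfold lX
  push_cast at h3
  exact h3

theorem tendsto_one_add_inv_pow :
    Tendsto (fun L : ℝ => (1 + L⁻¹) ^ 3) atTop (𝓝 1) := by
  have : Tendsto (fun L : ℝ => (1 + L⁻¹) ^ 3) atTop (𝓝 ((1 + 0) ^ 3)) :=
    (tendsto_const_nhds.add tendsto_inv_atTop_zero).pow 3
  simpa using this

theorem tendsto_one_sub_mul_inv_pow (ℓ : ℝ) :
    Tendsto (fun L : ℝ => (1 - ℓ * L⁻¹) ^ 3) atTop (𝓝 1) := by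
  have : Tendsto (fun L : ℝ => (1 - ℓ * L⁻¹) ^ 3) atTop (𝓝 ((1 - ℓ * 0) ^ 3)) :=
    (tendsto_const_nhds.sub (tendsto_inv_atTop_zero.const_mul ℓ)).pow 3
  simpa using this

/-- D3b: the thermodynamic limit exists. -/
theorem tendsto_press {φ : ℝ → ℝ} {B : ℝ} (h : Good φ B) (μ : ℝ) :
    Tendsto (fun L : ℝ => lX φ μ L / L ^ 3) atTop (𝓝 (press φ μ)) := by
  have : Nonempty (Set.Ioi (0 : ℝ)) := ⟨⟨1, Set.mem_Ioi.2 one_pos⟩⟩
  rw [tendsto_order]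
  constructor
  · intro a ha
    obtain ⟨ℓ, hℓ⟩ := exists_lt_of_lt_ciSup ha
    have hℓ0 : 0 < (ℓ : ℝ) := ℓ.2
    set c := lX φ μ ℓ / ((ℓ : ℝ) + 1) ^ 3 with hc
    have hc0 : 0 ≤ c := div_nonneg (lX_nonneg _ _ _) (by positivity)
    have ht : Tendsto (fun L : ℝ => (1 - (ℓ : ℝ) * L⁻¹) ^ 3 * c) atTop (𝓝 (1 * c)) :=
      (tendsto_one_sub_mul_inv_pow ℓ).mul_const c
    rw [one_mul] at ht
    filter_upwards [ht.eventually (lt_mem_nhds hℓ), eventually_ge_atTop (ℓ : ℝ)] with L hL1 hL2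
    refine lt_of_lt_of_le hL1 ?_
    have hL0 : 0 < L := lt_of_lt_of_le hℓ0 hL2
    set M := ⌊(L + 1) / ((ℓ : ℝ) + 1)⌋₊ with hM
    have hM1 : (M : ℝ) * ((ℓ : ℝ) + 1) ≤ L + 1 := by
      have := Nat.floor_le (a := (L + 1) / ((ℓ : ℝ) + 1)) (by positivity)
      rwa [le_div_iff₀ (by positivity)] at this
    have hM2 : (L - ℓ) / ((ℓ : ℝ) + 1) ≤ M := by
      have := (Nat.lt_floor_add_one ((L + 1) / ((ℓ : ℝ) + 1))).le
      have e : (L - ℓ) / ((ℓ : ℝ) + 1) = (L + 1) / ((ℓ : ℝ) + 1) - 1 := by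
        field_simp
        ring
      rw [e]
      linarith
    have hs := lX_superadd h μ hℓ0 hL0.le M hM1
    rw [le_div_iff₀ (by positivity)]
    refine le_trans ?_ hs
    have h3 : ((L - ℓ) / ((ℓ : ℝ) + 1)) ^ 3 ≤ (M : ℝ) ^ 3 :=
      pow_le_pow_left₀ (div_nonneg (by linarith) (by positivity)) hM2 3
    have h4 := mul_le_mul_of_nonneg_right h3 (lX_nonneg φ μ ℓ)
    refine le_trans (le_of_eq ?_) h4
    rw [hc]
    field_simp
  · intro a ha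
    have ht : Tendsto (fun L : ℝ => (1 + L⁻¹) ^ 3 * press φ μ) atTop (𝓝 (1 * press φ μ)) :=
      tendsto_one_add_inv_pow.mul_const _
    rw [one_mul] at ht
    filter_upwards [ht.eventually (gt_mem_nhds ha), eventually_gt_atTop (0 : ℝ)] with L hL1 hL0
    refine lt_of_le_of_lt ?_ hL1
    rw [div_le_iff₀ (by positivity)]
    refine (lX_le_press h μ hL0).trans (le_of_eq ?_)
    field_simp

/-- D9: tool for upper bounds on the pressure. -/
theorem press_le_of_forall {φ : ℝ → ℝ} {B : ℝ} (h : Good φ B) (μ : ℝ) {ℓ y : ℝ} (hℓ : 0 < ℓ)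
    (hy : ∀ M : ℕ, 0 < M → lX φ μ (M * ℓ) ≤ ((M : ℝ) + 1) ^ 3 * y) : press φ μ ≤ y / ℓ ^ 3 := by
  have hM : Tendsto (fun M : ℕ => (M : ℝ) * ℓ) atTop atTop :=
    tendsto_natCast_atTop_atTop.atTop_mul_const hℓ
  have h1 := (tendsto_press h μ).comp hM
  have h2 : Tendsto (fun M : ℕ => (1 + ((M : ℝ))⁻¹) ^ 3 * (y / ℓ ^ 3)) atTop
      (𝓝 (1 * (y / ℓ ^ 3))) :=
    (tendsto_one_add_inv_pow.comp tendsto_natCast_atTop_atTop).mul_const _
  rw [one_mul] at h2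
  refine le_of_tendsto_of_tendsto h1 h2 ?_
  filter_upwards [eventually_gt_atTop 0] with M hM0
  have hM0' : (0 : ℝ) < M := by exact_mod_cast hM0
  simp only [Function.comp]
  rw [div_le_iff₀ (by positivity)]
  refine (hy M hM0).trans (le_of_eq ?_)
  field_simp

/-- D10: lower bound from the terms `N = 0, 1` in the unit cube. -/
theorem press_ge_log {φ : ℝ → ℝ} {B : ℝ} (h : Good φ B) (μ : ℝ) :
    Real.log (1 + Real.exp μ) / 8 ≤ press φ μ := by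
  have h1 : ENNReal.ofReal (1 + Real.exp μ) ≤ XiS φ μ (cube 1) := by
    unfold XiS GP GS
    refine le_trans ?_ (ENNReal.sum_le_tsum (Finset.range 2))
    rw [Finset.sum_range_succ, Finset.sum_range_one]
    have hb : ∀ x : Fin 1 → E3, bw φ 1 x = 1 := by
      intro x
      simp [bw, U]
    have hb0 : ∀ x : Fin 0 → E3, bw φ 0 x = 1 := by
      intro x
      simp [bw, U]
    simp only [hb, hb0, one_mul]
    rw [lintegral_ob volume (measurable_act μ (measurableSet_cube 1)),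
      lintegral_ob volume (measurable_act μ (measurableSet_cube 1)),
      lintegral_act μ (measurableSet_cube 1), volume_cube zero_le_one,
      ENNReal.ofReal_add zero_le_one (Real.exp_pos _).le]
    simp
  have h2 := (ENNReal.toReal_le_toReal ENNReal.ofReal_ne_top (XiS_cube_ne_top h μ zero_le_one)).2 h1
  rw [ENNReal.toReal_ofReal (by positivity)] at h2
  have h3 : Real.log (1 + Real.exp μ) ≤ lX φ μ 1 := Real.log_le_log (by positivity) h2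
  have h4 := ratio_le_press h μ one_pos
  refine le_trans ?_ h4
  norm_num
  linarith

end Vale.Agent.P171
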