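import Vale.Agent.P171.Pot

open MeasureTheory Filter Topology

namespace Vale.Agent.P171

theorem sqrt_three_le_two : Real.sqrt 3 ≤ 2 := by
  rw [Real.sqrt_le_iff]
  norm_num

theorem kap_le {ℓ ρ : ℝ} (hℓ : 0 < ℓ) (hℓ4 : ℓ ≤ 1 / 4) (hρ : 1 ≤ ρ) :
    kap ℓ ρ ≤ 8 * (ℓ ^ 3)⁻¹ := by
  unfold kap
  have hs := sqrt_three_le_two
  have hs0 := Real.sqrt_nonneg 3
  have h1 : 2 * Real.sqrt 3 * ℓ / ρ ≤ 1 := by
    rw [div_le_one (by linarith)]
    nlinarith
  have h2 : 0 ≤ 2 * Real.sqrt 3 * ℓ / ρ := by positivity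
  have h3 : (1 + 2 * Real.sqrt 3 * ℓ / ρ) ^ 3 ≤ 2 ^ 3 :=
    pow_le_pow_left₀ (by linarith) (by linarith) 3
  have h4 : 0 ≤ (ℓ ^ 3)⁻¹ := by positivity
  nlinarith

theorem q_zero : q 0 = 0 := by
  unfold q
  simp

/-- stability with an explicit constant, given a sufficiently small cell side -/
theorem stab_aux {a R : ℕ → ℝ} (h : Adm a R) {A ℓ : ℝ} (hA : ∑' k, a k ≤ A)
    (hℓ : 0 < ℓ) (hℓ4 : ℓ ≤ 1 / 4) (hD : A * (8 * (ℓ ^ 3)⁻¹) ≤ ((2 * ℓ) ^ 6)⁻¹) (N : ℕ)
    (x : Fin N → E3) (hx : Function.Injective x) :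
    -(((2 * ℓ) ^ 6)⁻¹ / 2 * N) ≤ U (pot a R) N x := by
  set D := ((2 * ℓ) ^ 6)⁻¹ with hDdef
  have hD0 : 0 ≤ D := by positivity
  set S : ℝ := ∑ i : Fin N, ∑ j : Fin N,
    if cellIdx ℓ (x i) = cellIdx ℓ (x j) then (1 : ℝ) else 0 with hS
  have hS0 : 0 ≤ S := by
    apply Finset.sum_nonneg
    intro i _
    apply Finset.sum_nonneg
    intro j _
    split_ifs <;> norm_num
  -- the repulsion
  have h1 : D * S - D * N ≤ ∑ i, ∑ j, q (dist (x i) (x j)) := by
    have e1 : D * S - D * N = ∑ i : Fin N, ∑ j : Fin N,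
        (D * (if cellIdx ℓ (x i) = cellIdx ℓ (x j) then (1 : ℝ) else 0)
          - (if i = j then D else 0)) := by
      simp only [Finset.sum_sub_distrib, ← Finset.mul_sum]
      rw [← hS]
      congr 1
      simp [mul_comm]
    rw [e1]
    apply Finset.sum_le_sum
    intro i _
    apply Finset.sum_le_sum
    intro j _
    by_cases hij : i = j
    · subst hij
      simp [q_zero]
    · rw [if_neg hij]
      by_cases hc : cellIdx ℓ (x i) = cellIdx ℓ (x j)
      · rw [if_pos hc]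
        have hd := dist_le_of_cellIdx_eq hℓ hc
        have hd0 : 0 < dist (x i) (x j) := dist_pos.mpr (fun he => hij (hx he))
        have hd2 : dist (x i) (x j) ≤ 2 * ℓ := by
          have := sqrt_three_le_two
          nlinarith
        have hq : q (dist (x i) (x j)) = (dist (x i) (x j) ^ 6)⁻¹ := by
          unfold q
          rw [if_pos ⟨hd0, by linarith⟩]
        rw [hq, mul_one, sub_zero, hDdef]
        apply inv_anti₀ (by positivity)
        exact pow_le_pow_left₀ hd0.le hd2 6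
      · rw [if_neg hc]
        simp [q_nonneg]
  -- the attraction
  have h2 : ∑ i, ∑ j, att a R (dist (x i) (x j)) ≤ A * (8 * (ℓ ^ 3)⁻¹) * S := by
    have e2 := sum_sum_att h (fun _ : Fin N => (1 : ℝ)) x
    simp only [mul_one, one_mul] at e2
    rw [e2]
    have hle : ∀ k, a k * Qf (R k) (fun _ : Fin N => (1 : ℝ)) x ≤ a k * (8 * (ℓ ^ 3)⁻¹ * S) := by
      intro k
      apply mul_le_mul_of_nonneg_left _ (h.nonneg k)
      have h3 := Qf_le_cell (show 0 < R k by linarith [h.Rge k]) hℓ (fun _ : Fin N => (1 : ℝ))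
        (fun _ => zero_le_one) x
      simp only [mul_one] at h3
      refine h3.trans ?_
      exact mul_le_mul_of_nonneg_right (kap_le hℓ hℓ4 (h.Rge k)) hS0
    have h4 := (summable_a_Qf h (fun _ : Fin N => (1 : ℝ)) x).tsum_le_tsum hle
      (h.summ.mul_right _)
    rw [tsum_mul_right] at h4
    refine h4.trans ?_
    have h5 : 0 ≤ 8 * (ℓ ^ 3)⁻¹ * S := by positivity
    have := mul_le_mul_of_nonneg_right hA h5
    linarith
  have h3 := sum_sum_eq_two_U q N x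
  have h4 := sum_sum_eq_two_U (att a R) N x
  have h5 : U (pot a R) N x = U q N x - U (att a R) N x := U_sub q (att a R) N x
  have h6 := att_nonneg h 0
  have h7 : 0 ≤ (N : ℝ) * att a R 0 := by positivity
  have h8 := mul_le_mul_of_nonneg_right hD hS0
  rw [q_zero] at h3
  rw [h5]
  linarith

/-- C1: uniform stability of the whole class with a given attraction budget `A`. -/
theorem exists_good (A : ℝ) :
    ∃ B : ℝ, 0 ≤ B ∧ ∀ a R : ℕ → ℝ, Adm a R → ∑' k, a k ≤ A → Good (pot a R) B := by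
  set A' : ℝ := max A 0 with hA'
  have hA'0 : 0 ≤ A' := le_max_right _ _
  set ℓ : ℝ := (512 * (A' + 1))⁻¹ with hℓdef
  have hℓ : 0 < ℓ := by positivity
  have hℓ512 : ℓ ≤ 1 / 512 := by
    rw [hℓdef, one_div]
    apply inv_anti₀ (by norm_num)
    linarith
  have hℓ4 : ℓ ≤ 1 / 4 := by linarith
  have hAℓ : 512 * A' * ℓ ≤ 1 := by
    rw [hℓdef, ← div_eq_mul_inv, div_le_one (by positivity)]
    linarith
  have hD : A' * (8 * (ℓ ^ 3)⁻¹) ≤ ((2 * ℓ) ^ 6)⁻¹ := by
    have e1 : A' * (8 * (ℓ ^ 3)⁻¹) = (512 * A' * ℓ ^ 3) * ((2 * ℓ) ^ 6)⁻¹ := by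
      field_simp
      ring
    rw [e1]
    have h1 : 512 * A' * ℓ ^ 3 ≤ 1 := by
      have h2 : ℓ ^ 3 ≤ ℓ := by
        have : ℓ ^ 2 ≤ 1 := by nlinarith
        nlinarith
      have h3 : 512 * A' * ℓ ^ 3 ≤ 512 * A' * ℓ :=
        mul_le_mul_of_nonneg_left h2 (by positivity)
      linarith
    have h4 : 0 ≤ ((2 * ℓ) ^ 6)⁻¹ := by positivity
    nlinarith
  refine ⟨((2 * ℓ) ^ 6)⁻¹ / 2, by positivity, ?_⟩
  intro a R h hA
  refine ⟨measurable_pot h, fun r hr => pot_neg h hr, ?_⟩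
  intro N x hx
  exact stab_aux h (hA.trans (le_max_left _ _)) hℓ hℓ4 hD N x hx

end Vale.Agent.P171
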