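import Vale.Agent.P171.LPup

open MeasureTheory Filter Topology

namespace Vale.Agent.P171

/-- pressures of the class are `Nice` -/
theorem nice_press_step {a R : ℕ → ℝ} (hA : Adm a R) {K : ℕ} (hK : a K = 0) {α : ℝ} (hα : 0 < α) :
    ∃ b0, Nice (press (pot a R)) α b0 := by
  obtain ⟨B, -, hB⟩ := exists_good (∑' k, a k)
  have hG : Good (pot a R) B := hB a R hA le_rfl
  obtain ⟨b0, hb0⟩ := exists_growth (∑' k, a k) α hα
  exact ⟨b0, press_convex hG, press_mono hG, press_nonneg hG, hb0 a R hA le_rfl ⟨K, hK⟩⟩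

/-- the potential with one more Kac piece is good -/
theorem good_kac_step {a R : ℕ → ℝ} (hA : Adm a R) {K : ℕ} (hK : a K = 0) {α ρ : ℝ} (hα : 0 ≤ α)
    (hρ : 1 ≤ ρ) : ∃ B, Good (fun r => pot a R r - α * Kf ρ r) B := by
  obtain ⟨B, -, hB⟩ := exists_good (∑' k, a k + α)
  refine ⟨B, ?_⟩
  have h1 := hB _ _ (adm_update hA K hα hρ) (tsum_update hA hK α).le
  have h2 : pot (Function.update a K α) (Function.update R K ρ)
      = fun r => pot a R r - α * Kf ρ r := by
    funext r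
    exact pot_update hA hK α ρ r
  rwa [h2] at h1

/-- One step of the construction: sharpening plus the Lebowitz-Penrose bounds. -/
theorem step_lemma {a R : ℕ → ℝ} (hA : Adm a R) {K : ℕ} (hK : ∀ k, K ≤ k → a k = 0)
    {α : ℝ} (hα : 0 < α) {μ0 h0 T : ℝ} (hh0 : 0 < h0) (hT : 0 < T)
    (hD : (α * T / 2) ^ 2 ≤ α * D2 (press (pot a R)) μ0 h0 - h0 ^ 2)
    {ε H : ℝ} (hε : 0 < ε) (hH : 0 < H) :
    ∃ μ1 ≤ μ0, ∃ ρ0 : ℝ, 1 ≤ ρ0 ∧ ∀ ρ, ρ0 ≤ ρ → ∀ h ∈ Set.Icc (0 : ℝ) H,
      T * h - ε ≤ D2 (press (fun r => pot a R r - α * Kf ρ r)) μ1 h := by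
  set g := press (pot a R) with hg
  obtain ⟨b0, hN⟩ := nice_press_step hA (hK K le_rfl) hα
  obtain ⟨B, -, hB⟩ := exists_good (∑' k, a k)
  have hG : Good (pot a R) B := hB a R hA le_rfl
  have hpos : 0 < (α * T / 2) ^ 2 := by positivity
  have hD' : h0 ^ 2 / α < D2 g μ0 h0 := by
    rw [div_lt_iff₀ hα]
    nlinarith
  obtain ⟨μ1, hμ1, hkink⟩ := sharpen hα hN hh0 hD'
  have hsq : α * T / 2 ≤ Real.sqrt (α * D2 g μ0 h0 - h0 ^ 2) :=
    Real.le_sqrt_of_sq_le hD
  have hTle : T ≤ 2 / α * Real.sqrt (α * D2 g μ0 h0 - h0 ^ 2) := by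
    have : T = 2 / α * (α * T / 2) := by field_simp
    rw [this]
    exact mul_le_mul_of_nonneg_left hsq (by positivity)
  set G := Tr α g with hGdef
  have hGconv : ConvexOn ℝ Set.univ G := Tr_convex hα hN
  have hGmono : Monotone G := Tr_mono hα hN
  have hGnn : ∀ ν, 0 ≤ G ν := by
    intro ν
    have h1 := le_Tr hα hN ν 0
    have h2 := hN.nonneg (ν + 0)
    simp only [ne_eq, OfNat.ofNat_ne_zero, not_false_eq_true, zero_pow, zero_div, sub_zero] at h1
    exact h2.trans h1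
  obtain ⟨ρ1, hρ1, hup⟩ := press_kac_le hA hK hα μ1 (show 0 < ε / 4 by positivity)
  set W := G (μ1 + H + 1) with hW
  have hWnn : 0 ≤ W := hGnn _
  have hv1 : 0 < vb 1 := vb_pos one_pos
  -- choice of the range
  set ρ2 := 16 * α * (W + 1) / (ε * vb 1) with hρ2
  refine ⟨μ1, hμ1, max ρ1 (max ρ2 1), le_max_of_le_right (le_max_right _ _), ?_⟩
  intro ρ hρ h hh
  have hρ1' : ρ1 ≤ ρ := (le_max_left _ _).trans hρ
  have hρ2' : ρ2 ≤ ρ := ((le_max_left _ _).trans (le_max_right _ _)).trans hρ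
  have hρ3 : 1 ≤ ρ := ((le_max_right _ _).trans (le_max_right _ _)).trans hρ
  have hρpos : 0 < ρ := by linarith
  obtain ⟨B', hG'⟩ := good_kac_step hA (hK K le_rfl) hα.le hρ3
  set p := press (fun r => pot a R r - α * Kf ρ r) with hp
  set s := α / (2 * vb (ρ / 2)) with hs
  have hvb : vb (ρ / 2) = (ρ / 2) ^ 3 * vb 1 := by
    have := vb_mul (c := ρ / 2) (ρ := 1) (by positivity)
    rwa [mul_one] at this
  have hsnn : 0 ≤ s := by
    rw [hs, hvb]; positivity
  -- smallness of the shift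
  have hsW : s * W ≤ ε / 4 := by
    have h1 : s = 4 * α / (ρ ^ 3 * vb 1) := by
      rw [hs, hvb]; field_simp; ring
    have h2 : ρ ≤ ρ ^ 3 := by
      have : 1 ≤ ρ ^ 2 := one_le_pow₀ hρ3
      nlinarith
    have h3 : s ≤ 4 * α / (ρ * vb 1) := by
      rw [h1]
      apply div_le_div_of_nonneg_left (by positivity) (by positivity)
      exact mul_le_mul_of_nonneg_right h2 hv1.le
    have h4 : 16 * α * (W + 1) ≤ ρ * (ε * vb 1) := by
      have := hρ2'
      rw [hρ2, div_le_iff₀ (by positivity)] at this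
      exact this
    have h5 : 4 * α / (ρ * vb 1) * (W + 1) ≤ ε / 4 := by
      rw [div_mul_eq_mul_div, div_le_iff₀ (by positivity)]
      nlinarith
    calc s * W ≤ s * (W + 1) := by nlinarith
      _ ≤ 4 * α / (ρ * vb 1) * (W + 1) := mul_le_mul_of_nonneg_right h3 (by linarith)
      _ ≤ ε / 4 := h5
  -- lower bound
  have hlow : ∀ ν, G (ν - s) ≤ p ν := by
    intro ν
    apply Tr_le
    intro t
    have := press_kac_ge hG hα hρpos hG' ν t
    simpa [hs, hg, hp] using this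
  have hshift : ∀ x, x ≤ μ1 + H → G x - ε / 4 ≤ G (x - s) := by
    intro x hx
    have h1 := convex_shift_le hGconv x hsnn
    have h2 : G (x + 1) ≤ W := hGmono (by linarith)
    have h3 := hGnn x
    have h4 : s * (G (x + 1) - G x) ≤ s * W := mul_le_mul_of_nonneg_left (by linarith) hsnn
    linarith
  have hk := hkink h hh.1
  have hk' : T * h ≤ D2 G μ1 h := (mul_le_mul_of_nonneg_right hTle hh.1).trans hk
  have hu := hup ρ hρ1'
  have e1 := (hshift (μ1 + h) (by linarith [hh.2])).trans (hlow (μ1 + h))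
  have e2 := (hshift (μ1 - h) (by linarith [hh.1])).trans (hlow (μ1 - h))
  unfold D2 at hk' ⊢
  linarith

end Vale.Agent.P171
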