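import Vale.Agent.P171.Thermo

open MeasureTheory Filter Topology
open scoped ENNReal

namespace Vale.Agent.P171

theorem sad_pw_le_pw {X : Type*} {F F' : X → X → ℝ≥0∞} {N : ℕ} {x : Fin N → X}
    (h : ∀ i j, F (x i) (x j) ≤ F' (x i) (x j)) : pw F N x ≤ pw F' N x := by
  unfold pw
  refine Finset.prod_le_prod' fun i _ => Finset.prod_le_prod' fun j _ => ?_
  split_ifs
  · exact h i j
  · exact le_rfl

theorem sad_abs_coord_sub_le_dist (x y : E3) (i : Fin 3) : |x i - y i| ≤ dist x y := by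
  rw [dist_eq_norm]
  have := PiLp.norm_apply_le (x - y) i
  simpa [Real.norm_eq_abs] using this

/-- the shift vector of the sub-cube with index `v` -/
noncomputable def sadShift (ℓ : ℝ) {M : ℕ} (v : Fin 3 → Fin M) : E3 :=
  WithLp.toLp 2 fun i => ((v i : ℕ) : ℝ) * (ℓ + 1)

/-- the sub-cube with index `v` -/
def sadCube (ℓ : ℝ) {M : ℕ} (v : Fin 3 → Fin M) : Set E3 :=
  {p | ∀ i, ((v i : ℕ) : ℝ) * (ℓ + 1) ≤ p i ∧ p i ≤ ((v i : ℕ) : ℝ) * (ℓ + 1) + ℓ}

theorem sadCube_eq_image (ℓ : ℝ) {M : ℕ} (v : Fin 3 → Fin M) :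
    sadCube ℓ v = (fun p => p + sadShift ℓ v) '' cube ℓ := by
  ext p
  constructor
  · intro hp
    refine ⟨p - sadShift ℓ v, fun i => ?_, by simp⟩
    have := hp i
    simp only [sadShift, PiLp.sub_apply]
    constructor <;> linarith [this.1, this.2]
  · rintro ⟨q, hq, rfl⟩ i
    have := hq i
    simp only [sadShift, PiLp.add_apply]
    constructor <;> linarith [this.1, this.2]

theorem measurableSet_sadCube (ℓ : ℝ) {M : ℕ} (v : Fin 3 → Fin M) :
    MeasurableSet (sadCube ℓ v) := by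
  have : sadCube ℓ v = ⋂ i : Fin 3, {p : E3 | ((v i : ℕ) : ℝ) * (ℓ + 1) ≤ p i ∧
      p i ≤ ((v i : ℕ) : ℝ) * (ℓ + 1) + ℓ} := by
    ext p; simp [sadCube]
  rw [this]
  refine MeasurableSet.iInter fun i => ?_
  have hi : Measurable fun p : E3 => p i := by fun_prop
  exact (measurableSet_le measurable_const hi).inter (measurableSet_le hi measurable_const)

theorem sadCube_subset {ℓ L : ℝ} (hℓ : 0 < ℓ) {M : ℕ} (hM : (M : ℝ) * (ℓ + 1) ≤ L + 1)
    (v : Fin 3 → Fin M) : sadCube ℓ v ⊆ cube L := by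
  intro p hp i
  have h1 := hp i
  have hv : ((v i : ℕ) : ℝ) + 1 ≤ M := by exact_mod_cast (v i).2
  have hv0 : (0 : ℝ) ≤ ((v i : ℕ) : ℝ) := Nat.cast_nonneg _
  constructor
  · have : 0 ≤ ((v i : ℕ) : ℝ) * (ℓ + 1) := by positivity
    linarith [h1.1]
  · have : (((v i : ℕ) : ℝ) + 1) * (ℓ + 1) ≤ (M : ℝ) * (ℓ + 1) :=
      mul_le_mul_of_nonneg_right hv (by linarith)
    nlinarith [h1.2]

theorem one_le_dist_sadCube {ℓ : ℝ} (hℓ : 0 < ℓ) {M : ℕ} {v v' : Fin 3 → Fin M} (hne : v ≠ v')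
    {x y : E3} (hx : x ∈ sadCube ℓ v) (hy : y ∈ sadCube ℓ v') : 1 ≤ dist x y := by
  obtain ⟨i, hi⟩ := Function.ne_iff.mp hne
  refine le_trans ?_ (sad_abs_coord_sub_le_dist x y i)
  have hx' := hx i
  have hy' := hy i
  have hi' : (v i : ℕ) ≠ (v' i : ℕ) := fun h => hi (Fin.ext h)
  rcases lt_or_gt_of_ne hi' with hlt | hlt
  · have h1 : ((v i : ℕ) : ℝ) + 1 ≤ ((v' i : ℕ) : ℝ) := by exact_mod_cast hlt
    have h2 : (((v i : ℕ) : ℝ) + 1) * (ℓ + 1) ≤ ((v' i : ℕ) : ℝ) * (ℓ + 1) :=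
      mul_le_mul_of_nonneg_right h1 (by linarith)
    rw [abs_sub_comm]
    refine le_trans ?_ (le_abs_self _)
    nlinarith [hx'.2, hy'.1]
  · have h1 : ((v' i : ℕ) : ℝ) + 1 ≤ ((v i : ℕ) : ℝ) := by exact_mod_cast hlt
    have h2 : (((v' i : ℕ) : ℝ) + 1) * (ℓ + 1) ≤ ((v i : ℕ) : ℝ) * (ℓ + 1) :=
      mul_le_mul_of_nonneg_right h1 (by linarith)
    refine le_trans ?_ (le_abs_self _)
    nlinarith [hx'.1, hy'.2]

theorem sadCube_index_unique {ℓ : ℝ} (hℓ : 0 < ℓ) {M : ℕ} {v v' : Fin 3 → Fin M}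
    {x : E3} (hx : x ∈ sadCube ℓ v) (hx' : x ∈ sadCube ℓ v') : v = v' := by
  by_contra hne
  have := one_le_dist_sadCube hℓ hne hx hx'
  rw [dist_self] at this
  linarith

open Classical in
/-- pair factor with the interaction between different sub-cubes switched off -/
noncomputable def sadF (φ : ℝ → ℝ) (ℓ : ℝ) (M : ℕ) (x y : E3) : ℝ≥0∞ :=
  if ∃ v : Fin 3 → Fin M, x ∈ sadCube ℓ v ∧ y ∈ sadCube ℓ v then Fr φ x y else 1

theorem measurable_sadF {φ : ℝ → ℝ} (hφ : Measurable φ) (ℓ : ℝ) (M : ℕ) :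
    Measurable (Function.uncurry (sadF φ ℓ M)) := by
  classical
  have hS : MeasurableSet {p : E3 × E3 | ∃ v : Fin 3 → Fin M,
      p.1 ∈ sadCube ℓ v ∧ p.2 ∈ sadCube ℓ v} := by
    have : {p : E3 × E3 | ∃ v : Fin 3 → Fin M, p.1 ∈ sadCube ℓ v ∧ p.2 ∈ sadCube ℓ v}
        = ⋃ v : Fin 3 → Fin M, sadCube ℓ v ×ˢ sadCube ℓ v := by
      ext p; simp
    rw [this]
    exact MeasurableSet.iUnion fun v => (measurableSet_sadCube ℓ v).prod (measurableSet_sadCube ℓ v)
  exact Measurable.ite hS (measurable_Fr hφ) measurable_const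

/-- D2: superadditivity, `M^3` cubes of side `ℓ` with corridors of width one. -/
theorem XiS_superadd {φ : ℝ → ℝ} {B : ℝ} (h : Good φ B) (μ : ℝ) {ℓ L : ℝ} (hℓ : 0 < ℓ) (M : ℕ)
    (hM : (M : ℝ) * (ℓ + 1) ≤ L + 1) :
    XiS φ μ (cube ℓ) ^ (M ^ 3) ≤ XiS φ μ (cube L) := by
  classical
  -- each factor
  have hfac : ∀ v : Fin 3 → Fin M,
      XiS φ μ (cube ℓ) ≤ GP volume (pw (sadF φ ℓ M)) (act μ (sadCube ℓ v)) := by
    intro v
    rw [← XiS_translate φ μ (cube ℓ) (sadShift ℓ v), ← sadCube_eq_image, XiS, bw_eq_pw']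
    refine GP_mono volume (fun N => Filter.Eventually.of_forall fun x hx => ?_) fun x => le_rfl
    refine sad_pw_le_pw fun i j => ?_
    have hi := (act_ne_zero_iff μ _ _).1 (hx i)
    have hj := (act_ne_zero_iff μ _ _).1 (hx j)
    rw [sadF, if_pos ⟨v, hi, hj⟩]
  -- the product
  have hprod : GP volume (pw (sadF φ ℓ M))
      (fun x => ∑ v ∈ (Finset.univ : Finset (Fin 3 → Fin M)), act μ (sadCube ℓ v) x)
      = ∏ v ∈ (Finset.univ : Finset (Fin 3 → Fin M)),
        GP volume (pw (sadF φ ℓ M)) (act μ (sadCube ℓ v)) := by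
    refine GP_pw_sum volume (measurable_sadF h.meas ℓ M) Finset.univ _
      (fun v _ => measurable_act μ (measurableSet_sadCube ℓ v)) ?_
    intro v _ v' _ hne x y hx hy
    have hx' := (act_ne_zero_iff μ _ _).1 hx
    have hy' := (act_ne_zero_iff μ _ _).1 hy
    rw [sadF, if_neg]
    rintro ⟨w, hxw, hyw⟩
    exact hne ((sadCube_index_unique hℓ hx' hxw).trans (sadCube_index_unique hℓ hy' hyw).symm)
  -- comparison with the big cube
  have hbig : GP volume (pw (sadF φ ℓ M))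
      (fun x => ∑ v ∈ (Finset.univ : Finset (Fin 3 → Fin M)), act μ (sadCube ℓ v) x)
      ≤ XiS φ μ (cube L) := by
    rw [XiS, bw_eq_pw']
    refine GP_mono volume (fun N => Filter.Eventually.of_forall fun x hx => ?_) fun x => ?_
    · refine sad_pw_le_pw fun i j => ?_
      obtain ⟨v, _, hv⟩ := Finset.exists_ne_zero_of_sum_ne_zero (hx i)
      obtain ⟨v', _, hv'⟩ := Finset.exists_ne_zero_of_sum_ne_zero (hx j)
      have hi := (act_ne_zero_iff μ _ _).1 hv
      have hj := (act_ne_zero_iff μ _ _).1 hv'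
      rw [sadF]
      split_ifs with hex
      · exact le_rfl
      · have hne : v ≠ v' := by
          rintro rfl
          exact hex ⟨v, hi, hj⟩
        have hd := one_le_dist_sadCube hℓ hne hi hj
        have hφ := h.neg _ hd
        rw [Fr, ← ENNReal.ofReal_one]
        refine ENNReal.ofReal_le_ofReal ?_
        rw [← Real.exp_zero]
        exact Real.exp_le_exp.2 (by linarith)
    · by_cases hx : ∃ v : Fin 3 → Fin M, x ∈ sadCube ℓ v
      · obtain ⟨v, hv⟩ := hx
        rw [Finset.sum_eq_single v]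
        · unfold act
          rw [Set.indicator_of_mem hv, Set.indicator_of_mem (sadCube_subset hℓ hM v hv)]
        · intro w _ hw
          unfold act
          rw [Set.indicator_of_notMem]
          intro hxw
          exact hw (sadCube_index_unique hℓ hxw hv)
        · intro hv'
          exact absurd (Finset.mem_univ v) hv'
      · push Not at hx
        rw [Finset.sum_eq_zero]
        · exact zero_le
        · intro v _
          unfold act
          rw [Set.indicator_of_notMem (hx v)]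
  calc XiS φ μ (cube ℓ) ^ (M ^ 3)
      = ∏ _v ∈ (Finset.univ : Finset (Fin 3 → Fin M)), XiS φ μ (cube ℓ) := by
        rw [Finset.prod_const, Finset.card_univ, Fintype.card_fun, Fintype.card_fin,
          Fintype.card_fin]
    _ ≤ ∏ v ∈ (Finset.univ : Finset (Fin 3 → Fin M)),
        GP volume (pw (sadF φ ℓ M)) (act μ (sadCube ℓ v)) :=
        Finset.prod_le_prod' fun v _ => hfac v
    _ = _ := hprod.symm
    _ ≤ XiS φ μ (cube L) := hbig

end Vale.Agent.P171
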